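import Vale.Agent.P088.R2.H960.C.SlabH

/-!
# Region I of zone C in abstract form: variable frames, cut-off inside

`regA` : all hypotheses pointwise on cells; `cutG` : the weight `χ²` inside (nothing is cut).
-/

open Set MeasureTheory
open scoped ContDiff

noncomputable section

namespace Vale.Agent.P088.R2.H960.C

variable {E : Type*} [NormedAddCommGroup E] [NormedSpace ℝ E] {ι : Type*} [Fintype ι]
  {J : Type*} [Fintype J] [DecidableEq J] {J₀ : Type*} [Fintype J₀] [DecidableEq J₀]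
  [MeasurableSpace E] [BorelSpace E] (μ : Measure E) [IsFiniteMeasureOnCompacts μ]
  {α β : ι → E → E} {A B : ι → E → ℝ} {b c : E → ℝ}

set_option linter.unusedSectionVars false

/-- The allowed relative error of the frozen `W_q`. -/
def ka (n : ℕ) : ℝ := 1 / (2048 * (n : ℝ) ^ 2)

/-- The pointwise hypotheses of region I. -/
structure RA (n : ℕ) (O : Set E) (α β : ι → E → E) (A B : ι → E → ℝ) (Ef K e₃ Gn : E → ℝ)
    (lq : E → ι → E →L[ℝ] ℝ) (l0 : J₀ → E →L[ℝ] ℝ) (lam : ℝ) (ℓ : J → E →L[ℝ] ℝ)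
    (r : J → E → ℝ) (Cb Cg : ℝ) : Prop where
  hlam : 0 < lam
  fz : ∀ z₀ ∈ O, FZ μ (fun i => α i z₀) (fun i => β i z₀) (lq z₀) (8 * ((n : ℝ) - 1))
  cE : Continuous Ef
  cK : Continuous K
  ce : Continuous e₃
  cG : Continuous Gn
  cα : ∀ i, Continuous (α i)
  cβ : ∀ i, Continuous (β i)
  cA : ∀ i, Continuous (A i)
  cB : ∀ i, Continuous (B i)
  E0 : ∀ z ∈ O, 0 < Ef z
  K0 : ∀ z ∈ O, 0 < K z
  r0 : ∀ z ∈ O, ∀ j, 0 < r j z
  B0 : ∀ z ∈ O, (fun i => B i z) ≠ 0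
  hr : ∀ z ∈ O, ∀ z' ∈ O, (∀ j, |l0 j z - l0 j z'| ≤ 2 * lam) → ∀ j, r j z ≤ 2 * r j z'
  cell : ∀ z ∈ O, ∀ z' ∈ O, (∀ j, |l0 j z - l0 j z'| ≤ 2 * lam) →
      (∀ j, r j z * (ℓ j z - ℓ j z') ^ 2 ≤ 4) →
      (1 - 1 / (64 * (n : ℝ))) * Ef z' ≤ Ef z ∧ (1 - 1 / (64 * (n : ℝ))) * Ef z ≤ Ef z' ∧
      (∀ i, (A i z - A i z' - Ef z' * lq z' i (z - z')) ^ 2 ≤ ka n * Ef z) ∧
      (∀ i, (B i z - B i z') ^ 2 ≤ Cb * K z) ∧
      (∀ i, ‖α i z - α i z'‖ ≤ e₃ z) ∧ ∀ i, ‖β i z - β i z'‖ ≤ e₃ z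
  ga : ∀ z ∈ O, Fintype.card J₀ * Mth * ∑ i, ∑ j, (l0 j (α i z) / lam) ^ 2
      + 4 * Fintype.card J * Mth * ∑ i, ∑ j, ℓ j (α i z) ^ 2 * r j z ≤ Ef z / 32
  gb : ∀ z ∈ O, Fintype.card J₀ * Mth * ∑ i, ∑ j, (l0 j (β i z) / lam) ^ 2
      + 4 * Fintype.card J * Mth * ∑ i, ∑ j, ℓ j (β i z) ^ 2 * r j z ≤ Cg * K z
  gn : ∀ z ∈ O, 2 * (Fintype.card J₀ * Mth * ∑ j, (‖l0 j‖ / lam) ^ 2)
      + 8 * (Fintype.card J * Mth * ∑ j, ‖ℓ j‖ ^ 2 * r j z) ≤ Gn z

/-- The frame error density. -/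
def fre (e₃ Gn b c : E → ℝ) (z : E) : ℝ :=
  e₃ z ^ 2 * (‖fderiv ℝ b z‖ ^ 2 + ‖fderiv ℝ c z‖ ^ 2 + Gn z * (b z ^ 2 + c z ^ 2))

theorem fre_cont {e₃ Gn : E → ℝ} (h3 : Continuous e₃) (h4 : Continuous Gn) (hb : Ts b)
    (hc : Ts c) : Continuous (fre e₃ Gn b c) := by
  have hdb : Continuous (fderiv ℝ b) := hb.1.continuous_fderiv (by simp)
  have hdc : Continuous (fderiv ℝ c) := hc.1.continuous_fderiv (by simp)
  exact (h3.pow 2).mul (((hdb.norm.pow 2).add (hdc.norm.pow 2)).add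
      (h4.mul ((hb.1.continuous.pow 2).add (hc.1.continuous.pow 2))))

theorem fre_zero {e₃ Gn : E → ℝ} {z : E} (hb : z ∉ tsupport b) (hc : z ∉ tsupport c) :
    fre e₃ Gn b c z = 0 := by
  unfold fre
  rw [image_eq_zero_of_notMem_tsupport hb, image_eq_zero_of_notMem_tsupport hc, fd_zero hb,
    fd_zero hc]
  simp

/-- **Region I, abstract.** -/
theorem regA {n : ℕ} (hn : 3 ≤ n) (card : Fintype.card ι = n) {O : Set E}
    {Ef K e₃ Gn : E → ℝ} {lq : E → ι → E →L[ℝ] ℝ} {l0 : J₀ → E →L[ℝ] ℝ} {lam : ℝ}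
    {ℓ : J → E →L[ℝ] ℝ} {r : J → E → ℝ} {Cb Cg : ℝ} (hCb : 0 ≤ Cb) (hCg : 0 ≤ Cg)
    (h : RA μ n O α β A B Ef K e₃ Gn lq l0 lam ℓ r Cb Cg)
    (hb : Ts b) (hc : Ts c) (hO : tsupport b ∪ tsupport c ⊆ O) :
    (8 * (n : ℝ) - 9.25) * ∫ z, Ef z ^ 2 * b z ^ 2 ∂μ
        - (1024 * (n : ℝ) ^ 2 * Cb + 2 * Cg) * ∫ z, Ef z * K z * c z ^ 2 ∂μ
        - 2048 * (n : ℝ) ^ 2 * ∫ z, Ef z * fre e₃ Gn b c z ∂μ
      ≤ ∫ z, Ef z * YG α β A B b c z ∂μ := by
  have hn3 : (3 : ℝ) ≤ n := by exact_mod_cast hn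
  have hn0 : (0 : ℝ) < n := by linarith
  have pk : 0 < ka n := by unfold ka; positivity
  -- positive versions of `Ef`, `K`
  set Ec : E → ℝ := fun z => max (Ef z) 0 with hEc
  set Kc : E → ℝ := fun z => max (K z) 0 with hKc
  have cEc : Continuous Ec := h.cE.max continuous_const
  have cKc : Continuous Kc := h.cK.max continuous_const
  have Ec1 : ∀ z ∈ O, Ec z = Ef z := fun z hz => max_eq_left (h.E0 z hz).le
  have Kc1 : ∀ z ∈ O, Kc z = K z := fun z hz => max_eq_left (h.K0 z hz).le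
  have Ec0 : ∀ z, 0 ≤ Ec z := fun z => le_max_right _ _
  have Kc0 : ∀ z, 0 ≤ Kc z := fun z => le_max_right _ _
  have key := slabG μ (α := α) (β := β) (A := A) (B := B) (l0 := l0) (lam := lam) (ℓ := ℓ)
    (lq := lq) (O := O) (g := 8 * ((n : ℝ) - 1)) h.fz (by linarith) (Ef := Ef)
    (e₁ := fun z => Real.sqrt (ka n * Ec z)) (e₂ := fun z => Real.sqrt (Cb * Kc z)) (e₃ := e₃)
    (Ga := fun z => Ec z / 32) (Gb := fun z => Cg * Kc z) (Gn := Gn) (r := r)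
    (δ := 1 / (64 * (n : ℝ))) (by positivity)
    (by rw [div_le_one (by positivity)]; linarith) h.hlam hb hc hO h.cE
    ((continuous_const.mul cEc).sqrt) ((continuous_const.mul cKc).sqrt) h.ce
    (cEc.div_const _) (continuous_const.mul cKc) h.cG h.cα h.cβ h.cA h.cB h.E0 h.r0 h.B0 h.hr
    (fun z hz z' hz' h1 h2 => by
      obtain ⟨q1, q2, q3, q4, q5, q6⟩ := h.cell z hz z' hz' h1 h2
      refine ⟨q1, q2, fun i => ?_, fun i => ?_, q5, q6⟩
      · apply Real.abs_le_sqrt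
        rw [Ec1 z hz]; exact q3 i
      · apply Real.abs_le_sqrt
        rw [Kc1 z hz]; exact q4 i)
    (fun z hz => by rw [Ec1 z hz]; exact h.ga z hz)
    (fun z hz => by rw [Kc1 z hz]; exact h.gb z hz) h.gn
  have hS : ∀ z, z ∉ O → b z = 0 ∧ c z = 0 := fun z hz =>
    ⟨image_eq_zero_of_notMem_tsupport fun h' => hz (hO (Or.inl h')),
      image_eq_zero_of_notMem_tsupport fun h' => hz (hO (Or.inr h'))⟩
  have hS' : ∀ z, z ∉ O → z ∉ tsupport b ∧ z ∉ tsupport c := fun z hz =>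
    ⟨fun h' => hz (hO (Or.inl h')), fun h' => hz (hO (Or.inr h'))⟩
  -- evaluation of the costs
  have T1 : Integrable (fun z => Ef z ^ 2 * b z ^ 2) μ := w_int μ (h.cE.pow 2) hb
  have T2 : Integrable (fun z => (Ef z * K z) * c z ^ 2) μ := w_int μ (h.cE.mul h.cK) hc
  have T3 : Integrable (fun z => Ef z * fre e₃ Gn b c z) μ :=
    int_of μ (h.cE.mul (fre_cont h.ce h.cG hb hc)) hb hc fun z h1 h2 => by
      show Ef z * fre e₃ Gn b c z = 0
      rw [fre_zero h1 h2]; ring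
  have e1 : ∫ z, Ef z * ert (fun z => Real.sqrt (ka n * Ec z)) (fun z => Real.sqrt (Cb * Kc z))
        e₃ Gn b c z ∂μ
      = ka n * ∫ z, Ef z ^ 2 * b z ^ 2 ∂μ + Cb * ∫ z, (Ef z * K z) * c z ^ 2 ∂μ
        + 2 * ∫ z, Ef z * fre e₃ Gn b c z ∂μ := by
    have T12 : Integrable (fun z => ka n * (Ef z ^ 2 * b z ^ 2) + Cb * (Ef z * K z * c z ^ 2)) μ :=
      (T1.const_mul _).add (T2.const_mul _)
    rw [← integral_const_mul, ← integral_const_mul, ← integral_const_mul,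
      ← integral_add (T1.const_mul _) (T2.const_mul _), ← integral_add T12 (T3.const_mul _)]
    congr 1
    funext z
    unfold ert fre
    rw [Real.sq_sqrt (mul_nonneg pk.le (Ec0 z)), Real.sq_sqrt (mul_nonneg hCb (Kc0 z))]
    by_cases hz : z ∈ O
    · rw [Ec1 z hz, Kc1 z hz]; ring
    · rw [(hS z hz).1, (hS z hz).2, fd_zero (hS' z hz).1, fd_zero (hS' z hz).2]
      simp
  have e2 : ∫ z, Ef z * (8 * (Ec z / 32) * b z ^ 2 + 2 * (Cg * Kc z) * c z ^ 2) ∂μ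
      = 1 / 4 * ∫ z, Ef z ^ 2 * b z ^ 2 ∂μ + 2 * Cg * ∫ z, (Ef z * K z) * c z ^ 2 ∂μ := by
    rw [← integral_const_mul, ← integral_const_mul,
      ← integral_add (T1.const_mul _) (T2.const_mul _)]
    congr 1
    funext z
    by_cases hz : z ∈ O
    · rw [Ec1 z hz, Kc1 z hz]; ring
    · rw [(hS z hz).1, (hS z hz).2]; simp
  rw [e1, e2, card] at key
  have e3 : 16 * (n : ℝ) / (1 / (64 * (n : ℝ))) = 1024 * (n : ℝ) ^ 2 := by
    field_simp; norm_num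
  rw [e3] at key
  set X := ∫ z, Ef z ^ 2 * b z ^ 2 ∂μ with hX
  set Z := ∫ z, Ef z * K z * c z ^ 2 ∂μ with hZ
  set F := ∫ z, Ef z * fre e₃ Gn b c z ∂μ with hF
  have X0 : 0 ≤ X := integral_nonneg fun z => by positivity
  have h1 : 1024 * (n : ℝ) ^ 2 * (ka n * X) = 1 / 2 * X := by
    have : 1024 * (n : ℝ) ^ 2 * ka n = 1 / 2 := by unfold ka; field_simp; norm_num
    rw [← mul_assoc, this]
  have h2 : 1 - 4 * (1 / (64 * (n : ℝ))) ≤ (1 - 1 / (64 * (n : ℝ))) ^ 4 := by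
    have h3 : 1 / (64 * (n : ℝ)) ≤ 1 := by rw [div_le_one (by positivity)]; linarith
    have := one_add_mul_le_pow (a := -(1 / (64 * (n : ℝ)))) (by linarith) 4
    have e : (1 : ℝ) + ((4 : ℕ) : ℝ) * -(1 / (64 * (n : ℝ))) = 1 - 4 * (1 / (64 * (n : ℝ))) := by
      push_cast; ring
    rw [e] at this
    have e2 : (1 : ℝ) + -(1 / (64 * (n : ℝ))) = 1 - 1 / (64 * (n : ℝ)) := by ring
    rwa [e2] at this
  have h3 : 8 * ((n : ℝ) - 1) - 1 / 2 ≤ (1 - 1 / (64 * (n : ℝ))) ^ 4 * (8 * ((n : ℝ) - 1)) := by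
    have h4 := mul_le_mul_of_nonneg_right h2 (by linarith : 0 ≤ 8 * ((n : ℝ) - 1))
    have h5 : (1 - 4 * (1 / (64 * (n : ℝ)))) * (8 * ((n : ℝ) - 1))
        = 8 * ((n : ℝ) - 1) - ((n : ℝ) - 1) / (2 * n) := by
      field_simp; ring
    rw [h5] at h4
    have h6 : ((n : ℝ) - 1) / (2 * n) ≤ 1 / 2 := by
      rw [div_le_div_iff₀ (by positivity) (by norm_num)]; linarith
    linarith
  have h4 := mul_le_mul_of_nonneg_right h3 X0
  have h5 : 1024 * (n : ℝ) ^ 2 * (ka n * X + Cb * Z + 2 * F)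
      = 1 / 2 * X + 1024 * (n : ℝ) ^ 2 * Cb * Z + 2048 * (n : ℝ) ^ 2 * F := by
    rw [mul_add, mul_add, h1]; ring
  rw [h5] at key
  linarith

/-- The density of the cut-off cost. -/
def ctc (α β : ι → E → E) (χ b c : E → ℝ) (z : E) : ℝ :=
  ∑ i, (2 * (fderiv ℝ χ z (α i z) * b z) + fderiv ℝ χ z (β i z) * c z) ^ 2

/-- Cutting the form: `|Y(χb, χc)|² ≤ (1 + δ) χ² |Y|² + (1 + 1/δ) |...|²`. -/
theorem YG_cut {χ : E → ℝ} {z : E} (hχ : DifferentiableAt ℝ χ z) (hb : DifferentiableAt ℝ b z)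
    (hc : DifferentiableAt ℝ c z) {δ : ℝ} (hδ : 0 < δ) :
    YG α β A B (fun z => χ z * b z) (fun z => χ z * c z) z
      ≤ (1 + δ) * (χ z ^ 2 * YG α β A B b c z) + (1 + 1 / δ) * ctc α β χ b c z := by
  unfold YG YY ctc
  rw [Finset.mul_sum, Finset.mul_sum, Finset.mul_sum, ← Finset.sum_add_distrib]
  apply Finset.sum_le_sum
  intro i _
  rw [Yi_mul hχ hb hc]
  set y := Yi (fun i => α i z) (fun i => β i z) A B b c i z
  set g := 2 * (fderiv ℝ χ z (α i z) * b z) + fderiv ℝ χ z (β i z) * c z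
  have h1 : 0 ≤ (1 / δ) * (δ * (χ z * y) + g) ^ 2 := by positivity
  have h2 : (1 / δ) * (δ * (χ z * y) + g) ^ 2
      = δ * (χ z ^ 2 * y ^ 2) + 2 * (χ z * y) * g + (1 / δ) * g ^ 2 := by
    field_simp; ring
  rw [h2] at h1
  nlinarith

/-- **Region I, abstract, with the weight `χ²` inside.** -/
theorem cutG {n : ℕ} (hn : 3 ≤ n) (card : Fintype.card ι = n) {O : Set E}
    {Ef K e₃ Gn : E → ℝ} {lq : E → ι → E →L[ℝ] ℝ} {l0 : J₀ → E →L[ℝ] ℝ} {lam : ℝ}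
    {ℓ : J → E →L[ℝ] ℝ} {r : J → E → ℝ} {Cb Cg : ℝ} (hCb : 0 ≤ Cb) (hCg : 0 ≤ Cg)
    (h : RA μ n O α β A B Ef K e₃ Gn lq l0 lam ℓ r Cb Cg)
    {χ : E → ℝ} (hχ : ContDiff ℝ ∞ χ) (hχO : tsupport χ ⊆ O) (hb : Ts b) (hc : Ts c) :
    1 / 4 * (∫ z, χ z ^ 2 * (Ef z * YG α β A B b c z) ∂μ
          + ∫ z, χ z ^ 2 * (Ef z ^ 2 * b z ^ 2) ∂μ)
        - (8192 * (n : ℝ) ^ 2 * Cb + 16 * Cg) * ∫ z, χ z ^ 2 * (Ef z * K z * c z ^ 2) ∂μ
        - 16384 * (n : ℝ) ^ 2 * ∫ z, Ef z * fre e₃ Gn (fun z => χ z * b z)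
            (fun z => χ z * c z) z ∂μ
        - 8 * (1 + 128 * n) * ∫ z, Ef z * ctc α β χ b c z ∂μ
      ≤ 8 * (1 - 1 / (128 * (n : ℝ))) * ∫ z, χ z ^ 2 * (Ef z * YG α β A B b c z) ∂μ
        - 32 * n * (1 + 1 / (128 * (n : ℝ))) * ∫ z, χ z ^ 2 * (Ef z ^ 2 * b z ^ 2) ∂μ := by
  have hn3 : (3 : ℝ) ≤ n := by exact_mod_cast hn
  have hn0 : (0 : ℝ) < n := by linarith
  have tb : Ts fun z => χ z * b z := hb.mul_left hχ
  have tc : Ts fun z => χ z * c z := hc.mul_left hχ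
  have hsub : tsupport (fun z => χ z * b z) ∪ tsupport (fun z => χ z * c z) ⊆ O :=
    union_subset (tsupport_mul_subset_left.trans hχO) (tsupport_mul_subset_left.trans hχO)
  have key := regA μ hn card hCb hCg h tb tc hsub
  have hdχ : Continuous (fderiv ℝ χ) := hχ.continuous_fderiv (by simp)
  have cct : Continuous (ctc α β χ b c) := by
    unfold ctc
    exact continuous_finsetSum _ fun i _ => ((continuous_const.mul
      ((hdχ.clm_apply (h.cα i)).mul hb.1.continuous)).add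
      ((hdχ.clm_apply (h.cβ i)).mul hc.1.continuous)).pow 2
  have cχ : Continuous χ := hχ.continuous
  have cY := YG_cont h.cα h.cβ h.cA h.cB hb hc
  have I1 : Integrable (fun z => χ z ^ 2 * (Ef z * YG α β A B b c z)) μ :=
    int_of μ ((cχ.pow 2).mul (h.cE.mul cY)) hb hc fun z h1 h2 => by
      show χ z ^ 2 * (Ef z * YG α β A B b c z) = 0
      rw [YG_zero h1 h2]; ring
  have I2 : Integrable (fun z => Ef z * ctc α β χ b c z) μ :=
    int_of μ (h.cE.mul cct) hb hc fun z h1 h2 => by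
      show Ef z * ctc α β χ b c z = 0
      unfold ctc
      rw [image_eq_zero_of_notMem_tsupport h1, image_eq_zero_of_notMem_tsupport h2]
      simp
  have I3 : Integrable (fun z => Ef z * YG α β A B (fun z => χ z * b z)
      (fun z => χ z * c z) z) μ :=
    int_of μ (h.cE.mul (YG_cont h.cα h.cβ h.cA h.cB tb tc)) tb tc fun z h1 h2 => by
      show Ef z * YG α β A B (fun z => χ z * b z) (fun z => χ z * c z) z = 0
      rw [YG_zero h1 h2]; ring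
  have hpt : ∀ z, Ef z * YG α β A B (fun z => χ z * b z) (fun z => χ z * c z) z
      ≤ (1 + 1 / (128 * (n : ℝ))) * (χ z ^ 2 * (Ef z * YG α β A B b c z))
        + (1 + 128 * n) * (Ef z * ctc α β χ b c z) := by
    intro z
    by_cases hz : z ∈ O
    · have h1 := YG_cut (α := α) (β := β) (A := A) (B := B)
        ((hχ.differentiable (by simp)) z) (hb.df z) (hc.df z)
        (δ := 1 / (128 * (n : ℝ))) (by positivity)
      have h2 := mul_le_mul_of_nonneg_left h1 (h.E0 z hz).le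
      have e : 1 + 1 / (1 / (128 * (n : ℝ))) = 1 + 128 * n := by rw [one_div_one_div]
      rw [e] at h2
      linarith
    · have hzχ : z ∉ tsupport χ := fun h' => hz (hχO h')
      have h1 : z ∉ tsupport (fun z => χ z * b z) := fun h' => hz (hsub (Or.inl h'))
      have h2 : z ∉ tsupport (fun z => χ z * c z) := fun h' => hz (hsub (Or.inr h'))
      rw [YG_zero h1 h2, image_eq_zero_of_notMem_tsupport hzχ]
      unfold ctc
      rw [fd_zero hzχ]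
      simp
  have h5 := integral_mono I3 ((I1.const_mul _).add (I2.const_mul _)) hpt
  have e5 : ∫ z, ((fun z => (1 + 1 / (128 * (n : ℝ))) * (χ z ^ 2 * (Ef z * YG α β A B b c z)))
      + (fun z => (1 + 128 * n) * (Ef z * ctc α β χ b c z)) : E → ℝ) z ∂μ
      = (1 + 1 / (128 * (n : ℝ))) * ∫ z, χ z ^ 2 * (Ef z * YG α β A B b c z) ∂μ
        + (1 + 128 * n) * ∫ z, Ef z * ctc α β χ b c z ∂μ := by
    rw [integral_add' (I1.const_mul _) (I2.const_mul _), integral_const_mul, integral_const_mul]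
  rw [e5] at h5
  have e6 : ∫ z, Ef z ^ 2 * (χ z * b z) ^ 2 ∂μ = ∫ z, χ z ^ 2 * (Ef z ^ 2 * b z ^ 2) ∂μ := by
    congr 1; funext z; ring
  have e7 : ∫ z, Ef z * K z * (χ z * c z) ^ 2 ∂μ = ∫ z, χ z ^ 2 * (Ef z * K z * c z ^ 2) ∂μ := by
    congr 1; funext z; ring
  rw [e6, e7] at key
  set X := ∫ z, χ z ^ 2 * (Ef z ^ 2 * b z ^ 2) ∂μ with hX
  set Z := ∫ z, χ z ^ 2 * (Ef z * K z * c z ^ 2) ∂μ with hZ
  set F := ∫ z, Ef z * fre e₃ Gn (fun z => χ z * b z) (fun z => χ z * c z) z ∂μ with hF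
  set Y := ∫ z, χ z ^ 2 * (Ef z * YG α β A B b c z) ∂μ with hY
  set G := ∫ z, Ef z * ctc α β χ b c z ∂μ with hG
  have X0 : 0 ≤ X := integral_nonneg fun z => by positivity
  have Y0 : 0 ≤ Y := by
    apply integral_nonneg
    intro z
    by_cases hz : z ∈ O
    · exact mul_nonneg (sq_nonneg _) (mul_nonneg (h.E0 z hz).le (YG_nonneg z))
    · show 0 ≤ χ z ^ 2 * (Ef z * YG α β A B b c z)
      rw [image_eq_zero_of_notMem_tsupport fun h' => hz (hχO h')]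
      simp
  have Z0 : 0 ≤ Z := by
    apply integral_nonneg
    intro z
    by_cases hz : z ∈ O
    · exact mul_nonneg (sq_nonneg _) (mul_nonneg (mul_nonneg (h.E0 z hz).le (h.K0 z hz).le)
        (sq_nonneg _))
    · show 0 ≤ χ z ^ 2 * (Ef z * K z * c z ^ 2)
      rw [image_eq_zero_of_notMem_tsupport fun h' => hz (hχO h')]
      simp
  have F0 : 0 ≤ F := by
    apply integral_nonneg
    intro z
    by_cases hz : z ∈ O
    · refine mul_nonneg (h.E0 z hz).le ?_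
      have h1 : 0 ≤ Gn z := le_trans (by
        have := Mth_pos
        have h2 : ∀ j, 0 ≤ ‖ℓ j‖ ^ 2 * r j z := fun j =>
          mul_nonneg (sq_nonneg _) (h.r0 z hz j).le
        have h3 : 0 ≤ ∑ j, ‖ℓ j‖ ^ 2 * r j z := Finset.sum_nonneg fun j _ => h2 j
        have h4 : 0 ≤ ∑ j, (‖l0 j‖ / lam) ^ 2 := Finset.sum_nonneg fun j _ => sq_nonneg _
        positivity) (h.gn z hz)
      unfold fre
      positivity
    · have h1 : z ∉ tsupport (fun z => χ z * b z) := fun h' => hz (hsub (Or.inl h'))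
      have h2 : z ∉ tsupport (fun z => χ z * c z) := fun h' => hz (hsub (Or.inr h'))
      show 0 ≤ Ef z * fre e₃ Gn (fun z => χ z * b z) (fun z => χ z * c z) z
      rw [fre_zero h1 h2]; simp
  have G0 : 0 ≤ G := by
    apply integral_nonneg
    intro z
    by_cases hz : z ∈ O
    · exact mul_nonneg (h.E0 z hz).le (Finset.sum_nonneg fun _ _ => sq_nonneg _)
    · show 0 ≤ Ef z * ctc α β χ b c z
      unfold ctc
      rw [fd_zero fun h' => hz (hχO h')]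
      simp
  -- algebra: `(1 + d) Y + (1 + 128 n) G ≥ (8 n - 9.25) X - C Z - 2048 n² F`, `d = 1/(128 n)`
  set d : ℝ := 1 / (128 * (n : ℝ)) with hd
  have d0 : 0 < d := by positivity
  have d1 : d ≤ 1 / 384 := by
    rw [hd]; apply one_div_le_one_div_of_le (by norm_num); linarith
  have dn : n * d = 1 / 128 := by rw [hd]; field_simp
  set C := 1024 * (n : ℝ) ^ 2 * Cb + 2 * Cg with hC
  have C0 : 0 ≤ C := by positivity
  have k1 : (8 * (n : ℝ) - 9.25) * X - C * Z - 2048 * (n : ℝ) ^ 2 * F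
      ≤ (1 + d) * Y + (1 + 128 * n) * G := key.trans h5
  -- multiply by `q := (8 (1 - d) - 1/4)/(1 + d)`, `7.68 ≤ q ≤ 8`
  have k2 : 7.68 * ((8 * (n : ℝ) - 9.25) * X - C * Z - 2048 * (n : ℝ) ^ 2 * F)
      ≤ 7.68 * ((1 + d) * Y + (1 + 128 * n) * G) := mul_le_mul_of_nonneg_left k1 (by norm_num)
  have k3 : 7.68 * ((1 + d) * Y) ≤ (8 * (1 - d) - 1 / 4) * Y := by
    have : 7.68 * (1 + d) ≤ 8 * (1 - d) - 1 / 4 := by linarith
    have := mul_le_mul_of_nonneg_right this Y0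
    linarith
  have k4 : (32 * n * (1 + d) + 1 / 4) * X ≤ 7.68 * ((8 * (n : ℝ) - 9.25) * X) := by
    have h1 : 32 * (n : ℝ) * (1 + d) = 32 * n + 1 / 4 := by
      have : 32 * (n : ℝ) * (1 + d) = 32 * n + 32 * (n * d) := by ring
      rw [this, dn]; norm_num
    rw [h1]
    have h2 : 32 * (n : ℝ) + 1 / 4 + 1 / 4 ≤ 7.68 * (8 * (n : ℝ) - 9.25) := by linarith
    have := mul_le_mul_of_nonneg_right h2 X0
    linarith
  have k5 : 0 ≤ C * Z := mul_nonneg C0 Z0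
  have k6 : 0 ≤ (n : ℝ) ^ 2 * F := by positivity
  have k7 : 0 ≤ (1 + 128 * n) * G := by positivity
  have e8 : (8192 * (n : ℝ) ^ 2 * Cb + 16 * Cg) * Z = 8 * (C * Z) := by rw [hC]; ring
  rw [e8]
  linarith

end Vale.Agent.P088.R2.H960.C
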