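import Vale.Agent.P088.R2.H960.C.Slab

/-!
# Region I of zone C, flat

`W = Φ(u) + e^u Σ(r²)`, `u = 2 p_n`, `E = e^u`: `W_q = E sd(r²) q`, `W_p = 2 (f₁(u) + E sg(r²)) e_n`,
with `sd = 2 Σ'`, `sg = Σ`, `f₁ = Φ'`. In the region `r ≤ c₀`, `E r² ≤ c K`:
`8 ∫ E |Y|² - 32 n ∫ E² b² ≥ 1/2 (∫ E |Y|² + ∫ E² b²) - C₃ ∫ E K c²`.
-/

open Set MeasureTheory
open scoped ContDiff

noncomputable section

namespace Vale.Agent.P088.R2.H960.C

variable {E : Type*} [NormedAddCommGroup E] [NormedSpace ℝ E] {ι : Type*} [Fintype ι]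
  [DecidableEq ι]

set_option linter.unusedSectionVars false

/-- Dual frames. -/
structure Fr (α β : ι → E) (lq lp : ι → E →L[ℝ] ℝ) : Prop where
  qa : ∀ i j, lq i (α j) = if i = j then 1 else 0
  qb : ∀ i j, lq i (β j) = 0
  pa : ∀ i j, lp i (α j) = 0
  pb : ∀ i j, lp i (β j) = if i = j then 1 else 0

/-- `u = 2 p_n`. -/
def uu (lp : ι → E →L[ℝ] ℝ) (nn : ι) (z : E) : ℝ := 2 * lp nn z

/-- `E = e^u`. -/
def Ee (lp : ι → E →L[ℝ] ℝ) (nn : ι) (z : E) : ℝ := Real.exp (uu lp nn z)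

/-- `r²`. -/
def r2 (lq : ι → E →L[ℝ] ℝ) (z : E) : ℝ := ∑ i, lq i z ^ 2

/-- `W_q`. -/
def Aw (lq lp : ι → E →L[ℝ] ℝ) (nn : ι) (sd : ℝ → ℝ) (i : ι) (z : E) : ℝ :=
  Ee lp nn z * (sd (r2 lq z) * lq i z)

/-- `W_p`. -/
def Bw (lq lp : ι → E →L[ℝ] ℝ) (nn : ι) (f₁ sg : ℝ → ℝ) (i : ι) (z : E) : ℝ :=
  if i = nn then 2 * (f₁ (uu lp nn z) + Ee lp nn z * sg (r2 lq z)) else 0

variable {α β : ι → E} {lq lp : ι → E →L[ℝ] ℝ} {nn : ι}

theorem uu_cont : Continuous (uu lp nn) := continuous_const.mul (lp nn).continuous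

theorem Ee_cont : Continuous (Ee lp nn) := Real.continuous_exp.comp uu_cont

theorem r2_cont : Continuous (r2 lq) := continuous_finsetSum _ fun i _ => (lq i).continuous.pow 2

theorem Ee_pos (z : E) : 0 < Ee lp nn z := Real.exp_pos _

theorem r2_nonneg (z : E) : 0 ≤ r2 lq z := Finset.sum_nonneg fun _ _ => sq_nonneg _

theorem lq_le (z : E) (i : ι) : lq i z ^ 2 ≤ r2 lq z :=
  Finset.single_le_sum (f := fun i => lq i z ^ 2) (fun _ _ => sq_nonneg _) (Finset.mem_univ i)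

/-- `|e^u - e^v| ≤ 2 |u - v| e^u` for `|u - v| ≤ 1/2`. -/
theorem exp_diff {u v : ℝ} (h : |u - v| ≤ 1 / 2) :
    |Real.exp u - Real.exp v| ≤ 2 * |u - v| * Real.exp u := by
  have h1 : Real.exp v = Real.exp u * Real.exp (v - u) := by rw [← Real.exp_add]; congr 1; ring
  have h2 : |Real.exp (v - u) - 1| ≤ 2 * |v - u| := by
    have := Real.abs_exp_sub_one_le (x := v - u) (by rw [abs_sub_comm]; linarith)
    exact this
  rw [h1]
  have e : Real.exp u - Real.exp u * Real.exp (v - u) = -(Real.exp u * (Real.exp (v - u) - 1)) := by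
    ring
  rw [e, abs_neg, abs_mul, abs_of_pos (Real.exp_pos u), abs_sub_comm u v]
  have := mul_le_mul_of_nonneg_left h2 (Real.exp_pos u).le
  linarith

/-- `e^u ≤ 2 e^v` for `|u - v| ≤ 1/2`. -/
theorem exp_two {u v : ℝ} (h : |u - v| ≤ 1 / 2) : Real.exp u ≤ 2 * Real.exp v := by
  have h1 : Real.exp u = Real.exp (u - v) * Real.exp v := by rw [← Real.exp_add]; congr 1; ring
  rw [h1]
  apply mul_le_mul_of_nonneg_right _ (Real.exp_pos v).le
  have h2 : Real.exp (u - v) ≤ Real.exp (1 / 2) := Real.exp_le_exp.2 ((le_abs_self _).trans h)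
  have h3 : Real.exp (1 / 2) ≤ 2 := by
    have h4 : Real.exp (1 / 2) ^ 2 ≤ 2 ^ 2 := by
      rw [← Real.exp_nat_mul]
      have := Real.exp_one_lt_d9
      norm_num
      linarith
    exact le_of_sq_le_sq h4 (by norm_num)
  linarith

/-- `(1 - δ) e^v ≤ e^u` for `|u - v| ≤ δ`. -/
theorem exp_low {u v δ : ℝ} (h : |u - v| ≤ δ) : (1 - δ) * Real.exp v ≤ Real.exp u := by
  have h1 : Real.exp u = Real.exp (u - v) * Real.exp v := by rw [← Real.exp_add]; congr 1; ring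
  rw [h1]
  apply mul_le_mul_of_nonneg_right _ (Real.exp_pos v).le
  have h2 := Real.add_one_le_exp (u - v)
  have h3 := (abs_le.1 h).1
  linarith

/-- Difference of `r²`. -/
theorem r2_diff {z z' : E} {d : ℝ} (hd : ∀ j, |lq j z - lq j z'| ≤ d) :
    |r2 lq z - r2 lq z'| ≤ ∑ j, d * (|lq j z| + |lq j z'|) := by
  unfold r2
  rw [← Finset.sum_sub_distrib]
  refine (Finset.abs_sum_le_sum_abs _ _).trans (Finset.sum_le_sum fun j _ => ?_)
  have e : lq j z ^ 2 - lq j z' ^ 2 = (lq j z - lq j z') * (lq j z + lq j z') := by ring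
  rw [e, abs_mul]
  exact mul_le_mul (hd j) (abs_add_le _ _) (abs_nonneg _) ((abs_nonneg _).trans (hd j))

theorem sq_add_le (a b : ℝ) : (a + b) ^ 2 ≤ 2 * a ^ 2 + 2 * b ^ 2 := by
  nlinarith [sq_nonneg (a - b)]

/-- First part. -/
theorem ptX {e e' s q sdv Cs c Kz du : ℝ} (hK : 0 < Kz) (pe : 0 < e) (hs0 : 0 ≤ s)
    (hE : |e - e'| ≤ 2 * |du| * e) (hsd : |sdv| ≤ 1 + Cs) (hq : q ^ 2 ≤ s) (ht : e * s ≤ c * Kz)
    (hu2 : Kz * du ^ 2 ≤ 16) :
    ((e - e') * (sdv * q)) ^ 2 ≤ 64 * (1 + Cs) ^ 2 * c * e := by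
  have h2 : (e - e') ^ 2 ≤ (2 * |du| * e) ^ 2 := by
    rw [← sq_abs (e - e')]
    exact pow_le_pow_left₀ (abs_nonneg _) hE 2
  have h3 : sdv ^ 2 ≤ (1 + Cs) ^ 2 := by
    rw [← sq_abs sdv]
    exact pow_le_pow_left₀ (abs_nonneg _) hsd 2
  have h4 : (2 * |du| * e) ^ 2 = 4 * du ^ 2 * e ^ 2 := by
    rw [mul_pow, mul_pow, sq_abs]; norm_num
  rw [h4] at h2
  have h5 : ((e - e') * (sdv * q)) ^ 2 = (e - e') ^ 2 * (sdv ^ 2 * q ^ 2) := by ring
  have hc0 : 0 ≤ c := by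
    by_contra h
    push Not at h
    have : c * Kz < 0 := mul_neg_of_neg_of_pos h hK
    have h6 : 0 ≤ e * s := by positivity
    linarith
  rw [h5]
  calc (e - e') ^ 2 * (sdv ^ 2 * q ^ 2)
      ≤ (4 * du ^ 2 * e ^ 2) * ((1 + Cs) ^ 2 * s) := by
        apply mul_le_mul h2 (mul_le_mul h3 hq (sq_nonneg _) (sq_nonneg _))
          (by positivity) (by positivity)
    _ = 4 * (1 + Cs) ^ 2 * e * (du ^ 2) * (e * s) := by ring
    _ ≤ 4 * (1 + Cs) ^ 2 * e * (du ^ 2) * (c * Kz) :=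
        mul_le_mul_of_nonneg_left ht (by positivity)
    _ = 4 * (1 + Cs) ^ 2 * e * c * (Kz * du ^ 2) := by ring
    _ ≤ 4 * (1 + Cs) ^ 2 * e * c * 16 := mul_le_mul_of_nonneg_left hu2 (by positivity)
    _ = 64 * (1 + Cs) ^ 2 * c * e := by ring

/-- Second part. -/
theorem ptY {e e' n Cs c₀ A₀ d x y a b : ℝ} (pe : 0 < e) (pe' : 0 < e') (hn1 : 1 ≤ n)
    (hCs : 0 ≤ Cs) (hc₀ : 0 < c₀) (hd0 : 0 ≤ d) (hed : e * d ^ 2 = 4 * A₀)
    (hE : e' ≤ 2 * e) (hx : |x| ≤ Cs * c₀ ^ 2) (hy : |y| ≤ d) (ha : |a| ≤ Cs * (2 * n * c₀ * d))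
    (hb : |b| ≤ c₀) :
    (e' * (x * y + a * b)) ^ 2 ≤ 144 * n ^ 2 * Cs ^ 2 * c₀ ^ 4 * A₀ * e := by
  have h2 : |e' * (x * y + a * b)| ≤ (2 * e) * (3 * n * Cs * c₀ ^ 2 * d) := by
    rw [abs_mul, abs_of_pos pe']
    apply mul_le_mul hE _ (abs_nonneg _) (by positivity)
    have h3 : |x * y| ≤ (Cs * c₀ ^ 2) * d := by
      rw [abs_mul]
      exact mul_le_mul hx hy (abs_nonneg _) (by positivity)
    have h4 : |a * b| ≤ (Cs * (2 * n * c₀ * d)) * c₀ := by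
      rw [abs_mul]
      exact mul_le_mul ha hb (abs_nonneg _) (by positivity)
    have h5 := abs_add_le (x * y) (a * b)
    have h6 : (Cs * c₀ ^ 2) * d ≤ n * (Cs * c₀ ^ 2 * d) := by
      have : 0 ≤ Cs * c₀ ^ 2 * d := by positivity
      exact le_mul_of_one_le_left this hn1
    linarith
  have h3 : (e' * (x * y + a * b)) ^ 2 ≤ ((2 * e) * (3 * n * Cs * c₀ ^ 2 * d)) ^ 2 := by
    rw [← sq_abs (e' * (x * y + a * b))]
    exact pow_le_pow_left₀ (abs_nonneg _) h2 2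
  refine h3.trans (le_of_eq ?_)
  have : ((2 * e) * (3 * n * Cs * c₀ ^ 2 * d)) ^ 2
      = 36 * n ^ 2 * Cs ^ 2 * c₀ ^ 4 * e * (e * d ^ 2) := by ring
  rw [this, hed]
  ring

/-- Pointwise bound of the frozen `W_q`. -/
theorem ptA {sd : ℝ → ℝ} {Cs c₀ c A₀ k₁ Kz : ℝ} (hCs : 0 ≤ Cs) (hc₀ : 0 < c₀) (hc₀1 : c₀ ≤ 1)
    (hA₀ : 0 < A₀) (hK : 0 < Kz) (hn : 1 ≤ Fintype.card ι)
    (s1 : ∀ s, 0 ≤ s → s ≤ 1 → |sd s - 1| ≤ Cs * s)
    (s2 : ∀ s s', 0 ≤ s → s ≤ 1 → 0 ≤ s' → s' ≤ 1 → |sd s - sd s'| ≤ Cs * |s - s'|)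
    (hk : 128 * (1 + Cs) ^ 2 * c + 288 * (Fintype.card ι : ℝ) ^ 2 * Cs ^ 2 * c₀ ^ 4 * A₀ ≤ k₁)
    {z z' : E} (hz : r2 lq z ≤ c₀ ^ 2) (hz' : r2 lq z' ≤ c₀ ^ 2)
    (ht : Ee lp nn z * r2 lq z ≤ c * Kz)
    (hu : |uu lp nn z - uu lp nn z'| ≤ 1 / 2)
    (hu2 : Kz * (uu lp nn z - uu lp nn z') ^ 2 ≤ 16)
    (hq : ∀ j, Ee lp nn z / A₀ * (lq j z - lq j z') ^ 2 ≤ 4) (i : ι) :
    |Aw lq lp nn sd i z - Aw lq lp nn sd i z' - Ee lp nn z' * (lq i z - lq i z')|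
      ≤ Real.sqrt (k₁ * Ee lp nn z) := by
  apply Real.abs_le_sqrt
  have hE1 : |Ee lp nn z - Ee lp nn z'| ≤ 2 * |uu lp nn z - uu lp nn z'| * Ee lp nn z :=
    exp_diff hu
  have hE2 : Ee lp nn z' ≤ 2 * Ee lp nn z := exp_two (by rw [abs_sub_comm]; exact hu)
  have hAz : Aw lq lp nn sd i z = Ee lp nn z * (sd (r2 lq z) * lq i z) := rfl
  have hAz' : Aw lq lp nn sd i z' = Ee lp nn z' * (sd (r2 lq z') * lq i z') := rfl
  have pe : 0 < Ee lp nn z := Ee_pos z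
  have pe' : 0 < Ee lp nn z' := Ee_pos z'
  have hs0 : 0 ≤ r2 lq z := r2_nonneg z
  have hs0' : 0 ≤ r2 lq z' := r2_nonneg z'
  have hqj : ∀ j, |lq j z| ≤ c₀ := fun j => by
    rw [← abs_of_pos hc₀]; exact sq_le_sq.1 ((lq_le z j).trans hz)
  have hqj' : ∀ j, |lq j z'| ≤ c₀ := fun j => by
    rw [← abs_of_pos hc₀]; exact sq_le_sq.1 ((lq_le z' j).trans hz')
  have hqs := lq_le (lq := lq) z i
  have hrd := fun d => r2_diff (lq := lq) (z := z) (z' := z') (d := d)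
  rw [hAz, hAz']
  generalize Ee lp nn z = e at *
  generalize Ee lp nn z' = e' at *
  generalize r2 lq z = s at *
  generalize r2 lq z' = s' at *
  generalize uu lp nn z - uu lp nn z' = du at *
  have hc2 : c₀ ^ 2 ≤ 1 := pow_le_one₀ hc₀.le hc₀1
  generalize hn' : (Fintype.card ι : ℝ) = n at *
  have hn1 : (1 : ℝ) ≤ n := by rw [← hn']; exact_mod_cast hn
  -- the size of the cell
  obtain ⟨d, hd⟩ : ∃ d, d = Real.sqrt (4 * A₀ / e) := ⟨_, rfl⟩
  have hd0 : 0 ≤ d := by rw [hd]; exact Real.sqrt_nonneg _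
  have hd2 : d ^ 2 = 4 * A₀ / e := by rw [hd]; exact Real.sq_sqrt (by positivity)
  have hed : e * d ^ 2 = 4 * A₀ := by rw [hd2]; field_simp
  have hdj : ∀ j, |lq j z - lq j z'| ≤ d := by
    intro j
    rw [hd]
    apply Real.abs_le_sqrt
    rw [le_div_iff₀ pe]
    have := hq j
    rw [div_mul_eq_mul_div, div_le_iff₀ hA₀] at this
    linarith
  have hss : |s - s'| ≤ 2 * n * c₀ * d := by
    refine (hrd d hdj).trans ?_
    calc ∑ j, d * (|lq j z| + |lq j z'|) ≤ ∑ _j : ι, d * (c₀ + c₀) :=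
          Finset.sum_le_sum fun j _ => mul_le_mul_of_nonneg_left
            (add_le_add (hqj j) (hqj' j)) hd0
      _ = 2 * n * c₀ * d := by
          rw [Finset.sum_const, Finset.card_univ, nsmul_eq_mul, hn']; ring
  have hXY : e * (sd s * lq i z) - e' * (sd s' * lq i z') - e' * (lq i z - lq i z')
      = (e - e') * (sd s * lq i z)
        + e' * ((sd s - 1) * (lq i z - lq i z') + (sd s - sd s') * lq i z') := by ring
  rw [hXY]
  have hsd : |sd s| ≤ 1 + Cs := by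
    have h1 := s1 s hs0 (hz.trans hc2)
    have h2 : Cs * s ≤ Cs := by
      have := mul_le_mul_of_nonneg_left (hz.trans hc2) hCs
      linarith
    have h3 := abs_add_le (sd s - 1) 1
    rw [abs_one, sub_add_cancel] at h3
    linarith
  have hX2 := ptX (q := lq i z) hK pe hs0 hE1 hsd hqs ht hu2
  have hY2 := ptY (n := n) pe pe' hn1 hCs hc₀ hd0 hed hE2
    ((s1 s hs0 (hz.trans hc2)).trans (mul_le_mul_of_nonneg_left hz hCs)) (hdj i)
    ((s2 s s' hs0 (hz.trans hc2) hs0' (hz'.trans hc2)).trans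
      (mul_le_mul_of_nonneg_left hss hCs)) (hqj' i)
  refine (sq_add_le _ _).trans ?_
  have h8 := mul_le_mul_of_nonneg_right hk pe.le
  linarith

/-- Pointwise bound of the frozen `W_p`. -/
theorem ptB {f₁ sg : ℝ → ℝ} {Cs Cf c₀ c A₀ Kz : ℝ} (hCs : 0 ≤ Cs) (hCf : 0 ≤ Cf) (hc₀ : 0 < c₀)
    (hc₀1 : c₀ ≤ 1) (hc : 0 ≤ c) (hA₀ : 0 < A₀) (hK : 1 ≤ Kz)
    (s1 : ∀ s, 0 ≤ s → s ≤ 1 → |sg s| ≤ Cs * s)
    (s2 : ∀ s s', 0 ≤ s → s ≤ 1 → 0 ≤ s' → s' ≤ 1 → |sg s - sg s'| ≤ Cs * |s - s'|)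
    {z z' : E} (hz : r2 lq z ≤ c₀ ^ 2) (hz' : r2 lq z' ≤ c₀ ^ 2)
    (ht : Ee lp nn z * r2 lq z ≤ c * Kz)
    (hu : |uu lp nn z - uu lp nn z'| ≤ 1 / 2)
    (hu2 : Kz * (uu lp nn z - uu lp nn z') ^ 2 ≤ 16)
    (hf : |f₁ (uu lp nn z) - f₁ (uu lp nn z')| ≤ Cf * Kz * |uu lp nn z - uu lp nn z'|)
    (hq : ∀ j, Ee lp nn z / A₀ * (lq j z - lq j z') ^ 2 ≤ 4) (i : ι) :
    |Bw lq lp nn f₁ sg i z - Bw lq lp nn f₁ sg i z'|
      ≤ (8 * Cf + 16 * Cs * c + 16 * Cs * (Fintype.card ι) * (A₀ + Real.sqrt (A₀ * c)))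
        * Real.sqrt Kz := by
  set n : ℝ := (Fintype.card ι : ℝ) with hn'
  have hn0 : 0 ≤ n := Nat.cast_nonneg _
  have hK0 : 0 < Kz := by linarith
  have hsK : 1 ≤ Real.sqrt Kz := by rw [Real.one_le_sqrt]; exact hK
  have hsK2 : Real.sqrt Kz ^ 2 = Kz := Real.sq_sqrt hK0.le
  set k := Real.sqrt Kz with hk
  have hk0 : 0 < k := by linarith
  by_cases hi : i = nn
  swap
  · simp only [Bw, if_neg hi, sub_self, abs_zero]
    positivity
  simp only [Bw, if_pos hi]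
  set e := Ee lp nn z with he
  set e' := Ee lp nn z' with he'
  set s := r2 lq z with hs
  set s' := r2 lq z' with hs'
  set u := uu lp nn z
  set u' := uu lp nn z'
  have pe : 0 < e := Ee_pos z
  have pe' : 0 < e' := Ee_pos z'
  have hs0 : 0 ≤ s := r2_nonneg z
  have hs0' : 0 ≤ s' := r2_nonneg z'
  have hc2 : c₀ ^ 2 ≤ 1 := pow_le_one₀ hc₀.le hc₀1
  -- `|u - u'| ≤ 4 / √K`
  have huk : |u - u'| * k ≤ 4 := by
    have h1 : (|u - u'| * k) ^ 2 ≤ 4 ^ 2 := by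
      rw [mul_pow, sq_abs, hsK2]; linarith
    exact le_of_sq_le_sq h1 (by norm_num)
  -- first part
  have h1 : |f₁ u - f₁ u'| ≤ 4 * Cf * k := by
    refine hf.trans ?_
    have : Cf * Kz * |u - u'| = Cf * k * (|u - u'| * k) := by rw [← hsK2]; ring
    rw [this]
    have := mul_le_mul_of_nonneg_left huk (by positivity : 0 ≤ Cf * k)
    linarith
  -- second part
  have h2 : |(e - e') * sg s| ≤ 8 * Cs * c * k := by
    rw [abs_mul]
    have h3 : |e - e'| ≤ 2 * |u - u'| * e := exp_diff hu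
    calc |e - e'| * |sg s| ≤ (2 * |u - u'| * e) * (Cs * s) :=
          mul_le_mul h3 (s1 s hs0 (hz.trans hc2)) (abs_nonneg _) (by positivity)
      _ = 2 * |u - u'| * Cs * (e * s) := by ring
      _ ≤ 2 * |u - u'| * Cs * (c * Kz) := mul_le_mul_of_nonneg_left ht (by positivity)
      _ = 2 * Cs * c * k * (|u - u'| * k) := by rw [← hsK2]; ring
      _ ≤ 2 * Cs * c * k * 4 := mul_le_mul_of_nonneg_left huk (by positivity)
      _ = 8 * Cs * c * k := by ring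
  -- third part
  set d := Real.sqrt (4 * A₀ / e) with hd
  have hd0 : 0 ≤ d := Real.sqrt_nonneg _
  have hd2 : d ^ 2 = 4 * A₀ / e := Real.sq_sqrt (by positivity)
  have hed : e * d ^ 2 = 4 * A₀ := by rw [hd2]; field_simp
  have hdj : ∀ j, |lq j z - lq j z'| ≤ d := by
    intro j
    apply Real.abs_le_sqrt
    rw [le_div_iff₀ pe]
    have := hq j
    rw [div_mul_eq_mul_div, div_le_iff₀ hA₀] at this
    linarith
  have hqj : ∀ j, |lq j z| ≤ Real.sqrt s := fun j => Real.abs_le_sqrt (lq_le z j)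
  have hedq : e * d * Real.sqrt s ≤ 2 * Real.sqrt (A₀ * c) * k := by
    have h3 : (e * d * Real.sqrt s) ^ 2 ≤ (2 * Real.sqrt (A₀ * c) * k) ^ 2 := by
      have e1 : (e * d * Real.sqrt s) ^ 2 = (e * d ^ 2) * (e * Real.sqrt s ^ 2) := by ring
      have e2 : (2 * Real.sqrt (A₀ * c) * k) ^ 2 = 4 * Real.sqrt (A₀ * c) ^ 2 * k ^ 2 := by ring
      rw [e1, e2, Real.sq_sqrt hs0, Real.sq_sqrt (by positivity : 0 ≤ A₀ * c), hsK2, hed]
      have := mul_le_mul_of_nonneg_left ht (by positivity : 0 ≤ 4 * A₀)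
      linarith
    exact le_of_sq_le_sq h3 (by positivity)
  have h3 : |e' * (sg s - sg s')| ≤ 2 * Cs * (n * (4 * Real.sqrt (A₀ * c) * k + 4 * A₀ * k)) := by
    rw [abs_mul, abs_of_pos pe']
    have h4 : e' ≤ 2 * e := exp_two (by rw [abs_sub_comm]; exact hu)
    have h5 := s2 s s' hs0 (hz.trans hc2) hs0' (hz'.trans hc2)
    have h6 : |s - s'| ≤ n * (d * (2 * Real.sqrt s + d)) := by
      refine (r2_diff hdj).trans ?_
      calc ∑ j, d * (|lq j z| + |lq j z'|) ≤ ∑ _j : ι, d * (2 * Real.sqrt s + d) := by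
            apply Finset.sum_le_sum
            intro j _
            apply mul_le_mul_of_nonneg_left _ hd0
            have h7 : |lq j z'| ≤ |lq j z| + |lq j z - lq j z'| := by
              have := abs_sub_abs_le_abs_sub (lq j z') (lq j z)
              rw [abs_sub_comm] at this
              linarith
            linarith [hqj j, hdj j]
        _ = n * (d * (2 * Real.sqrt s + d)) := by
            rw [Finset.sum_const, Finset.card_univ, nsmul_eq_mul]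
    calc e' * |sg s - sg s'| ≤ (2 * e) * (Cs * (n * (d * (2 * Real.sqrt s + d)))) :=
          mul_le_mul h4 (h5.trans (mul_le_mul_of_nonneg_left h6 hCs)) (abs_nonneg _)
            (by positivity)
      _ = 2 * Cs * (n * (2 * (e * d * Real.sqrt s) + e * d ^ 2)) := by ring
      _ ≤ 2 * Cs * (n * (4 * Real.sqrt (A₀ * c) * k + 4 * A₀ * k)) := by
          apply mul_le_mul_of_nonneg_left _ (by positivity)
          apply mul_le_mul_of_nonneg_left _ hn0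
          rw [hed]
          have : 4 * A₀ ≤ 4 * A₀ * k := by nlinarith
          linarith
  have e5 : 2 * (f₁ u + e * sg s) - 2 * (f₁ u' + e' * sg s')
      = 2 * ((f₁ u - f₁ u') + ((e - e') * sg s + e' * (sg s - sg s'))) := by ring
  rw [e5, abs_mul, abs_of_pos (by norm_num : (0 : ℝ) < 2)]
  have h8 := abs_add_le (f₁ u - f₁ u') ((e - e') * sg s + e' * (sg s - sg s'))
  have h9 := abs_add_le ((e - e') * sg s) (e' * (sg s - sg s'))
  have e6 : (8 * Cf + 16 * Cs * c + 16 * Cs * n * (A₀ + Real.sqrt (A₀ * c))) * k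
      = 2 * (4 * Cf * k + (8 * Cs * c * k
        + 2 * Cs * (n * (4 * Real.sqrt (A₀ * c) * k + 4 * A₀ * k)))) := by ring
  rw [e6]
  linarith

end Vale.Agent.P088.R2.H960.C
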