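import Vale.Agent.P088.R2.H960.C.VV
import Vale.Agent.P088.R2.H205.C.Spec

/-!
# Zone C, region I: the row `RowAI`
-/

open Set MeasureTheory
open scoped ContDiff

noncomputable section

namespace Vale.Agent.P088.R2.H960.C

open Vale.Agent.P088.LR Vale.Agent.P088.HY Vale.Agent.P088.R2.H644 Vale.Agent.P088.R2.H205.C
open Vale.Agent.P088.R2.H961.GW (Te)

variable {n : ℕ}

/-! ### First derivatives of the weight -/

theorem dd_Wu (v : VV n) (e : Fin n) {φ φ₁ Φ Φ₁ : ℝ → ℝ}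
    (hφ : ∀ s, HasDerivAt φ (φ₁ s) s) (hΦ : ∀ s, HasDerivAt Φ (Φ₁ s) s) (z : VV n) :
    dd v (Wu e φ Φ) z = φ₁ (ht e z) * (v.1 e + v.2 e) +
      H644.Ee e 1 z * ((v.1 e + v.2 e) * Φ (qq z) + Φ₁ (qq z) * dd v qq z) := by
  have h := (((HD.fst v z e).add (HD.snd v z e)).comp (hφ _)).add
    ((HD.Ee v z e 1).mul (HD.rad (hΦ _)))
  refine h.e.trans ?_
  unfold ht
  ring

theorem dx_Wu (i e : Fin n) {φ φ₁ Φ Φ₁ : ℝ → ℝ}
    (hφ : ∀ s, HasDerivAt φ (φ₁ s) s) (hΦ : ∀ s, HasDerivAt Φ (Φ₁ s) s) (z : VV n) :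
    dx i (Wu e φ Φ) z = φ₁ (ht e z) * de e i +
      H644.Ee e 1 z * (de e i * Φ (qq z) + 2 * Φ₁ (qq z) * qv i z) := by
  rw [dx_eq, dd_Wu _ e hφ hΦ, ← dx_eq, dx_qq]
  simp only [de, Pi.single_apply, Pi.zero_apply, eq_comm (a := e) (b := i)]
  split_ifs <;> ring

theorem dy_Wu (i e : Fin n) {φ φ₁ Φ Φ₁ : ℝ → ℝ}
    (hφ : ∀ s, HasDerivAt φ (φ₁ s) s) (hΦ : ∀ s, HasDerivAt Φ (Φ₁ s) s) (z : VV n) :
    dy i (Wu e φ Φ) z = φ₁ (ht e z) * de e i +
      H644.Ee e 1 z * (de e i * Φ (qq z) - 2 * Φ₁ (qq z) * qv i z) := by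
  rw [dy_eq, dd_Wu _ e hφ hΦ, ← dy_eq, dy_qq]
  simp only [de, Pi.single_apply, Pi.zero_apply, eq_comm (a := e) (b := i)]
  split_ifs <;> ring

theorem Aw2_Wu (i e : Fin n) {φ φ₁ Φ Φ₁ : ℝ → ℝ}
    (hφ : ∀ s, HasDerivAt φ (φ₁ s) s) (hΦ : ∀ s, HasDerivAt Φ (Φ₁ s) s) (z : VV n) :
    Aw2 vq vp e (fun s => 2 * Φ₁ s) (fun _ => 0) i z
      = (dx i (Wu e φ Φ) z - dy i (Wu e φ Φ) z) / 2 := by
  rw [dx_Wu i e hφ hΦ, dy_Wu i e hφ hΦ]
  unfold Aw2 Aw
  rw [Ee_VV, r2_VV, ite_self]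
  show _ = _
  have : vq i z = qv i z := rfl
  rw [this]
  ring

theorem Bw2_Wu (i e : Fin n) {φ φ₁ Φ Φ₁ : ℝ → ℝ}
    (hφ : ∀ s, HasDerivAt φ (φ₁ s) s) (hΦ : ∀ s, HasDerivAt Φ (Φ₁ s) s) (z : VV n) :
    Bw2 vq vp e (fun z => 2 * φ₁ (ht e z)) Φ i z
      = dx i (Wu e φ Φ) z + dy i (Wu e φ Φ) z := by
  rw [dx_Wu i e hφ hΦ, dy_Wu i e hφ hΦ]
  unfold Bw2 Bw
  rw [Ee_VV, r2_VV]
  simp only [de]
  split_ifs <;> ring

/-! ### The slope -/

/-- `|φ₃| ≤ Cd φ₂` on an interval: `φ₂` is slowly varying. -/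
theorem slow_le {Cd : ℝ} {φ₂ φ₃ : ℝ → ℝ} {I : Set ℝ} (oc : I.OrdConnected)
    (d3 : ∀ s, HasDerivAt φ₂ (φ₃ s) s) (kd : ∀ s ∈ I, |φ₃ s| ≤ Cd * φ₂ s) {s t : ℝ} (hs : s ∈ I)
    (ht : t ∈ I) : φ₂ s ≤ Real.exp (Cd * |s - t|) * φ₂ t := by
  have hd : ∀ c x : ℝ, HasDerivAt (fun x => φ₂ x * Real.exp (c * x))
      (φ₃ x * Real.exp (c * x) + φ₂ x * (Real.exp (c * x) * c)) x := by
    intro c x
    have h1 : HasDerivAt (fun x => Real.exp (c * x)) (Real.exp (c * x) * c) x := by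
      have h2 : HasDerivAt (fun x : ℝ => c * x) c x := by
        simpa using (hasDerivAt_id x).const_mul c
      exact h2.exp
    exact (d3 x).mul h1
  have hI : ∀ x ∈ interior I, x ∈ I := fun x hx => interior_subset hx
  have m1 : MonotoneOn (fun x => φ₂ x * Real.exp (Cd * x)) I := by
    apply monotoneOn_of_deriv_nonneg oc.convex
    · exact fun x _ => (hd Cd x).continuousAt.continuousWithinAt
    · exact fun x _ => (hd Cd x).differentiableAt.differentiableWithinAt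
    · intro x hx
      rw [(hd Cd x).deriv]
      have h := (abs_le.1 (kd x (hI x hx))).1
      have h2 : 0 ≤ (φ₃ x + Cd * φ₂ x) * Real.exp (Cd * x) :=
        mul_nonneg (by linarith) (Real.exp_pos _).le
      linarith
  have m2 : AntitoneOn (fun x => φ₂ x * Real.exp (-Cd * x)) I := by
    apply antitoneOn_of_deriv_nonpos oc.convex
    · exact fun x _ => (hd (-Cd) x).continuousAt.continuousWithinAt
    · exact fun x _ => (hd (-Cd) x).differentiableAt.differentiableWithinAt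
    · intro x hx
      rw [(hd (-Cd) x).deriv]
      have h := (abs_le.1 (kd x (hI x hx))).2
      have h2 : 0 ≤ (Cd * φ₂ x - φ₃ x) * Real.exp (-Cd * x) :=
        mul_nonneg (by linarith) (Real.exp_pos _).le
      linarith
  rcases le_total s t with h | h
  · have h1 : φ₂ s * Real.exp (Cd * s) ≤ φ₂ t * Real.exp (Cd * t) := m1 hs ht h
    rw [abs_sub_comm, abs_of_nonneg (sub_nonneg.2 h)]
    have e : Real.exp (Cd * (t - s)) * φ₂ t
        = φ₂ t * Real.exp (Cd * t) * Real.exp (-(Cd * s)) := by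
      rw [mul_assoc, ← Real.exp_add, mul_comm]; congr 2; ring
    have e2 : φ₂ s = φ₂ s * Real.exp (Cd * s) * Real.exp (-(Cd * s)) := by
      rw [mul_assoc, ← Real.exp_add]; simp
    rw [e, e2]
    exact mul_le_mul_of_nonneg_right h1 (Real.exp_pos _).le
  · have h1 : φ₂ s * Real.exp (-Cd * s) ≤ φ₂ t * Real.exp (-Cd * t) := m2 ht hs h
    rw [abs_of_nonneg (sub_nonneg.2 h)]
    have e : Real.exp (Cd * (s - t)) * φ₂ t
        = φ₂ t * Real.exp (-Cd * t) * Real.exp (Cd * s) := by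
      rw [mul_assoc, ← Real.exp_add, mul_comm]; congr 2; ring
    have e2 : φ₂ s = φ₂ s * Real.exp (-Cd * s) * Real.exp (Cd * s) := by
      rw [mul_assoc, ← Real.exp_add]; simp
    rw [e, e2]
    exact mul_le_mul_of_nonneg_right h1 (Real.exp_pos _).le

theorem slow_two {Cd : ℝ} (hCd : 0 < Cd) {φ₂ φ₃ : ℝ → ℝ} {I : Set ℝ} (oc : I.OrdConnected)
    (d3 : ∀ s, HasDerivAt φ₂ (φ₃ s) s) (kd : ∀ s ∈ I, |φ₃ s| ≤ Cd * φ₂ s)
    (kp : ∀ s ∈ I, 0 < φ₂ s) {s t : ℝ} (hs : s ∈ I)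
    (ht : t ∈ I) (hst : |s - t| ≤ 1 / (2 * (Cd + 1))) : φ₂ s ≤ 2 * φ₂ t := by
  refine (slow_le oc d3 kd hs ht).trans (mul_le_mul_of_nonneg_right ?_ (kp t ht).le)
  have h1 : Cd * |s - t| ≤ 1 / 2 := by
    calc Cd * |s - t| ≤ Cd * (1 / (2 * (Cd + 1))) := mul_le_mul_of_nonneg_left hst hCd.le
      _ ≤ 1 / 2 := by
        rw [mul_one_div, div_le_div_iff₀ (by positivity) (by norm_num)]
        linarith
  have h2 := exp_two (u := Cd * |s - t|) (v := 0) (by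
    rw [sub_zero, abs_of_nonneg (by positivity)]; exact h1)
  rwa [Real.exp_zero, mul_one] at h2

/-- Mean value. -/
theorem mv {f f' : ℝ → ℝ} (d : ∀ s, HasDerivAt f (f' s) s) {M : ℝ} {I : Set ℝ}
    (oc : I.OrdConnected) (hM : ∀ s ∈ I, |f' s| ≤ M) {s t : ℝ} (hs : s ∈ I) (ht : t ∈ I) :
    |f s - f t| ≤ M * |s - t| := by
  have h := oc.convex.norm_image_sub_le_of_norm_hasDerivWithin_le
    (f := f) (f' := f') (C := M) (fun x _ => (d x).hasDerivWithinAt)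
    (fun x hx => by rw [Real.norm_eq_abs]; exact hM x hx) ht hs
  simpa only [Real.norm_eq_abs] using h

/-! ### The row -/

/-- The points of region I. -/
def OI (e : Fin n) (c₀ a₁ C₁ σ c : ℝ) (φ₁ φ₂ : ℝ → ℝ) (I : Set ℝ) : Set (VV n) :=
  {z | z ∈ Zc e c₀ a₁ C₁ σ φ₁ φ₂ I ∧ tt e z ≤ c * φ₂ (ht e z)}

theorem rf_Wu {e : Fin n} (hn : 3 ≤ n) {Cs Cd c₀ a₁ C₁ σ c : ℝ}
    {Φ Φ₁ Φ₂ Φ₃ Φ₄ φ φ₁ φ₂ φ₃ φ₄ : ℝ → ℝ} {I : Set ℝ} (hCs : 0 < Cs) (hCd : 0 < Cd)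
    (pf : Pf Cs Φ Φ₁ Φ₂ Φ₃ Φ₄) (sp : Sp Cd φ φ₁ φ₂ φ₃ φ₄ I) (hc₀ : 0 < c₀) (hc₀1 : 2 * c₀ ≤ 1)
    (hc : 0 ≤ c) (h1 : (256 * (n : ℝ)) ^ 2 ≤ C₁) (h2 : 64 * (Cd + 1) ^ 2 ≤ C₁)
    (hk : 128 * (1 + (2 * Cs + 1)) ^ 2 * c
      + 288 * (n : ℝ) ^ 2 * (2 * Cs + 1) ^ 2 * (2 * c₀) ^ 4 * A00 n ≤ k00 n) :
    RF (volume : Measure (VV n)) n (OI e c₀ a₁ C₁ σ c φ₁ φ₂ I) va vb vq vp e
      (fun s => 2 * Φ₁ s) Φ φ₂ (fun _ => 0) (fun z => 2 * φ₁ (ht e z)) (2 * Cs + 1) 16 (2 * c₀) c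
      (1 / (8 * (Cd + 1))) := by
  have hC1 : 1 ≤ C₁ := by
    have hn3 : (3 : ℝ) ≤ n := by exact_mod_cast hn
    nlinarith
  have hC0 : 0 < C₁ := by linarith
  have KC : ∀ z ∈ OI e c₀ a₁ C₁ σ c φ₁ φ₂ I, C₁ ≤ φ₂ (ht e z) := by
    intro z hz
    have g := hz.1.2
    have k0 := sp.kp _ hz.1.1.1
    have h3 : C₁ ^ 3 ≤ φ₂ (ht e z) ^ 3 := by
      calc C₁ ^ 3 = C₁ * C₁ ^ 2 := by ring
        _ ≤ C₁ * φ₁ (ht e z) ^ 2 :=
          mul_le_mul_of_nonneg_left (pow_le_pow_left₀ hC0.le g.n0 2) hC0.le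
        _ ≤ _ := g.k2
    exact le_of_pow_le_pow_left₀ (by norm_num) k0.le h3
  refine
    { hn := hn
      card := Fintype.card_fin n
      fr := fr_VV
      fz := fz_VV
      hCs := by positivity
      hCb := by norm_num
      hc₀ := by positivity
      hc₀1 := hc₀1
      hc := hc
      hlam := by positivity
      hlam1 := ?_
      hk := hk
      csd := ?_
      csg := pf.sm.continuous
      ca := continuous_const
      cb := ?_
      cK := ?_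
      d1 := ?_
      d2 := ?_
      g1 := ?_
      g2 := ?_
      K1 := ?_
      B1 := ?_
      K2 := ?_
      AB := ?_
      hO := ?_ }
  · rw [div_le_div_iff₀ (by positivity) (by norm_num)]; linarith
  · exact continuous_const.mul (continuous_iff_continuousAt.2 fun s => (pf.d2 s).continuousAt)
  · have : Continuous fun z : VV n => ht e z := by unfold ht; fun_prop
    exact continuous_const.mul
      ((continuous_iff_continuousAt.2 fun s => (sp.d2 s).continuousAt).comp this)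
  · exact continuous_iff_continuousAt.2 fun s => (sp.d3 s).continuousAt
  · intro s h0 h1
    have h := pf.b1 s h0 h1
    have e : 2 * Φ₁ s - 1 = 2 * (Φ₁ s - 1 / 2) := by ring
    show |2 * Φ₁ s - 1| ≤ _
    rw [e, abs_mul, abs_of_pos (by norm_num : (0 : ℝ) < 2)]
    nlinarith
  · intro s s' h0 h1 h0' h1'
    have h := mv (I := Icc 0 1) pf.d2 ordConnected_Icc (M := Cs)
      (fun t ht => (pf.b2 t ht.1 ht.2).1) ⟨h0, h1⟩ ⟨h0', h1'⟩
    have e : 2 * Φ₁ s - 2 * Φ₁ s' = 2 * (Φ₁ s - Φ₁ s') := by ring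
    show |2 * Φ₁ s - 2 * Φ₁ s'| ≤ _
    rw [e, abs_mul, abs_of_pos (by norm_num : (0 : ℝ) < 2)]
    nlinarith [abs_nonneg (s - s')]
  · intro s h0 h1
    have h := pf.ps s h0 h1
    exact ⟨h.1, h.2.trans (by nlinarith)⟩
  · intro s s' h0 h1 h0' h1'
    refine mv (I := Icc 0 1) pf.d1 ordConnected_Icc (M := 2 * Cs + 1)
      (fun t ht => ?_) ⟨h0, h1⟩ ⟨h0', h1'⟩
    have h := abs_le.1 (pf.b1 t ht.1 ht.2)
    have h2 : Cs * t ≤ Cs := by nlinarith [ht.2]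
    rw [abs_le]
    constructor <;> linarith [h.1, h.2]
  · intro z hz
    rw [uu_VV]
    exact h1.trans (KC z hz)
  · intro z hz
    have := sp.np _ hz.1.1.1
    show 0 < 2 * φ₁ (ht e z)
    linarith
  · intro z hz z' hz' hu
    rw [uu_VV, uu_VV] at hu ⊢
    refine slow_two hCd sp.oc sp.d3 (fun s hs => (sp.kd s hs).1) sp.kp hz.1.1.1 hz'.1.1.1
      (hu.trans (le_of_eq ?_))
    field_simp; norm_num
  · intro z hz z' hz' nr
    refine ⟨by simp, ?_⟩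
    have hu := nr.1
    rw [uu_VV, uu_VV] at hu
    rw [uu_VV]
    change φ₂ (ht e z) * (ht e z - ht e z') ^ 2 ≤ 16 at hu
    show |2 * φ₁ (ht e z) - 2 * φ₁ (ht e z')| ≤ 16 * Real.sqrt (φ₂ (ht e z))
    have kz := KC z hz
    set K := φ₂ (ht e z) with hK
    have K0 : 0 < K := by linarith
    have hd : |ht e z - ht e z'| * Real.sqrt K ≤ 4 := by
      apply le_of_sq_le_sq _ (by norm_num)
      rw [mul_pow, sq_abs, Real.sq_sqrt K0.le]
      linarith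
    have sK : 8 * (Cd + 1) ≤ Real.sqrt K := by
      apply Real.le_sqrt_of_sq_le
      calc (8 * (Cd + 1)) ^ 2 = 64 * (Cd + 1) ^ 2 := by ring
        _ ≤ C₁ := h2
        _ ≤ K := kz
    have hst : |ht e z - ht e z'| ≤ 1 / (2 * (Cd + 1)) := by
      rw [le_div_iff₀ (by positivity)]
      have := mul_le_mul_of_nonneg_left sK (abs_nonneg (ht e z - ht e z'))
      linarith
    have h3 := mv (I := uIcc (ht e z) (ht e z')) sp.d2 ordConnected_uIcc (M := 2 * K)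
      (fun s hs => by
        have hsI : s ∈ I := sp.oc.uIcc_subset hz.1.1.1 hz'.1.1.1 hs
        rw [abs_of_pos (sp.kp s hsI)]
        refine slow_two hCd sp.oc sp.d3 (fun s hs => (sp.kd s hs).1) sp.kp hsI hz.1.1.1 ?_
        refine le_trans ?_ hst
        rw [abs_sub_comm (ht e z)]
        exact abs_sub_left_of_mem_uIcc hs)
      left_mem_uIcc right_mem_uIcc
    have e' : 2 * φ₁ (ht e z) - 2 * φ₁ (ht e z') = 2 * (φ₁ (ht e z) - φ₁ (ht e z')) := by ring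
    rw [e', abs_mul, abs_of_pos (by norm_num : (0 : ℝ) < 2)]
    have h4 : K * |ht e z - ht e z'| ≤ 4 * Real.sqrt K := by
      have h5 := mul_le_mul_of_nonneg_left hd (Real.sqrt_nonneg K)
      have h6 : Real.sqrt K * (|ht e z - ht e z'| * Real.sqrt K)
          = (Real.sqrt K * Real.sqrt K) * |ht e z - ht e z'| := by ring
      rw [h6, Real.mul_self_sqrt K0.le] at h5
      linarith
    linarith
  · intro z hz
    rw [r2_VV, Ee_VV, uu_VV]
    refine ⟨?_, hz.2⟩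
    have := hz.1.1.2
    calc qq z ≤ 4 * c₀ ^ 2 := this
      _ = (2 * c₀) ^ 2 := by ring

/-- The cut-off cost. -/
theorem cut_le {χ : VV n → ℝ} (b c : ℝ) (z : VV n) :
    ∑ i, (2 * (fderiv ℝ χ z (va i) * b) + fderiv ℝ χ z (vb i) * c) ^ 2
      ≤ 8 * ((gq χ z + gp χ z) * b ^ 2 + gp χ z * c ^ 2) := by
  have h1 : ∑ i, (2 * (fderiv ℝ χ z (va i) * b) + fderiv ℝ χ z (vb i) * c) ^ 2
      ≤ ∑ i, (8 * (dq i χ z ^ 2 * b ^ 2) + 2 * (dp i χ z ^ 2 * c ^ 2)) := by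
    apply Finset.sum_le_sum
    intro i _
    rw [fd_va, fd_vb]
    refine (sq_add_le _ _).trans (le_of_eq ?_)
    unfold dq dp
    ring
  have h2 : 0 ≤ gp χ z := Finset.sum_nonneg fun _ _ => sq_nonneg _
  have h3 : 0 ≤ gq χ z := Finset.sum_nonneg fun _ _ => sq_nonneg _
  refine h1.trans ?_
  rw [Finset.sum_add_distrib, ← Finset.mul_sum, ← Finset.mul_sum, ← Finset.sum_mul,
    ← Finset.sum_mul]
  change 8 * (gq χ z * b ^ 2) + 2 * (gp χ z * c ^ 2) ≤ _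
  have h4 := mul_nonneg h2 (sq_nonneg b)
  have h5 := mul_nonneg h2 (sq_nonneg c)
  linarith

/-- **(AI)** region I of zone C. -/
theorem rowAI : RowAI := by
  intro n hn
  have hn3 : (3 : ℝ) ≤ n := by exact_mod_cast hn
  have hn0 : (0 : ℝ) < n := by linarith
  refine ⟨1 / (128 * (n : ℝ)), 1 / 4, by positivity, by norm_num, ?_⟩
  intro Cs Cd σ hCs hCd hσ
  have hM := Mth_pos
  have pA : 0 < A00 n := by unfold A00; positivity
  have pk : 0 < k00 n := by unfold k00; positivity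
  -- the constants
  set C' : ℝ := 2 * Cs + 1 with hC'
  have C'0 : 0 < C' := by positivity
  set x₀ : ℝ := min 1 (k00 n / (576 * (n : ℝ) ^ 2 * C' ^ 2 * A00 n)) with hx
  have x0 : 0 < x₀ := lt_min one_pos (by positivity)
  have x1 : x₀ ≤ 1 := min_le_left _ _
  set c : ℝ := k00 n / (256 * (1 + C') ^ 2) with hc
  have c0 : 0 < c := by positivity
  have hk : 128 * (1 + C') ^ 2 * c + 288 * (n : ℝ) ^ 2 * C' ^ 2 * (2 * (x₀ / 2)) ^ 4 * A00 n
      ≤ k00 n := by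
    have h1 : 128 * (1 + C') ^ 2 * c = k00 n / 2 := by rw [hc]; field_simp; norm_num
    have h2 : (2 * (x₀ / 2)) ^ 4 ≤ x₀ := by
      have e : 2 * (x₀ / 2) = x₀ := by ring
      rw [e]
      calc x₀ ^ 4 = x₀ * x₀ ^ 3 := by ring
        _ ≤ x₀ * 1 := mul_le_mul_of_nonneg_left (pow_le_one₀ x0.le x1) x0.le
        _ = x₀ := mul_one _
    have h3 : x₀ ≤ k00 n / (576 * (n : ℝ) ^ 2 * C' ^ 2 * A00 n) := min_le_right _ _
    have h4 : 288 * (n : ℝ) ^ 2 * C' ^ 2 * (2 * (x₀ / 2)) ^ 4 * A00 n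
        ≤ 288 * (n : ℝ) ^ 2 * C' ^ 2 * (k00 n / (576 * (n : ℝ) ^ 2 * C' ^ 2 * A00 n)) * A00 n := by
      apply mul_le_mul_of_nonneg_right _ pA.le
      exact mul_le_mul_of_nonneg_left (h2.trans h3) (by positivity)
    have h5 : 288 * (n : ℝ) ^ 2 * C' ^ 2 * (k00 n / (576 * (n : ℝ) ^ 2 * C' ^ 2 * A00 n)) * A00 n
        = k00 n / 2 := by
      field_simp; norm_num
    linarith
  set lam : ℝ := 1 / (8 * (Cd + 1)) with hlam
  set C₁ : ℝ := max ((256 * (n : ℝ)) ^ 2) (64 * (Cd + 1) ^ 2) with hC1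
  set Ca : ℝ := 8192 * (n : ℝ) ^ 2 * CB n C' 16 c ^ 2
    + 16 * ((1 / lam ^ 2 + 8 * (n : ℝ) ^ 2) * Mth) with hCa
  set Cb : ℝ := 8 * (1 + 128 * n) * 8 with hCb
  have Ca0 : 0 < Ca := by positivity
  have Cb0 : 0 < Cb := by positivity
  refine ⟨x₀ / 2, 1, C₁, c, Ca + Cb, by positivity, one_pos,
    lt_of_lt_of_le (by positivity) (le_max_left _ _), c0, by positivity, ?_⟩
  intro e Φ Φ₁ Φ₂ Φ₃ Φ₄ φ φ₁ φ₂ φ₃ φ₄ I χ f g dat hχ
  have pf := dat.pf
  have sp := dat.sp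
  have rf := rf_Wu (e := e) (σ := σ) (a₁ := 1) hn hCs hCd pf sp (c₀ := x₀ / 2) (by positivity)
    (by linarith) c0.le (le_max_left _ _ : _ ≤ C₁) (le_max_right _ _ : _ ≤ C₁) hk
  have tf : Ts f := ⟨dat.tf.1, dat.tf.2.1⟩
  have tg : Ts g := ⟨dat.tg.1, dat.tg.2.1⟩
  have tb : Ts (hb f g) := ⟨(tf.1.add tg.1).div_const _, (tf.2.add tg.2).mono' (by
    intro z hz
    apply subset_tsupport
    rw [Function.mem_support] at hz ⊢
    intro h0
    apply hz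
    show (f z + g z) / 2 = 0
    have : f z + g z = 0 := h0
    rw [this, zero_div])⟩
  have tc : Ts (hd f g) := ⟨(tf.1.sub tg.1).div_const _, (tf.2.sub tg.2).mono' (by
    intro z hz
    apply subset_tsupport
    rw [Function.mem_support] at hz ⊢
    intro h0
    apply hz
    show (f z - g z) / 2 = 0
    have : f z - g z = 0 := h0
    rw [this, zero_div])⟩
  have hsub : tsupport χ ⊆ OI e (x₀ / 2) 1 C₁ σ c φ₁ φ₂ I := fun z hz => ⟨dat.sχ hz, hχ z hz⟩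
  have key := cutF (volume : Measure (VV n)) rf dat.cχ hsub tb tc
  have eY : ∀ z, YY va vb (Aw2 vq vp e (fun s => 2 * Φ₁ s) fun _ => 0)
      (Bw2 vq vp e (fun z => 2 * φ₁ (ht e z)) Φ) (hb f g) (hd f g) z
      = s2 (Yv (Wu e φ Φ) f g z) := by
    intro z
    exact YY_VV (tf.df z) (tg.df z) (fun i => Aw2_Wu i e sp.d1 pf.d1 z)
      fun i => Bw2_Wu i e sp.d1 pf.d1 z
  simp only [eY, Ee_VV, uu_VV] at key
  change 1 / 4 * ((∫ z, χ z ^ 2 * (H644.Ee e 1 z * s2 (Yv (Wu e φ Φ) f g z)))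
      + ∫ z, χ z ^ 2 * (H644.Ee e 1 z ^ 2 * hb f g z ^ 2))
    - Ca * (∫ z, χ z ^ 2 * (H644.Ee e 1 z * φ₂ (ht e z) * hd f g z ^ 2))
    - 8 * (1 + 128 * n) * (∫ z, H644.Ee e 1 z * ∑ i, (2 * (fderiv ℝ χ z (va i) * hb f g z)
      + fderiv ℝ χ z (vb i) * hd f g z) ^ 2)
    ≤ 8 * (1 - 1 / (128 * (n : ℝ))) * (∫ z, χ z ^ 2 * (H644.Ee e 1 z
      * s2 (Yv (Wu e φ Φ) f g z)))
    - 32 * n * (1 + 1 / (128 * (n : ℝ))) * ∫ z, χ z ^ 2 * (H644.Ee e 1 z ^ 2 * hb f g z ^ 2)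
    at key
  -- integrability
  have cE : Continuous (H644.Ee e 1 : VV n → ℝ) := (contDiff_Ee e 1).continuous
  have cχ : Continuous χ := dat.cχ.continuous
  have cht : Continuous fun z : VV n => ht e z := by unfold ht; fun_prop
  have cK : Continuous fun z : VV n => φ₂ (ht e z) :=
    (continuous_iff_continuousAt.2 fun s => (sp.d3 s).continuousAt).comp cht
  have cY : Continuous fun z => s2 (Yv (Wu e φ Φ) f g z) := by
    have h := YY_cont (α := va) (β := vb) (A := Aw2 vq vp e (fun s => 2 * Φ₁ s) fun _ => 0)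
      (B := Bw2 vq vp e (fun z => 2 * φ₁ (ht e z)) Φ) (fun i => (ra_flat _ rf).cA i)
      (fun i => (ra_flat _ rf).cB i) tb tc
    exact (continuous_congr eY).1 h
  have zY : ∀ z, z ∉ tsupport (hb f g) → z ∉ tsupport (hd f g) →
      s2 (Yv (Wu e φ Φ) f g z) = 0 := by
    intro z h1 h2
    rw [← eY]
    exact YY_zero h1 h2
  have I1 : Integrable fun z => χ z ^ 2 * (H644.Ee e 1 z * s2 (Yv (Wu e φ Φ) f g z)) :=
    int_of _ ((cχ.pow 2).mul (cE.mul cY)) tb tc fun z h1 h2 => by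
      show χ z ^ 2 * (H644.Ee e 1 z * s2 (Yv (Wu e φ Φ) f g z)) = 0
      rw [zY z h1 h2]; ring
  have I2 : Integrable fun z => χ z ^ 2 * (H644.Ee e 1 z ^ 2 * hb f g z ^ 2) :=
    int_of _ ((cχ.pow 2).mul ((cE.pow 2).mul (tb.1.continuous.pow 2))) tb tc fun z h1 _ => by
      show χ z ^ 2 * (H644.Ee e 1 z ^ 2 * hb f g z ^ 2) = 0
      rw [image_eq_zero_of_notMem_tsupport h1]; ring
  have I3 : Integrable fun z => χ z ^ 2 * (H644.Ee e 1 z * φ₂ (ht e z) * hd f g z ^ 2) :=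
    int_of _ ((cχ.pow 2).mul ((cE.mul cK).mul (tc.1.continuous.pow 2))) tb tc fun z _ h2 => by
      show χ z ^ 2 * (H644.Ee e 1 z * φ₂ (ht e z) * hd f g z ^ 2) = 0
      rw [image_eq_zero_of_notMem_tsupport h2]; ring
  have hdχ : Continuous (fderiv ℝ χ) := dat.cχ.continuous_fderiv (by simp)
  have cgp : Continuous (gp χ) := by
    unfold gp dp dx dy
    exact continuous_finsetSum _ fun i _ => ((hdχ.clm_apply continuous_const).add
      (hdχ.clm_apply continuous_const)).pow 2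
  have cgq : Continuous (gq χ) := by
    unfold gq dq dx dy
    exact continuous_finsetSum _ fun i _ => (((hdχ.clm_apply continuous_const).sub
      (hdχ.clm_apply continuous_const)).div_const _).pow 2
  have I4 : Integrable fun z => H644.Ee e 1 z * ∑ i, (2 * (fderiv ℝ χ z (va i) * hb f g z)
      + fderiv ℝ χ z (vb i) * hd f g z) ^ 2 := by
    refine int_of _ (cE.mul (continuous_finsetSum _ fun i _ =>
      ((continuous_const.mul ((hdχ.clm_apply continuous_const).mul tb.1.continuous)).add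
        ((hdχ.clm_apply continuous_const).mul tc.1.continuous)).pow 2)) tb tc fun z h1 h2 => ?_
    show H644.Ee e 1 z * ∑ i, (2 * (fderiv ℝ χ z (va i) * hb f g z)
      + fderiv ℝ χ z (vb i) * hd f g z) ^ 2 = 0
    rw [image_eq_zero_of_notMem_tsupport h1, image_eq_zero_of_notMem_tsupport h2]
    simp
  have I5 : Integrable fun z => H644.Ee e 1 z * ((gq χ z + gp χ z) * hb f g z ^ 2
      + gp χ z * hd f g z ^ 2) := by
    refine int_of _ (cE.mul (((cgq.add cgp).mul (tb.1.continuous.pow 2)).add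
      (cgp.mul (tc.1.continuous.pow 2)))) tb tc fun z h1 h2 => ?_
    show H644.Ee e 1 z * ((gq χ z + gp χ z) * hb f g z ^ 2 + gp χ z * hd f g z ^ 2) = 0
    rw [image_eq_zero_of_notMem_tsupport h1, image_eq_zero_of_notMem_tsupport h2]
    simp
  have E0 : ∀ z : VV n, 0 < H644.Ee e 1 z := fun z => H644.Ee_pos e 1 z
  have k4 : ∫ z, H644.Ee e 1 z * ∑ i, (2 * (fderiv ℝ χ z (va i) * hb f g z)
      + fderiv ℝ χ z (vb i) * hd f g z) ^ 2
      ≤ 8 * ∫ z, H644.Ee e 1 z * ((gq χ z + gp χ z) * hb f g z ^ 2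
      + gp χ z * hd f g z ^ 2) := by
    rw [← integral_const_mul]
    refine integral_mono I4 (I5.const_mul _) fun z => ?_
    have h := mul_le_mul_of_nonneg_left (cut_le (χ := χ) (hb f g z) (hd f g z) z) (E0 z).le
    show H644.Ee e 1 z * _ ≤ 8 * (H644.Ee e 1 z * _)
    linarith
  have k3 : 0 ≤ ∫ z, χ z ^ 2 * (H644.Ee e 1 z * φ₂ (ht e z) * hd f g z ^ 2) := by
    apply integral_nonneg
    intro z
    show 0 ≤ χ z ^ 2 * (H644.Ee e 1 z * φ₂ (ht e z) * hd f g z ^ 2)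
    by_cases hz : z ∈ tsupport χ
    · have h1 := sp.kp _ (hsub hz).1.1.1
      have h2 := E0 z
      positivity
    · rw [image_eq_zero_of_notMem_tsupport hz]; simp
  have k5 : 0 ≤ ∫ z, H644.Ee e 1 z * ((gq χ z + gp χ z) * hb f g z ^ 2
      + gp χ z * hd f g z ^ 2) := by
    apply integral_nonneg
    intro z
    have h2 : 0 ≤ gp χ z := Finset.sum_nonneg fun _ _ => sq_nonneg _
    have h3 : 0 ≤ gq χ z := Finset.sum_nonneg fun _ _ => sq_nonneg _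
    have h4 := E0 z
    show 0 ≤ H644.Ee e 1 z * ((gq χ z + gp χ z) * hb f g z ^ 2 + gp χ z * hd f g z ^ 2)
    positivity
  have e1 : ∫ z, χ z ^ 2 * (H644.Ee e 1 z * s2 (Yv (Wu e φ Φ) f g z)
        + H644.Ee e 1 z ^ 2 * hb f g z ^ 2)
      = (∫ z, χ z ^ 2 * (H644.Ee e 1 z * s2 (Yv (Wu e φ Φ) f g z)))
        + ∫ z, χ z ^ 2 * (H644.Ee e 1 z ^ 2 * hb f g z ^ 2) := by
    rw [← integral_add I1 I2]
    congr 1; funext z; ring
  have e2 : ∫ z, χ z ^ 2 * (8 * (1 - 1 / (128 * (n : ℝ))) * H644.Ee e 1 z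
        * s2 (Yv (Wu e φ Φ) f g z)
        - 32 * n * (1 + 1 / (128 * (n : ℝ))) * H644.Ee e 1 z ^ 2 * hb f g z ^ 2
        + (Ca + Cb) * H644.Ee e 1 z * φ₂ (ht e z) * hd f g z ^ 2)
      = 8 * (1 - 1 / (128 * (n : ℝ))) * (∫ z, χ z ^ 2 * (H644.Ee e 1 z
        * s2 (Yv (Wu e φ Φ) f g z)))
        - 32 * n * (1 + 1 / (128 * (n : ℝ)))
          * (∫ z, χ z ^ 2 * (H644.Ee e 1 z ^ 2 * hb f g z ^ 2))
        + (Ca + Cb) * ∫ z, χ z ^ 2 * (H644.Ee e 1 z * φ₂ (ht e z) * hd f g z ^ 2) := by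
    have I12 : Integrable fun z => 8 * (1 - 1 / (128 * (n : ℝ))) * (χ z ^ 2 * (H644.Ee e 1 z
        * s2 (Yv (Wu e φ Φ) f g z)))
        - 32 * n * (1 + 1 / (128 * (n : ℝ))) * (χ z ^ 2 * (H644.Ee e 1 z ^ 2 * hb f g z ^ 2)) :=
      (I1.const_mul _).sub (I2.const_mul _)
    rw [← integral_const_mul, ← integral_const_mul, ← integral_const_mul,
      ← integral_sub (I1.const_mul _) (I2.const_mul _), ← integral_add I12 (I3.const_mul _)]
    congr 1; funext z; ring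
  rw [e1, e2]
  have k6 := mul_nonneg Ca0.le k5
  have k7 := mul_nonneg Cb0.le k3
  have k8 := mul_le_mul_of_nonneg_left k4 (by positivity : 0 ≤ 8 * (1 + 128 * (n : ℝ)))
  have k9 : 8 * (1 + 128 * (n : ℝ)) * (8 * ∫ z, H644.Ee e 1 z * ((gq χ z + gp χ z)
      * hb f g z ^ 2 + gp χ z * hd f g z ^ 2)) = Cb * ∫ z, H644.Ee e 1 z * ((gq χ z + gp χ z)
      * hb f g z ^ 2 + gp χ z * hd f g z ^ 2) := by rw [hCb]; ring
  rw [k9] at k8
  linarith

end Vale.Agent.P088.R2.H960.C
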