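import Vale.Agent.P088.R2.H960.C.VV
import Vale.Agent.P088.R2.H205.C.SpecI

/-!
# Zone C, region I: the freezing inequality for a general weight (`RowAI` of `SpecI`)
-/

open Set MeasureTheory
open scoped ContDiff

noncomputable section

namespace Vale.Agent.P088.R2.H960.C

open Vale.Agent.P088.LR Vale.Agent.P088.HY Vale.Agent.P088.R2.H644 Vale.Agent.P088.R2
open Vale.Agent.P088.R2.H961.GW (Te)

variable {n : ℕ}

theorem vq_norm (z : VV n) : ‖H205.CP.vq z‖ ≤ Real.sqrt (qq z) := by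
  rw [pi_norm_le_iff_of_nonneg (Real.sqrt_nonneg _)]
  intro i
  rw [Real.norm_eq_abs]
  exact Real.abs_le_sqrt (lq_le (lq := vq) z i)

theorem vq_dist {z z' : VV n} {d : ℝ} (hd : 0 ≤ d) (h : ∀ i, |vq i z - vq i z'| ≤ d) :
    ‖H205.CP.vq z - H205.CP.vq z'‖ ≤ d := by
  rw [pi_norm_le_iff_of_nonneg hd]
  intro i
  rw [Real.norm_eq_abs]
  exact h i

theorem vp_dist {z z' : VV n} {d : ℝ} (hd : 0 ≤ d) (h : ∀ i, |vp i z - vp i z'| ≤ d) :
    ‖H205.CP.vp z - H205.CP.vp z'‖ ≤ 2 * d := by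
  rw [pi_norm_le_iff_of_nonneg (by positivity)]
  intro i
  rw [Real.norm_eq_abs]
  have h1 := h i
  rw [vp_apply, vp_apply] at h1
  have e : (H205.CP.vp z - H205.CP.vp z') i
      = 2 * ((z.1 i + z.2 i) / 2 - (z'.1 i + z'.2 i) / 2) := by
    show (z.1 i + z.2 i) - (z'.1 i + z'.2 i) = _
    ring
  rw [e, abs_mul, abs_of_pos (by norm_num : (0 : ℝ) < 2)]
  linarith

/-- The two error terms on a cell, `s = √E`, `k = √K`, `q`, `q'` the sizes of `x - y`. -/
theorem pt_cel {s k q q' dQ dP c a C₂ κ₀ : ℝ} (hs : 0 ≤ s) (hk : 0 ≤ k) (hC : 0 ≤ C₂)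
    (hκ : 0 ≤ κ₀) (hc : 0 ≤ c) (hP0 : 0 ≤ dP) (hQ0 : 0 ≤ dQ) (hq0 : 0 ≤ q) (hq0' : 0 ≤ q')
    (hP : dP * k ≤ 4) (hQ : dQ * s ≤ 2 * a) (hq : s * q ≤ c * k) (hq' : s * q' ≤ 2 * (c * k)) :
    κ₀ * s ^ 2 * dQ + C₂ * s ^ 2 * (q + q') * dP + κ₀ * s
        ≤ (κ₀ * (2 * a + 1) + 12 * C₂ * c) * s ∧
      C₂ * ((k ^ 2 + s ^ 2 * (q + q') ^ 2) * dP + s ^ 2 * (q + q') * dQ + k)
        ≤ C₂ * (4 * (1 + 9 * c ^ 2) + 6 * (c * a) + 1) * k := by
  have hsq : s * (q + q') ≤ 3 * (c * k) := by linarith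
  have hsq0 : 0 ≤ s * (q + q') := by positivity
  have a0 : 0 ≤ a := by nlinarith
  constructor
  · have h1 : κ₀ * s ^ 2 * dQ ≤ κ₀ * s * (2 * a) := by
      have := mul_le_mul_of_nonneg_left hQ (mul_nonneg hκ hs)
      calc κ₀ * s ^ 2 * dQ = κ₀ * s * (dQ * s) := by ring
        _ ≤ _ := this
    have h2 : C₂ * s ^ 2 * (q + q') * dP ≤ C₂ * s * (12 * c) := by
      have h3 : s * (q + q') * dP ≤ 3 * (c * k) * dP := mul_le_mul_of_nonneg_right hsq hP0
      have h4 : 3 * (c * k) * dP ≤ 12 * c := by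
        have := mul_le_mul_of_nonneg_left hP (by positivity : 0 ≤ 3 * c)
        calc 3 * (c * k) * dP = 3 * c * (dP * k) := by ring
          _ ≤ 3 * c * 4 := this
          _ = 12 * c := by ring
      have h5 := mul_le_mul_of_nonneg_left (h3.trans h4) (mul_nonneg hC hs)
      calc C₂ * s ^ 2 * (q + q') * dP = C₂ * s * (s * (q + q') * dP) := by ring
        _ ≤ _ := h5
    have e : (κ₀ * (2 * a + 1) + 12 * C₂ * c) * s
        = κ₀ * s * (2 * a) + C₂ * s * (12 * c) + κ₀ * s := by ring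
    rw [e]
    linarith
  · have h1 : (k ^ 2 + s ^ 2 * (q + q') ^ 2) * dP ≤ 4 * (1 + 9 * c ^ 2) * k := by
      have h2 : s ^ 2 * (q + q') ^ 2 ≤ 9 * c ^ 2 * k ^ 2 := by
        have := pow_le_pow_left₀ hsq0 hsq 2
        calc s ^ 2 * (q + q') ^ 2 = (s * (q + q')) ^ 2 := by ring
          _ ≤ (3 * (c * k)) ^ 2 := this
          _ = 9 * c ^ 2 * k ^ 2 := by ring
      calc (k ^ 2 + s ^ 2 * (q + q') ^ 2) * dP ≤ (k ^ 2 + 9 * c ^ 2 * k ^ 2) * dP :=
            mul_le_mul_of_nonneg_right (by linarith) hP0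
        _ = (1 + 9 * c ^ 2) * k * (dP * k) := by ring
        _ ≤ (1 + 9 * c ^ 2) * k * 4 := mul_le_mul_of_nonneg_left hP (by positivity)
        _ = _ := by ring
    have h2 : s ^ 2 * (q + q') * dQ ≤ 6 * (c * a) * k := by
      calc s ^ 2 * (q + q') * dQ = (s * (q + q')) * (dQ * s) := by ring
        _ ≤ (3 * (c * k)) * (2 * a) := mul_le_mul hsq hQ (by positivity) (by positivity)
        _ = _ := by ring
    have h3 := mul_le_mul_of_nonneg_left (add_le_add (add_le_add h1 h2) (le_refl k)) hC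
    refine h3.trans (le_of_eq ?_)
    ring

/-- The radii of the cells. -/
def rc (n : ℕ) (Ef Kf : VV n → ℝ) : Fin n ⊕ Fin n → VV n → ℝ :=
  Sum.elim (fun _ z => Kf z) fun _ z => Ef z / A00 n

/-- The size of the gradient costs. -/
def gc (n : ℕ) (lam : ℝ) (Ef Kf : VV n → ℝ) (z : VV n) : ℝ :=
  2 * (Fintype.card (Fin n) * Mth * ∑ j, (‖vp (n := n) j‖ / lam) ^ 2)
    + 8 * (Fintype.card (Fin n ⊕ Fin n) * Mth * ∑ j, ‖lj vq vp j‖ ^ 2 * rc n Ef Kf j z)

/-- The constant of `W_p`. -/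
def cB (n : ℕ) (C₂ c : ℝ) : ℝ :=
  C₂ * (4 * (1 + 9 * Real.sqrt c ^ 2) + 6 * (Real.sqrt c * Real.sqrt (A00 n)) + 1)

theorem ra_cel (hn : 3 ≤ n) {κ₀ C₂ c₀ c K₀ lam : ℝ} {W Ef Kf : VV n → ℝ} {O : Set (VV n)}
    (hκ : 0 ≤ κ₀) (hκ1 : κ₀ ≤ 1 / (128 * n))
    (hκ2 : κ₀ * (2 * Real.sqrt (A00 n) + 1) ≤ Real.sqrt (ka n) / 2) (hC₂ : 0 < C₂)
    (hc1 : 12 * C₂ * Real.sqrt c ≤ Real.sqrt (ka n) / 2) (hK : 1 ≤ K₀)
    (hK2 : (512 * n * C₂) ^ 2 ≤ K₀) (hlam : 0 < lam) (hK3 : (4 / lam) ^ 2 ≤ K₀)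
    (hlam2 : C₂ * lam ≤ 1 / 4)
    (sW : ContDiff ℝ ∞ W) (cE : Continuous Ef) (cK : Continuous Kf) (E0 : ∀ z, 0 < Ef z)
    (h : H205.CP.Cel κ₀ C₂ c₀ c K₀ lam W Ef Kf O) :
    RA (volume : Measure (VV n)) n O (fun i _ => va i) (fun i _ => vb i)
      (fun i => H205.CP.dq i W) (fun i => H205.CP.dp i W) Ef Kf (fun _ => 0)
      (gc n (lam / 4) Ef Kf) (fun _ => vq) vp (lam / 4) (lj vq vp) (rc n Ef Kf)
      (cB n C₂ c ^ 2) ((1 / (lam / 4) ^ 2 + 8) * (n : ℝ) ^ 2 * Mth) := by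
  have hn3 : (3 : ℝ) ≤ n := by exact_mod_cast hn
  have hn0 : (0 : ℝ) < n := by linarith
  have hM := Mth_pos
  have pA : 0 < A00 n := by unfold A00; positivity
  have pk : 0 < ka n := by unfold ka; positivity
  have dn : 1 / (128 * (n : ℝ)) ≤ 1 / 384 := by
    apply one_div_le_one_div_of_le (by norm_num); linarith
  have hdW : Continuous (fderiv ℝ W) := sW.continuous_fderiv (by simp)
  -- comparability on a box
  have cmp : ∀ z ∈ O, ∀ z' ∈ O, ‖H205.CP.vp z - H205.CP.vp z'‖ ≤ lam →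
      Ef z ≤ 2 * Ef z' ∧ Kf z ≤ 2 * Kf z' := by
    intro z hz z' hz' hd
    rw [norm_sub_rev] at hd
    have h1 : C₂ * ‖H205.CP.vp z' - H205.CP.vp z‖ + κ₀ ≤ 1 := by
      have := mul_le_mul_of_nonneg_left hd hC₂.le
      linarith
    have h2 := h.ef z' hz' z hz hd
    have h3 := h.kf z' hz' z hz hd
    have k0 : 0 < Kf z' := by linarith [h.k0 z' hz']
    have h4 := mul_le_mul_of_nonneg_left h1 (E0 z').le
    have h5 := mul_le_mul_of_nonneg_left h1 k0.le
    have h6 := (abs_le.1 h2).1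
    have h7 := (abs_le.1 h3).1
    exact ⟨by linarith, by linarith⟩
  refine
    { hlam := by positivity
      fz := fun _ _ => fz_VV
      cE := cE
      cK := cK
      ce := continuous_const
      cG := ?_
      cα := fun i => continuous_const
      cβ := fun i => continuous_const
      cA := fun i => ?_
      cB := fun i => ?_
      E0 := fun z _ => E0 z
      K0 := fun z hz => by linarith [h.k0 z hz]
      r0 := ?_
      B0 := ?_
      hr := ?_
      cell := ?_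
      ga := ?_
      gb := ?_
      gn := fun z _ => le_rfl }
  · have hr : ∀ j, Continuous (rc n Ef Kf j) := by
      rintro (j | j)
      · exact cK
      · exact cE.div_const _
    exact continuous_const.add (continuous_const.mul (continuous_const.mul
      (continuous_finsetSum _ fun j _ => continuous_const.mul (hr j))))
  · unfold H205.CP.dq dx dy
    exact ((hdW.clm_apply continuous_const).sub (hdW.clm_apply continuous_const)).div_const _
  · unfold H205.CP.dp dx dy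
    exact (hdW.clm_apply continuous_const).add (hdW.clm_apply continuous_const)
  · rintro z hz (j | j)
    · show 0 < Kf z
      linarith [h.k0 z hz]
    · exact div_pos (E0 z) pA
  · intro z hz h0
    obtain ⟨i, hi⟩ := h.np z hz
    exact hi (congrFun h0 i)
  · intro z hz z' hz' hl j
    have hd : ‖H205.CP.vp z - H205.CP.vp z'‖ ≤ lam := by
      refine (vp_dist (d := 2 * (lam / 4)) (by positivity) hl).trans (le_of_eq ?_)
      ring
    obtain ⟨h1, h2⟩ := cmp z hz z' hz' hd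
    rcases j with j | j
    · exact h2
    · show Ef z / A00 n ≤ 2 * (Ef z' / A00 n)
      rw [← mul_div_assoc]
      exact div_le_div_of_nonneg_right h1 pA.le
  · intro z hz z' hz' hl0 hl
    have Kz := h.k0 z hz
    have Kz0 : 0 < Kf z := by linarith
    have Ez := E0 z
    have hp : ∀ i, |vp i z - vp i z'| ≤ 2 / Real.sqrt (Kf z) := by
      intro i
      have h1 : Kf z * (vp i z - vp i z') ^ 2 ≤ 4 := hl (Sum.inl i)
      rw [le_div_iff₀ (Real.sqrt_pos.2 Kz0)]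
      apply le_of_sq_le_sq _ (by norm_num)
      rw [mul_pow, sq_abs, Real.sq_sqrt Kz0.le]
      linarith
    have hq : ∀ i, |vq i z - vq i z'| ≤ 2 * Real.sqrt (A00 n) / Real.sqrt (Ef z) := by
      intro i
      have h1 : Ef z / A00 n * (vq i z - vq i z') ^ 2 ≤ 4 := hl (Sum.inr i)
      rw [le_div_iff₀ (Real.sqrt_pos.2 Ez)]
      apply le_of_sq_le_sq _ (by positivity)
      rw [mul_pow, sq_abs, Real.sq_sqrt Ez.le, mul_pow, Real.sq_sqrt pA.le]
      have h2 : Ef z * (vq i z - vq i z') ^ 2 = A00 n * (Ef z / A00 n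
        * (vq i z - vq i z') ^ 2) := by field_simp
      have h3 := mul_le_mul_of_nonneg_left h1 pA.le
      rw [← h2] at h3
      linarith
    have dP := vp_dist (by positivity) hp
    have dQ := vq_dist (by positivity) hq
    set DP := ‖H205.CP.vp z - H205.CP.vp z'‖ with hDP
    set DQ := ‖H205.CP.vq z - H205.CP.vq z'‖ with hDQ
    have DP0 : 0 ≤ DP := norm_nonneg _
    have DQ0 : 0 ≤ DQ := norm_nonneg _
    have sK : 0 < Real.sqrt (Kf z) := Real.sqrt_pos.2 Kz0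
    have sE : 0 < Real.sqrt (Ef z) := Real.sqrt_pos.2 Ez
    have dP1 : DP * Real.sqrt (Kf z) ≤ 4 := by
      have h1 := mul_le_mul_of_nonneg_right dP sK.le
      have e : 2 * (2 / Real.sqrt (Kf z)) * Real.sqrt (Kf z) = 4 := by
        field_simp; norm_num
      linarith
    have dQ1 : DQ * Real.sqrt (Ef z) ≤ 2 * Real.sqrt (A00 n) := by
      have h1 := mul_le_mul_of_nonneg_right dQ sE.le
      have e : 2 * Real.sqrt (A00 n) / Real.sqrt (Ef z) * Real.sqrt (Ef z)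
        = 2 * Real.sqrt (A00 n) := by field_simp
      linarith
    have sK2 : 4 / lam ≤ Real.sqrt (Kf z) := Real.le_sqrt_of_sq_le (hK3.trans Kz)
    have sK3 : 512 * n * C₂ ≤ Real.sqrt (Kf z) := Real.le_sqrt_of_sq_le (hK2.trans Kz)
    have dlam : DP ≤ lam := by
      have h1 : DP * (4 / lam) ≤ 4 := (mul_le_mul_of_nonneg_left sK2 DP0).trans dP1
      have h2 : DP * (4 / lam) = 4 * (DP / lam) := by ring
      rw [h2] at h1
      have h3 : DP / lam ≤ 1 := by linarith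
      exact (div_le_one hlam).1 h3
    have dlam' : ‖H205.CP.vp z' - H205.CP.vp z‖ ≤ lam := by rw [norm_sub_rev]; exact dlam
    obtain ⟨hE2, _⟩ := cmp z hz z' hz' dlam
    obtain ⟨_, hK4⟩ := cmp z' hz' z hz dlam'
    -- relative size of `E`
    have hs : C₂ * DP + κ₀ ≤ 1 / (64 * n) := by
      have h1 : C₂ * DP ≤ 1 / (128 * n) := by
        have h2 : DP * (512 * n * C₂) ≤ 4 := (mul_le_mul_of_nonneg_left sK3 DP0).trans dP1
        rw [le_div_iff₀ (by positivity)]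
        linarith
      have h3 : 1 / (64 * (n : ℝ)) = 1 / (128 * n) + 1 / (128 * n) := by field_simp; norm_num
      rw [h3]; linarith
    have ef1 := h.ef z hz z' hz' dlam
    have ef2 := h.ef z' hz' z hz dlam'
    rw [norm_sub_rev (H205.CP.vp z')] at ef2
    rw [← hDP] at ef1 ef2
    have g1 := mul_le_mul_of_nonneg_left hs Ez.le
    have g2 := mul_le_mul_of_nonneg_left hs (E0 z').le
    have ef1' := (abs_le.1 (ef1.trans g1))
    have ef2' := (abs_le.1 (ef2.trans g2))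
    -- sizes of `q`
    have hc0 : 0 ≤ c := by
      by_contra hc'
      push Not at hc'
      have h1 := h.t0 z hz
      have h2 : 0 ≤ qq z := r2_nonneg (lq := vq) z
      have h3 : c * Kf z < 0 := mul_neg_of_neg_of_pos hc' Kz0
      have h4 := mul_nonneg Ez.le h2
      linarith
    have qz : Real.sqrt (Ef z) * ‖H205.CP.vq z‖ ≤ Real.sqrt c * Real.sqrt (Kf z) := by
      rw [← Real.sqrt_mul hc0]
      calc Real.sqrt (Ef z) * ‖H205.CP.vq z‖ ≤ Real.sqrt (Ef z) * Real.sqrt (qq z) :=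
            mul_le_mul_of_nonneg_left (vq_norm z) sE.le
        _ = Real.sqrt (Ef z * qq z) := (Real.sqrt_mul Ez.le _).symm
        _ ≤ _ := Real.sqrt_le_sqrt (h.t0 z hz)
    have qz' : Real.sqrt (Ef z) * ‖H205.CP.vq z'‖ ≤ 2 * (Real.sqrt c * Real.sqrt (Kf z)) := by
      have e : 2 * (Real.sqrt c * Real.sqrt (Kf z)) = Real.sqrt (4 * (c * Kf z)) := by
        rw [Real.sqrt_mul (by norm_num), Real.sqrt_mul hc0]
        have : Real.sqrt 4 = 2 := by
          rw [show (4 : ℝ) = 2 ^ 2 by norm_num]; exact Real.sqrt_sq (by norm_num)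
        rw [this]
      rw [e]
      calc Real.sqrt (Ef z) * ‖H205.CP.vq z'‖ ≤ Real.sqrt (Ef z) * Real.sqrt (qq z') :=
            mul_le_mul_of_nonneg_left (vq_norm z') sE.le
        _ = Real.sqrt (Ef z * qq z') := (Real.sqrt_mul Ez.le _).symm
        _ ≤ _ := by
          apply Real.sqrt_le_sqrt
          have h1 := h.t0 z' hz'
          have h2 : 0 ≤ qq z' := r2_nonneg (lq := vq) z'
          have h3 := mul_le_mul_of_nonneg_right hE2 h2
          have h4 := mul_le_mul_of_nonneg_left hK4 hc0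
          linarith
    obtain ⟨pA1, pB1⟩ := pt_cel (C₂ := C₂) (κ₀ := κ₀) (Real.sqrt_nonneg (Ef z))
      (Real.sqrt_nonneg (Kf z)) hC₂.le hκ (Real.sqrt_nonneg c) DP0 DQ0 (norm_nonneg _)
      (norm_nonneg _) dP1 dQ1 qz qz'
    rw [Real.sq_sqrt Ez.le] at pA1 pB1
    rw [Real.sq_sqrt Kz0.le] at pB1
    refine ⟨by linarith [ef2'.1], by linarith [ef1'.2], fun i => ?_, fun i => ?_,
      fun i => by simp, fun i => by simp⟩
    · have h1 := h.wq z hz z' hz' dlam i
      have e : H205.CP.dq i W z - H205.CP.dq i W z' - Ef z' * vq i (z - z')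
          = H205.CP.dq i W z - H205.CP.dq i W z'
            - Ef z' * (H205.CP.vq z i - H205.CP.vq z' i) := by
        rw [map_sub]; rfl
      rw [e]
      have h2 := h1.trans pA1
      have h3 : (κ₀ * (2 * Real.sqrt (A00 n) + 1) + 12 * C₂ * Real.sqrt c) * Real.sqrt (Ef z)
          ≤ Real.sqrt (ka n) * Real.sqrt (Ef z) :=
        mul_le_mul_of_nonneg_right (by linarith) sE.le
      have h4 := pow_le_pow_left₀ (abs_nonneg _) (h2.trans h3) 2
      rw [sq_abs, mul_pow, Real.sq_sqrt pk.le, Real.sq_sqrt Ez.le] at h4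
      exact h4
    · have h1 := (h.wp z hz z' hz' dlam i).trans pB1
      have h4 := pow_le_pow_left₀ (abs_nonneg _) h1 2
      rw [sq_abs, mul_pow, Real.sq_sqrt Kz0.le] at h4
      exact h4
  · intro z hz
    have e1 : ∑ i : Fin n, ∑ j : Fin n, ((vp j) (va i) / (lam / 4)) ^ 2 = 0 := by
      simp [fr_VV.pa]
    have e2 : ∑ i : Fin n, ∑ j, (lj vq vp j) (va i) ^ 2 * rc n Ef Kf j z = n * (Ef z / A00 n) := by
      simp only [Fintype.sum_sum_type, lj, rc, Sum.elim_inl, Sum.elim_inr, fr_VV.pa, fr_VV.qa]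
      simp
    rw [e1, e2]
    apply le_of_eq
    simp only [Fintype.card_sum, Fintype.card_fin]
    push_cast
    unfold A00
    field_simp
    ring
  · intro z hz
    have e1 : ∑ i : Fin n, ∑ j : Fin n, ((vp j) (vb i) / (lam / 4)) ^ 2
        = n * (1 / (lam / 4) ^ 2) := by
      have : ∀ i j : Fin n, ((vp j) (vb i) / (lam / 4)) ^ 2
          = if j = i then 1 / (lam / 4) ^ 2 else 0 := by
        intro i j
        rw [fr_VV.pb]
        split_ifs
        · rw [div_pow, one_pow]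
        · rw [zero_div]; norm_num
      simp only [this]
      simp
    have e2 : ∑ i : Fin n, ∑ j, (lj vq vp j) (vb i) ^ 2 * rc n Ef Kf j z = n * Kf z := by
      simp only [Fintype.sum_sum_type, lj, rc, Sum.elim_inl, Sum.elim_inr, fr_VV.pb, fr_VV.qb]
      simp
    rw [e1, e2]
    simp only [Fintype.card_sum, Fintype.card_fin]
    push_cast
    have h1 : 1 ≤ Kf z := hK.trans (h.k0 z hz)
    have h2 : 0 ≤ (n : ℝ) ^ 2 * (Mth * (1 / (lam / 4) ^ 2)) := by positivity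
    have h3 := mul_le_mul_of_nonneg_left h1 h2
    nlinarith

/-- The cut-off cost. -/
theorem cut_le' {χ : VV n → ℝ} (b c : ℝ) (z : VV n) :
    ∑ i, (2 * (fderiv ℝ χ z (va i) * b) + fderiv ℝ χ z (vb i) * c) ^ 2
      ≤ 8 * ((H205.CP.gq χ z + H205.CP.gp χ z) * b ^ 2 + H205.CP.gp χ z * c ^ 2) := by
  have h1 : ∑ i, (2 * (fderiv ℝ χ z (va i) * b) + fderiv ℝ χ z (vb i) * c) ^ 2
      ≤ ∑ i, (8 * (H205.CP.dq i χ z ^ 2 * b ^ 2) + 2 * (H205.CP.dp i χ z ^ 2 * c ^ 2)) := by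
    apply Finset.sum_le_sum
    intro i _
    rw [fd_va, fd_vb]
    refine (sq_add_le _ _).trans (le_of_eq ?_)
    unfold H205.CP.dq H205.CP.dp
    ring
  have h2 : 0 ≤ H205.CP.gp χ z := Finset.sum_nonneg fun _ _ => sq_nonneg _
  have h3 : 0 ≤ H205.CP.gq χ z := Finset.sum_nonneg fun _ _ => sq_nonneg _
  refine h1.trans ?_
  rw [Finset.sum_add_distrib, ← Finset.mul_sum, ← Finset.mul_sum, ← Finset.sum_mul,
    ← Finset.sum_mul]
  change 8 * (H205.CP.gq χ z * b ^ 2) + 2 * (H205.CP.gp χ z * c ^ 2) ≤ _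
  have h4 := mul_nonneg h2 (sq_nonneg b)
  have h5 := mul_nonneg h2 (sq_nonneg c)
  linarith

theorem ts_hb {f g : VV n → ℝ} (tf : Ts f) (tg : Ts g) : Ts (H205.CP.hb f g) :=
  ⟨(tf.1.add tg.1).div_const _, (tf.2.add tg.2).mono' (by
    intro z hz
    apply subset_tsupport
    rw [Function.mem_support] at hz ⊢
    intro h0
    apply hz
    show (f z + g z) / 2 = 0
    have : f z + g z = 0 := h0
    rw [this, zero_div])⟩

theorem ts_hd {f g : VV n → ℝ} (tf : Ts f) (tg : Ts g) : Ts (H205.CP.hd f g) :=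
  ⟨(tf.1.sub tg.1).div_const _, (tf.2.sub tg.2).mono' (by
    intro z hz
    apply subset_tsupport
    rw [Function.mem_support] at hz ⊢
    intro h0
    apply hz
    show (f z - g z) / 2 = 0
    have : f z - g z = 0 := h0
    rw [this, zero_div])⟩

/-- **(AI)** the freezing inequality of region I. -/
theorem rowAI3 : H205.CP.RowAI := by
  intro n hn
  have hn3 : (3 : ℝ) ≤ n := by exact_mod_cast hn
  have hn0 : (0 : ℝ) < n := by linarith
  have hM := Mth_pos
  have pA : 0 < A00 n := by unfold A00; positivity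
  have pk : 0 < ka n := by unfold ka; positivity
  have sA : 0 ≤ Real.sqrt (A00 n) := Real.sqrt_nonneg _
  have sk : 0 < Real.sqrt (ka n) := Real.sqrt_pos.2 pk
  set κ₀ : ℝ := min (1 / (128 * n)) (Real.sqrt (ka n) / 2 / (2 * Real.sqrt (A00 n) + 1)) with hκ
  have κ0 : 0 < κ₀ := lt_min (by positivity) (by positivity)
  have κ1 : κ₀ ≤ 1 / (128 * n) := min_le_left _ _
  have κ2 : κ₀ * (2 * Real.sqrt (A00 n) + 1) ≤ Real.sqrt (ka n) / 2 := by
    rw [← le_div_iff₀ (by positivity)]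
    exact min_le_right _ _
  refine ⟨1 / (128 * (n : ℝ)), 1 / 4, κ₀, by positivity, by norm_num, κ0, ?_⟩
  intro C₂ hC₂
  set c : ℝ := (Real.sqrt (ka n) / 2 / (12 * C₂)) ^ 2 with hc
  have c0 : 0 < c := by positivity
  have hc1 : 12 * C₂ * Real.sqrt c ≤ Real.sqrt (ka n) / 2 := by
    rw [hc, Real.sqrt_sq (by positivity)]
    apply le_of_eq; field_simp
  set lam : ℝ := 1 / (4 * C₂) with hlam
  have lam0 : 0 < lam := by positivity
  have hlam2 : C₂ * lam ≤ 1 / 4 := by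
    apply le_of_eq; rw [hlam]; field_simp
  set K₀ : ℝ := max 1 (max ((512 * n * C₂) ^ 2) ((4 / lam) ^ 2)) with hK
  have hK1 : 1 ≤ K₀ := le_max_left _ _
  have hK2 : (512 * n * C₂) ^ 2 ≤ K₀ := (le_max_left _ _).trans (le_max_right _ _)
  have hK3 : (4 / lam) ^ 2 ≤ K₀ := (le_max_right _ _).trans (le_max_right _ _)
  set Ca : ℝ := 8192 * (n : ℝ) ^ 2 * cB n C₂ c ^ 2
    + 16 * ((1 / (lam / 4) ^ 2 + 8) * (n : ℝ) ^ 2 * Mth) with hCa
  set Cb : ℝ := 8 * (1 + 128 * n) * 8 with hCb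
  have Ca0 : 0 < Ca := by positivity
  have Cb0 : 0 < Cb := by positivity
  refine ⟨1, c, K₀, lam, Ca + Cb, one_pos, c0, by linarith, lam0, by positivity, ?_⟩
  intro O W Ef Kf χ f g sW cE cK E0 hcel cχ' hχO hf hg
  have tf : Ts f := ⟨hf.1, hf.2.1⟩
  have tg : Ts g := ⟨hg.1, hg.2.1⟩
  have tb := ts_hb tf tg
  have tc := ts_hd tf tg
  have ra := ra_cel hn κ0.le κ1 κ2 hC₂ hc1 hK1 hK2 lam0 hK3 hlam2 sW cE cK E0 hcel
  have key := cutG (volume : Measure (VV n)) hn (Fintype.card_fin n) (sq_nonneg _)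
    (by positivity) ra cχ' hχO tb tc
  have eY : ∀ z, YG (fun i (_ : VV n) => va i) (fun i _ => vb i) (fun i => H205.CP.dq i W)
      (fun i => H205.CP.dp i W) (H205.CP.hb f g) (H205.CP.hd f g) z
      = H205.CP.s2 (H205.CP.Uu W f z - H205.CP.Uv W g z) := fun z =>
    YY_VV (tf.df z) (tg.df z) (fun i => rfl) fun i => rfl
  have e0 : ∀ z, fre (fun _ => (0 : ℝ)) (gc n (lam / 4) Ef Kf)
      (fun z => χ z * H205.CP.hb f g z) (fun z => χ z * H205.CP.hd f g z) z = 0 := by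
    intro z; unfold fre; simp
  simp only [eY, e0, mul_zero, integral_zero, sub_zero] at key
  change 1 / 4 * ((∫ z, χ z ^ 2 * (Ef z * H205.CP.s2 (H205.CP.Uu W f z - H205.CP.Uv W g z)))
      + ∫ z, χ z ^ 2 * (Ef z ^ 2 * H205.CP.hb f g z ^ 2))
    - Ca * (∫ z, χ z ^ 2 * (Ef z * Kf z * H205.CP.hd f g z ^ 2))
    - 8 * (1 + 128 * n) * (∫ z, Ef z * ∑ i, (2 * (fderiv ℝ χ z (va i) * H205.CP.hb f g z)
      + fderiv ℝ χ z (vb i) * H205.CP.hd f g z) ^ 2)
    ≤ 8 * (1 - 1 / (128 * (n : ℝ))) * (∫ z, χ z ^ 2 * (Ef z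
      * H205.CP.s2 (H205.CP.Uu W f z - H205.CP.Uv W g z)))
    - 32 * n * (1 + 1 / (128 * (n : ℝ))) * ∫ z, χ z ^ 2 * (Ef z ^ 2 * H205.CP.hb f g z ^ 2)
    at key
  -- integrability
  have cχ : Continuous χ := cχ'.continuous
  have cY : Continuous fun z => H205.CP.s2 (H205.CP.Uu W f z - H205.CP.Uv W g z) :=
    (continuous_congr eY).1 (YG_cont ra.cα ra.cβ ra.cA ra.cB tb tc)
  have zY : ∀ z, z ∉ tsupport (H205.CP.hb f g) → z ∉ tsupport (H205.CP.hd f g) →
      H205.CP.s2 (H205.CP.Uu W f z - H205.CP.Uv W g z) = 0 := by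
    intro z h1 h2
    rw [← eY]
    exact YG_zero h1 h2
  have I1 : Integrable fun z => χ z ^ 2 * (Ef z
      * H205.CP.s2 (H205.CP.Uu W f z - H205.CP.Uv W g z)) :=
    int_of _ ((cχ.pow 2).mul (cE.mul cY)) tb tc fun z h1 h2 => by
      show χ z ^ 2 * (Ef z * H205.CP.s2 (H205.CP.Uu W f z - H205.CP.Uv W g z)) = 0
      rw [zY z h1 h2]; ring
  have I2 : Integrable fun z => χ z ^ 2 * (Ef z ^ 2 * H205.CP.hb f g z ^ 2) :=
    int_of _ ((cχ.pow 2).mul ((cE.pow 2).mul (tb.1.continuous.pow 2))) tb tc fun z h1 _ => by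
      show χ z ^ 2 * (Ef z ^ 2 * H205.CP.hb f g z ^ 2) = 0
      rw [image_eq_zero_of_notMem_tsupport h1]; ring
  have I3 : Integrable fun z => χ z ^ 2 * (Ef z * Kf z * H205.CP.hd f g z ^ 2) :=
    int_of _ ((cχ.pow 2).mul ((cE.mul cK).mul (tc.1.continuous.pow 2))) tb tc fun z _ h2 => by
      show χ z ^ 2 * (Ef z * Kf z * H205.CP.hd f g z ^ 2) = 0
      rw [image_eq_zero_of_notMem_tsupport h2]; ring
  have hdχ : Continuous (fderiv ℝ χ) := cχ'.continuous_fderiv (by simp)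
  have cgp : Continuous (H205.CP.gp χ) := by
    unfold H205.CP.gp H205.CP.dp dx dy
    exact continuous_finsetSum _ fun i _ => ((hdχ.clm_apply continuous_const).add
      (hdχ.clm_apply continuous_const)).pow 2
  have cgq : Continuous (H205.CP.gq χ) := by
    unfold H205.CP.gq H205.CP.dq dx dy
    exact continuous_finsetSum _ fun i _ => (((hdχ.clm_apply continuous_const).sub
      (hdχ.clm_apply continuous_const)).div_const _).pow 2
  have I4 : Integrable fun z => Ef z * ∑ i, (2 * (fderiv ℝ χ z (va i) * H205.CP.hb f g z)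
      + fderiv ℝ χ z (vb i) * H205.CP.hd f g z) ^ 2 := by
    refine int_of _ (cE.mul (continuous_finsetSum _ fun i _ =>
      ((continuous_const.mul ((hdχ.clm_apply continuous_const).mul tb.1.continuous)).add
        ((hdχ.clm_apply continuous_const).mul tc.1.continuous)).pow 2)) tb tc fun z h1 h2 => ?_
    show Ef z * ∑ i, (2 * (fderiv ℝ χ z (va i) * H205.CP.hb f g z)
      + fderiv ℝ χ z (vb i) * H205.CP.hd f g z) ^ 2 = 0
    rw [image_eq_zero_of_notMem_tsupport h1, image_eq_zero_of_notMem_tsupport h2]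
    simp
  have I5 : Integrable fun z => Ef z * ((H205.CP.gq χ z + H205.CP.gp χ z)
      * H205.CP.hb f g z ^ 2 + H205.CP.gp χ z * H205.CP.hd f g z ^ 2) := by
    refine int_of _ (cE.mul (((cgq.add cgp).mul (tb.1.continuous.pow 2)).add
      (cgp.mul (tc.1.continuous.pow 2)))) tb tc fun z h1 h2 => ?_
    show Ef z * ((H205.CP.gq χ z + H205.CP.gp χ z) * H205.CP.hb f g z ^ 2
      + H205.CP.gp χ z * H205.CP.hd f g z ^ 2) = 0
    rw [image_eq_zero_of_notMem_tsupport h1, image_eq_zero_of_notMem_tsupport h2]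
    simp
  have k4 : ∫ z, Ef z * ∑ i, (2 * (fderiv ℝ χ z (va i) * H205.CP.hb f g z)
      + fderiv ℝ χ z (vb i) * H205.CP.hd f g z) ^ 2
      ≤ 8 * ∫ z, Ef z * ((H205.CP.gq χ z + H205.CP.gp χ z) * H205.CP.hb f g z ^ 2
      + H205.CP.gp χ z * H205.CP.hd f g z ^ 2) := by
    rw [← integral_const_mul]
    refine integral_mono I4 (I5.const_mul _) fun z => ?_
    have h := mul_le_mul_of_nonneg_left
      (cut_le' (χ := χ) (H205.CP.hb f g z) (H205.CP.hd f g z) z) (E0 z).le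
    show Ef z * _ ≤ 8 * (Ef z * _)
    linarith
  have k3 : 0 ≤ ∫ z, χ z ^ 2 * (Ef z * Kf z * H205.CP.hd f g z ^ 2) := by
    apply integral_nonneg
    intro z
    show 0 ≤ χ z ^ 2 * (Ef z * Kf z * H205.CP.hd f g z ^ 2)
    by_cases hz : z ∈ tsupport χ
    · have h1 := ra.K0 z (hχO hz)
      have h2 := E0 z
      positivity
    · rw [image_eq_zero_of_notMem_tsupport hz]; simp
  have k5 : 0 ≤ ∫ z, Ef z * ((H205.CP.gq χ z + H205.CP.gp χ z) * H205.CP.hb f g z ^ 2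
      + H205.CP.gp χ z * H205.CP.hd f g z ^ 2) := by
    apply integral_nonneg
    intro z
    have h2 : 0 ≤ H205.CP.gp χ z := Finset.sum_nonneg fun _ _ => sq_nonneg _
    have h3 : 0 ≤ H205.CP.gq χ z := Finset.sum_nonneg fun _ _ => sq_nonneg _
    have h4 := E0 z
    show 0 ≤ Ef z * ((H205.CP.gq χ z + H205.CP.gp χ z) * H205.CP.hb f g z ^ 2
      + H205.CP.gp χ z * H205.CP.hd f g z ^ 2)
    positivity
  have e1 : ∫ z, χ z ^ 2 * (Ef z * H205.CP.s2 (H205.CP.Uu W f z - H205.CP.Uv W g z)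
        + Ef z ^ 2 * H205.CP.hb f g z ^ 2)
      = (∫ z, χ z ^ 2 * (Ef z * H205.CP.s2 (H205.CP.Uu W f z - H205.CP.Uv W g z)))
        + ∫ z, χ z ^ 2 * (Ef z ^ 2 * H205.CP.hb f g z ^ 2) := by
    rw [← integral_add I1 I2]
    congr 1; funext z; ring
  have e2 : ∫ z, χ z ^ 2 * (8 * (1 - 1 / (128 * (n : ℝ))) * Ef z
        * H205.CP.s2 (H205.CP.Uu W f z - H205.CP.Uv W g z)
        - 32 * n * (1 + 1 / (128 * (n : ℝ))) * Ef z ^ 2 * H205.CP.hb f g z ^ 2
        + (Ca + Cb) * Ef z * Kf z * H205.CP.hd f g z ^ 2)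
      = 8 * (1 - 1 / (128 * (n : ℝ))) * (∫ z, χ z ^ 2 * (Ef z
        * H205.CP.s2 (H205.CP.Uu W f z - H205.CP.Uv W g z)))
        - 32 * n * (1 + 1 / (128 * (n : ℝ)))
          * (∫ z, χ z ^ 2 * (Ef z ^ 2 * H205.CP.hb f g z ^ 2))
        + (Ca + Cb) * ∫ z, χ z ^ 2 * (Ef z * Kf z * H205.CP.hd f g z ^ 2) := by
    have I12 : Integrable fun z => 8 * (1 - 1 / (128 * (n : ℝ))) * (χ z ^ 2 * (Ef z
        * H205.CP.s2 (H205.CP.Uu W f z - H205.CP.Uv W g z)))
        - 32 * n * (1 + 1 / (128 * (n : ℝ))) * (χ z ^ 2 * (Ef z ^ 2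
          * H205.CP.hb f g z ^ 2)) := (I1.const_mul _).sub (I2.const_mul _)
    rw [← integral_const_mul, ← integral_const_mul, ← integral_const_mul,
      ← integral_sub (I1.const_mul _) (I2.const_mul _), ← integral_add I12 (I3.const_mul _)]
    congr 1; funext z; ring
  rw [e1, e2]
  have k6 := mul_nonneg Ca0.le k5
  have k7 := mul_nonneg Cb0.le k3
  have k8 := mul_le_mul_of_nonneg_left k4 (by positivity : 0 ≤ 8 * (1 + 128 * (n : ℝ)))
  have k9 : 8 * (1 + 128 * (n : ℝ)) * (8 * ∫ z, Ef z * ((H205.CP.gq χ z + H205.CP.gp χ z)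
      * H205.CP.hb f g z ^ 2 + H205.CP.gp χ z * H205.CP.hd f g z ^ 2))
      = Cb * ∫ z, Ef z * ((H205.CP.gq χ z + H205.CP.gp χ z)
      * H205.CP.hb f g z ^ 2 + H205.CP.gp χ z * H205.CP.hd f g z ^ 2) := by rw [hCb]; ring
  rw [k9] at k8
  linarith

end Vale.Agent.P088.R2.H960.C
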