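import Vale.Agent.P088.R2.H960.C.Part

/-!
# The commutator form in cells

`Yi α β A B b c i = 2 (-∂_{α i} b + A i b) + (-∂_{β i} c + B i c)`. Localisation (`ims_pt`),
freezing (`frz`), and the sum over cells (`cells`), for an arbitrary finite family of cutoffs.
-/

open Set MeasureTheory
open scoped ContDiff

noncomputable section

namespace Vale.Agent.P088.R2.H960.C

variable {E : Type*} [NormedAddCommGroup E] [NormedSpace ℝ E] {ι : Type*} [Fintype ι]

set_option linter.unusedSectionVars false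

/-- The components of the form. -/
def Yi (α β : ι → E) (A B : ι → E → ℝ) (b c : E → ℝ) (i : ι) (z : E) : ℝ :=
  2 * (-fderiv ℝ b z (α i) + A i z * b z) + (-fderiv ℝ c z (β i) + B i z * c z)

/-- The square of the form. -/
def YY (α β : ι → E) (A B : ι → E → ℝ) (b c : E → ℝ) (z : E) : ℝ :=
  ∑ i, Yi α β A B b c i z ^ 2

variable {α β : ι → E} {A B : ι → E → ℝ} {b c : E → ℝ}

theorem Yi_mul {χ : E → ℝ} {z : E} (hχ : DifferentiableAt ℝ χ z) (hb : DifferentiableAt ℝ b z)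
    (hc : DifferentiableAt ℝ c z) (i : ι) :
    Yi α β A B (fun z => χ z * b z) (fun z => χ z * c z) i z
      = χ z * Yi α β A B b c i z
        - (2 * (fderiv ℝ χ z (α i) * b z) + fderiv ℝ χ z (β i) * c z) := by
  unfold Yi
  rw [fderiv_fun_mul hχ hb, fderiv_fun_mul hχ hc]
  simp only [_root_.add_apply, _root_.smul_apply, smul_eq_mul]
  ring

theorem ims_pt {κ : Type*} (F : Finset κ) {χ : κ → E → ℝ} {z : E}
    (hχ : ∀ k ∈ F, DifferentiableAt ℝ (χ k) z) (hb : DifferentiableAt ℝ b z)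
    (hc : DifferentiableAt ℝ c z) (h1 : ∑ k ∈ F, χ k z ^ 2 = 1)
    (h2 : ∀ v, ∑ k ∈ F, χ k z * fderiv ℝ (χ k) z v = 0) :
    ∑ k ∈ F, YY α β A B (fun z => χ k z * b z) (fun z => χ k z * c z) z
      = YY α β A B b c z
        + ∑ k ∈ F, ∑ i, (2 * (fderiv ℝ (χ k) z (α i) * b z) + fderiv ℝ (χ k) z (β i) * c z) ^ 2 := by
  unfold YY
  rw [Finset.sum_comm, Finset.sum_comm (s := F), ← Finset.sum_add_distrib]
  apply Finset.sum_congr rfl
  intro i _
  have e : ∀ k ∈ F, Yi α β A B (fun z => χ k z * b z) (fun z => χ k z * c z) i z ^ 2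
      = χ k z ^ 2 * Yi α β A B b c i z ^ 2
        - (2 * Yi α β A B b c i z * b z * 2) * (χ k z * fderiv ℝ (χ k) z (α i))
        - (2 * Yi α β A B b c i z * c z) * (χ k z * fderiv ℝ (χ k) z (β i))
        + (2 * (fderiv ℝ (χ k) z (α i) * b z) + fderiv ℝ (χ k) z (β i) * c z) ^ 2 := by
    intro k hk
    rw [Yi_mul (hχ k hk) hb hc]
    ring
  rw [Finset.sum_congr rfl e, Finset.sum_add_distrib, Finset.sum_sub_distrib,
    Finset.sum_sub_distrib, ← Finset.sum_mul, ← Finset.mul_sum, ← Finset.mul_sum, h1, h2, h2]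
  ring

/-- Pointwise comparison with the frozen form. -/
theorem frz_pt {A' B' : ι → E → ℝ} {z : E} {δ e₁ e₂ : ℝ} (hδ : 0 < δ) (_ : δ ≤ 1)
    (hA : ∀ i, |A i z - A' i z| ≤ e₁) (hB : ∀ i, |B i z - B' i z| ≤ e₂) :
    (1 - δ) * YY α β A' B' b c z
        - (Fintype.card ι / δ) * (8 * e₁ ^ 2 * b z ^ 2 + 2 * e₂ ^ 2 * c z ^ 2)
      ≤ YY α β A B b c z := by
  unfold YY
  rw [Finset.mul_sum]
  have e : (Fintype.card ι / δ) * (8 * e₁ ^ 2 * b z ^ 2 + 2 * e₂ ^ 2 * c z ^ 2)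
      = ∑ _i : ι, (1 / δ) * (8 * e₁ ^ 2 * b z ^ 2 + 2 * e₂ ^ 2 * c z ^ 2) := by
    rw [Finset.sum_const, Finset.card_univ, nsmul_eq_mul]; ring
  rw [e, ← Finset.sum_sub_distrib]
  apply Finset.sum_le_sum
  intro i _
  set y := Yi α β A B b c i z
  set y' := Yi α β A' B' b c i z
  have hd : y = y' + (2 * ((A i z - A' i z) * b z) + (B i z - B' i z) * c z) := by
    simp only [y, y', Yi]; ring
  set f := 2 * ((A i z - A' i z) * b z) + (B i z - B' i z) * c z with hf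
  have hf2 : f ^ 2 ≤ 8 * e₁ ^ 2 * b z ^ 2 + 2 * e₂ ^ 2 * c z ^ 2 := by
    have h1 : (A i z - A' i z) ^ 2 ≤ e₁ ^ 2 := sq_le_sq' (by linarith [(abs_le.1 (hA i)).1])
      (abs_le.1 (hA i)).2
    have h2 : (B i z - B' i z) ^ 2 ≤ e₂ ^ 2 := sq_le_sq' (by linarith [(abs_le.1 (hB i)).1])
      (abs_le.1 (hB i)).2
    have h3 := mul_le_mul_of_nonneg_right h1 (sq_nonneg (b z))
    have h4 := mul_le_mul_of_nonneg_right h2 (sq_nonneg (c z))
    have h5 := sq_nonneg (2 * ((A i z - A' i z) * b z) - (B i z - B' i z) * c z)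
    rw [hf]
    nlinarith
  have h6 : 0 ≤ (1 / δ) * (δ * y' + f) ^ 2 := by positivity
  have h7 : (1 / δ) * (δ * y' + f) ^ 2 = δ * y' ^ 2 + 2 * y' * f + (1 / δ) * f ^ 2 := by
    field_simp
    ring
  have h8 : (1 / δ) * f ^ 2 ≤ (1 / δ) * (8 * e₁ ^ 2 * b z ^ 2 + 2 * e₂ ^ 2 * c z ^ 2) :=
    mul_le_mul_of_nonneg_left hf2 (by positivity)
  have h9 : 0 ≤ f ^ 2 := sq_nonneg f
  rw [h7] at h6
  rw [hd]
  nlinarith

section Int

variable [MeasurableSpace E] [BorelSpace E] (μ : Measure E) [IsFiniteMeasureOnCompacts μ]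

/-- Test functions. -/
def Ts (f : E → ℝ) : Prop := ContDiff ℝ ∞ f ∧ HasCompactSupport f

theorem Ts.mul_left {χ f : E → ℝ} (hf : Ts f) (hχ : ContDiff ℝ ∞ χ) :
    Ts fun z => χ z * f z := ⟨hχ.mul hf.1, hf.2.mul_left⟩

theorem Ts.df {f : E → ℝ} (hf : Ts f) : Differentiable ℝ f := hf.1.differentiable (by simp)

theorem Ts.cfd {f : E → ℝ} (hf : Ts f) (v : E) : Continuous fun z => fderiv ℝ f z v :=
  (hf.1.continuous_fderiv (by simp)).clm_apply continuous_const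

theorem Yi_cont (hA : ∀ i, Continuous (A i)) (hB : ∀ i, Continuous (B i)) (hb : Ts b) (hc : Ts c)
    (i : ι) : Continuous (Yi α β A B b c i) := by
  unfold Yi
  exact (continuous_const.mul ((hb.cfd _).neg.add ((hA i).mul hb.1.continuous))).add
    ((hc.cfd _).neg.add ((hB i).mul hc.1.continuous))

theorem YY_cont (hA : ∀ i, Continuous (A i)) (hB : ∀ i, Continuous (B i)) (hb : Ts b)
    (hc : Ts c) : Continuous (YY α β A B b c) := by
  unfold YY
  exact continuous_finsetSum _ fun i _ => (Yi_cont hA hB hb hc i).pow 2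

/-- Off the supports the form vanishes. -/
theorem YY_zero {z : E} (hb : z ∉ tsupport b) (hc : z ∉ tsupport c) :
    YY α β A B b c z = 0 := by
  unfold YY
  apply Finset.sum_eq_zero
  intro i _
  have h1 : fderiv ℝ b z = 0 := by
    by_contra h
    exact hb (support_fderiv_subset ℝ h)
  have h2 : fderiv ℝ c z = 0 := by
    by_contra h
    exact hc (support_fderiv_subset ℝ h)
  unfold Yi
  rw [h1, h2, image_eq_zero_of_notMem_tsupport hb, image_eq_zero_of_notMem_tsupport hc]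
  simp

theorem YY_nonneg (z : E) : 0 ≤ YY α β A B b c z := Finset.sum_nonneg fun _ _ => sq_nonneg _

theorem YY_supp (hb : Ts b) (hc : Ts c) : HasCompactSupport (YY α β A B b c) := by
  apply HasCompactSupport.intro (hb.2.isCompact.union hc.2.isCompact)
  intro z hz
  simp only [mem_union, not_or] at hz
  exact YY_zero hz.1 hz.2

theorem int_of {f : E → ℝ} (hf : Continuous f) (hb : Ts b) (hc : Ts c)
    (h : ∀ z, z ∉ tsupport b → z ∉ tsupport c → f z = 0) : Integrable f μ := by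
  apply hf.integrable_of_hasCompactSupport
  apply HasCompactSupport.intro (hb.2.isCompact.union hc.2.isCompact)
  intro z hz
  simp only [mem_union, not_or] at hz
  exact h z hz.1 hz.2

theorem w_int {g : E → ℝ} (hg : Continuous g) (hb : Ts b) :
    Integrable (fun z => g z * b z ^ 2) μ := by
  apply int_of μ (hg.mul (hb.1.continuous.pow 2)) hb hb
  intro z h _
  show g z * b z ^ 2 = 0
  rw [image_eq_zero_of_notMem_tsupport h]; ring

/-- The frozen inequality, as a hypothesis on the frame. -/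
def FZ (α β : ι → E) (lq : ι → E →L[ℝ] ℝ) (g : ℝ) : Prop :=
  ∀ (τ : ℝ), 0 < τ → ∀ w m : ι → ℝ, m ≠ 0 → ∀ b c : E → ℝ, Ts b → Ts c →
    g * τ * ∫ z, b z ^ 2 ∂μ ≤
      ∫ z, YY α β (fun i z => w i + τ * lq i z) (fun i _ => m i) b c z ∂μ

variable {lq : ι → E →L[ℝ] ℝ} {g : ℝ}

/-- One cell. -/
theorem one (fz : FZ μ α β lq g) (hg : 0 ≤ g) {Ef e₁ e₂ : E → ℝ} {δ τ : ℝ} (hδ : 0 < δ)
    (hδ1 : δ ≤ 1) (hτ : 0 < τ) {w m : ι → ℝ} (hm : m ≠ 0) (hb : Ts b) (hc : Ts c)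
    (hEf : Continuous Ef) (he₁ : Continuous e₁) (he₂ : Continuous e₂)
    (hA' : ∀ i, Continuous (A i)) (hB' : ∀ i, Continuous (B i))
    (hE : ∀ z ∈ tsupport b ∪ tsupport c, (1 - δ) * τ ≤ Ef z ∧ (1 - δ) * Ef z ≤ τ ∧ 0 ≤ Ef z)
    (hA : ∀ z ∈ tsupport b ∪ tsupport c, ∀ i, |A i z - (w i + τ * lq i z)| ≤ e₁ z)
    (hB : ∀ z ∈ tsupport b ∪ tsupport c, ∀ i, |B i z - m i| ≤ e₂ z) :
    (1 - δ) ^ 4 * g * ∫ z, Ef z ^ 2 * b z ^ 2 ∂μ
        - (Fintype.card ι / δ) * ∫ z, Ef z * (8 * e₁ z ^ 2 * b z ^ 2 + 2 * e₂ z ^ 2 * c z ^ 2) ∂μ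
      ≤ ∫ z, Ef z * YY α β A B b c z ∂μ := by
  set A' : ι → E → ℝ := fun i z => w i + τ * lq i z with hA'd
  set B' : ι → E → ℝ := fun i _ => m i with hB'd
  have cA' : ∀ i, Continuous (A' i) := fun i =>
    continuous_const.add (continuous_const.mul (lq i).continuous)
  have cB' : ∀ i, Continuous (B' i) := fun i => continuous_const
  have hδ0 : 0 ≤ 1 - δ := by linarith
  set er : E → ℝ := fun z => 8 * e₁ z ^ 2 * b z ^ 2 + 2 * e₂ z ^ 2 * c z ^ 2 with her
  have cer : Continuous er := ((continuous_const.mul (he₁.pow 2)).mul (hb.1.continuous.pow 2)).add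
    ((continuous_const.mul (he₂.pow 2)).mul (hc.1.continuous.pow 2))
  have zer : ∀ z, z ∉ tsupport b → z ∉ tsupport c → er z = 0 := by
    intro z h1 h2
    simp only [her, image_eq_zero_of_notMem_tsupport h1, image_eq_zero_of_notMem_tsupport h2]
    ring
  -- pointwise
  have hpt : ∀ z, (1 - δ) ^ 2 * τ * YY α β A' B' b c z - (Fintype.card ι / δ) * (Ef z * er z)
      ≤ Ef z * YY α β A B b c z := by
    intro z
    by_cases hz : z ∈ tsupport b ∪ tsupport c
    · obtain ⟨h1, _, h3⟩ := hE z hz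
      have h4 := frz_pt (α := α) (β := β) (b := b) (c := c) (A := A) (B := B) (A' := A')
        (B' := B') hδ hδ1 (hA z hz) (hB z hz)
      have h5 := mul_le_mul_of_nonneg_left h4 h3
      have h6 : (1 - δ) * ((1 - δ) * τ * YY α β A' B' b c z)
          ≤ (1 - δ) * (Ef z * YY α β A' B' b c z) :=
        mul_le_mul_of_nonneg_left (mul_le_mul_of_nonneg_right h1 (YY_nonneg z)) hδ0
      have e : Ef z * ((1 - δ) * YY α β A' B' b c z - (Fintype.card ι / δ) * er z)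
          = (1 - δ) * (Ef z * YY α β A' B' b c z) - (Fintype.card ι / δ) * (Ef z * er z) := by ring
      have h5' : (1 - δ) * (Ef z * YY α β A' B' b c z) - (Fintype.card ι / δ) * (Ef z * er z)
          ≤ Ef z * YY α β A B b c z := by
        rw [← e]; exact h5
      linarith
    · simp only [mem_union, not_or] at hz
      rw [YY_zero hz.1 hz.2, YY_zero hz.1 hz.2, zer z hz.1 hz.2]
      simp
  have I0 : Integrable (fun z => YY α β A' B' b c z) μ :=
    int_of μ (YY_cont cA' cB' hb hc) hb hc fun z h1 h2 => YY_zero h1 h2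
  have I1 : Integrable (fun z => Ef z * er z) μ :=
    int_of μ (hEf.mul cer) hb hc fun z h1 h2 => by rw [zer z h1 h2]; ring
  have I2 : Integrable (fun z => Ef z * YY α β A B b c z) μ :=
    int_of μ (hEf.mul (YY_cont hA' hB' hb hc)) hb hc fun z h1 h2 => by rw [YY_zero h1 h2]; ring
  have h1 := integral_mono ((I0.const_mul ((1 - δ) ^ 2 * τ)).sub
    (I1.const_mul (Fintype.card ι / δ))) I2 hpt
  have e1 : ∫ z, ((fun z => (1 - δ) ^ 2 * τ * YY α β A' B' b c z)
      - (fun z => (Fintype.card ι / δ) * (Ef z * er z)) : E → ℝ) z ∂μ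
      = (1 - δ) ^ 2 * τ * ∫ z, YY α β A' B' b c z ∂μ
        - (Fintype.card ι / δ) * ∫ z, Ef z * er z ∂μ := by
    rw [integral_sub' (I0.const_mul _) (I1.const_mul _), integral_const_mul, integral_const_mul]
  rw [e1] at h1
  -- the frozen inequality
  have h2 := fz τ hτ w m hm b c hb hc
  -- comparison of the weights
  have h3 : (1 - δ) ^ 2 * ∫ z, Ef z ^ 2 * b z ^ 2 ∂μ ≤ τ ^ 2 * ∫ z, b z ^ 2 ∂μ := by
    rw [← integral_const_mul, ← integral_const_mul]
    apply integral_mono ((w_int μ (hEf.pow 2) hb).const_mul _)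
    · have := w_int μ (g := fun _ => τ ^ 2) continuous_const hb
      exact this
    · intro z
      by_cases hz : z ∈ tsupport b ∪ tsupport c
      · obtain ⟨_, h2, h3⟩ := hE z hz
        have h4 : ((1 - δ) * Ef z) ^ 2 ≤ τ ^ 2 :=
          pow_le_pow_left₀ (mul_nonneg hδ0 h3) h2 2
        have h5 := mul_le_mul_of_nonneg_right h4 (sq_nonneg (b z))
        show (1 - δ) ^ 2 * (Ef z ^ 2 * b z ^ 2) ≤ τ ^ 2 * b z ^ 2
        linarith
      · simp only [mem_union, not_or] at hz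
        show (1 - δ) ^ 2 * (Ef z ^ 2 * b z ^ 2) ≤ τ ^ 2 * b z ^ 2
        rw [image_eq_zero_of_notMem_tsupport hz.1]
        simp
  have h4 : (1 - δ) ^ 2 * τ * (g * τ * ∫ z, b z ^ 2 ∂μ)
      ≤ (1 - δ) ^ 2 * τ * ∫ z, YY α β A' B' b c z ∂μ :=
    mul_le_mul_of_nonneg_left h2 (by positivity)
  have h5 := mul_le_mul_of_nonneg_left h3 (mul_nonneg (sq_nonneg (1 - δ)) hg)
  have e2 : (1 - δ) ^ 2 * g * ((1 - δ) ^ 2 * ∫ z, Ef z ^ 2 * b z ^ 2 ∂μ)
      = (1 - δ) ^ 4 * g * ∫ z, Ef z ^ 2 * b z ^ 2 ∂μ := by ring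
  have e3 : (1 - δ) ^ 2 * g * (τ ^ 2 * ∫ z, b z ^ 2 ∂μ)
      = (1 - δ) ^ 2 * τ * (g * τ * ∫ z, b z ^ 2 ∂μ) := by ring
  rw [e2, e3] at h5
  linarith

/-- Sum over a finite family of cells. -/
theorem cells (fz : FZ μ α β lq g) (hg : 0 ≤ g) {κ : Type*} (F : Finset κ) {χ : κ → E → ℝ}
    {Ef e₁ e₂ Ga Gb : E → ℝ} {δ : ℝ} (hδ : 0 < δ) (hδ1 : δ ≤ 1) {τ : κ → ℝ}
    {w m : κ → ι → ℝ} (hb : Ts b) (hc : Ts c) (hχ : ∀ k ∈ F, ContDiff ℝ ∞ (χ k))
    (h1 : ∀ z ∈ tsupport b ∪ tsupport c, ∑ k ∈ F, χ k z ^ 2 = 1)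
    (h2 : ∀ z ∈ tsupport b ∪ tsupport c, ∀ v, ∑ k ∈ F, χ k z * fderiv ℝ (χ k) z v = 0)
    (hEf : Continuous Ef) (he₁ : Continuous e₁) (he₂ : Continuous e₂) (hGa : Continuous Ga)
    (hGb : Continuous Gb)
    (hA' : ∀ i, Continuous (A i)) (hB' : ∀ i, Continuous (B i))
    (hE0 : ∀ z ∈ tsupport b ∪ tsupport c, 0 ≤ Ef z)
    (hcell : ∀ k ∈ F, ((tsupport b ∪ tsupport c) ∩ tsupport (χ k)).Nonempty →
      0 < τ k ∧ m k ≠ 0 ∧ ∀ z ∈ (tsupport b ∪ tsupport c) ∩ tsupport (χ k),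
        ((1 - δ) * τ k ≤ Ef z ∧ (1 - δ) * Ef z ≤ τ k) ∧
        (∀ i, |A i z - (w k i + τ k * lq i z)| ≤ e₁ z) ∧ ∀ i, |B i z - m k i| ≤ e₂ z)
    (ha : ∀ z ∈ tsupport b ∪ tsupport c, ∑ k ∈ F, ∑ i, (fderiv ℝ (χ k) z (α i)) ^ 2 ≤ Ga z)
    (hb' : ∀ z ∈ tsupport b ∪ tsupport c, ∑ k ∈ F, ∑ i, (fderiv ℝ (χ k) z (β i)) ^ 2 ≤ Gb z) :
    (1 - δ) ^ 4 * g * ∫ z, Ef z ^ 2 * b z ^ 2 ∂μ
        - (Fintype.card ι / δ) * ∫ z, Ef z * (8 * e₁ z ^ 2 * b z ^ 2 + 2 * e₂ z ^ 2 * c z ^ 2) ∂μ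
        - ∫ z, Ef z * (8 * Ga z * b z ^ 2 + 2 * Gb z * c z ^ 2) ∂μ
      ≤ ∫ z, Ef z * YY α β A B b c z ∂μ := by
  classical
  set S := tsupport b ∪ tsupport c with hS
  set er : E → ℝ := fun z => 8 * e₁ z ^ 2 * b z ^ 2 + 2 * e₂ z ^ 2 * c z ^ 2 with her
  have cer : Continuous er := ((continuous_const.mul (he₁.pow 2)).mul (hb.1.continuous.pow 2)).add
    ((continuous_const.mul (he₂.pow 2)).mul (hc.1.continuous.pow 2))
  have hks : ∀ k, ∀ f : E → ℝ, tsupport (fun z => χ k z * f z) ⊆ tsupport f ∩ tsupport (χ k) :=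
    fun k f => subset_inter (tsupport_mul_subset_right) (tsupport_mul_subset_left)
  -- every cell
  have hone : ∀ k ∈ F, (1 - δ) ^ 4 * g * ∫ z, Ef z ^ 2 * (χ k z * b z) ^ 2 ∂μ
        - (Fintype.card ι / δ) * ∫ z, Ef z * (8 * e₁ z ^ 2 * (χ k z * b z) ^ 2
          + 2 * e₂ z ^ 2 * (χ k z * c z) ^ 2) ∂μ
      ≤ ∫ z, Ef z * YY α β A B (fun z => χ k z * b z) (fun z => χ k z * c z) z ∂μ := by
    intro k hk
    have tb := hb.mul_left (hχ k hk)
    have tc := hc.mul_left (hχ k hk)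
    by_cases hne : (S ∩ tsupport (χ k)).Nonempty
    · obtain ⟨p1, p2, p3⟩ := hcell k hk hne
      have hsub : ∀ z ∈ tsupport (fun z => χ k z * b z) ∪ tsupport (fun z => χ k z * c z),
          z ∈ S ∩ tsupport (χ k) := by
        rintro z (hz | hz)
        · exact ⟨Or.inl (hks k b hz).1, (hks k b hz).2⟩
        · exact ⟨Or.inr (hks k c hz).1, (hks k c hz).2⟩
      exact one μ fz hg hδ hδ1 p1 p2 tb tc hEf he₁ he₂ hA' hB'
        (fun z hz => ⟨(p3 z (hsub z hz)).1.1, (p3 z (hsub z hz)).1.2, hE0 z (hsub z hz).1⟩)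
        (fun z hz => (p3 z (hsub z hz)).2.1) (fun z hz => (p3 z (hsub z hz)).2.2)
    · have hz0 : ∀ z, χ k z * b z = 0 := by
        intro z
        by_contra h
        exact hne ⟨z, Or.inl (hks k b (subset_tsupport (fun z => χ k z * b z) h)).1,
          (hks k b (subset_tsupport (fun z => χ k z * b z) h)).2⟩
      have hz1 : ∀ z, χ k z * c z = 0 := by
        intro z
        by_contra h
        exact hne ⟨z, Or.inr (hks k c (subset_tsupport (fun z => χ k z * c z) h)).1,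
          (hks k c (subset_tsupport (fun z => χ k z * c z) h)).2⟩
      have hb0 : (fun z => χ k z * b z) = fun _ => 0 := funext hz0
      have hc0 : (fun z => χ k z * c z) = fun _ => 0 := funext hz1
      simp only [hz0, hz1]
      have : ∀ z, YY α β A B (fun _ : E => (0 : ℝ)) (fun _ : E => (0 : ℝ)) z = 0 := by
        intro z
        unfold YY Yi
        simp
      simp [this]
  -- sum of the pointwise identity
  have hpt : ∀ z, ∑ k ∈ F, Ef z * YY α β A B (fun z => χ k z * b z) (fun z => χ k z * c z) z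
      ≤ Ef z * YY α β A B b c z + Ef z * (8 * Ga z * b z ^ 2 + 2 * Gb z * c z ^ 2) := by
    intro z
    by_cases hz : z ∈ S
    · rw [← Finset.mul_sum, ims_pt F (fun k hk => ((hχ k hk).differentiable (by simp)) z)
        (hb.df z) (hc.df z) (h1 z hz) (h2 z hz), mul_add]
      apply add_le_add le_rfl
      apply mul_le_mul_of_nonneg_left _ (hE0 z hz)
      have h3 : ∀ k ∈ F, ∑ i, (2 * (fderiv ℝ (χ k) z (α i) * b z)
          + fderiv ℝ (χ k) z (β i) * c z) ^ 2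
          ≤ 8 * b z ^ 2 * ∑ i, (fderiv ℝ (χ k) z (α i)) ^ 2
            + 2 * c z ^ 2 * ∑ i, (fderiv ℝ (χ k) z (β i)) ^ 2 := by
        intro k _
        rw [Finset.mul_sum, Finset.mul_sum, ← Finset.sum_add_distrib]
        apply Finset.sum_le_sum
        intro i _
        nlinarith [sq_nonneg (2 * (fderiv ℝ (χ k) z (α i) * b z) - fderiv ℝ (χ k) z (β i) * c z)]
      refine (Finset.sum_le_sum h3).trans ?_
      rw [Finset.sum_add_distrib, ← Finset.mul_sum, ← Finset.mul_sum]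
      have h4 := mul_le_mul_of_nonneg_left (ha z hz) (by positivity : 0 ≤ 8 * b z ^ 2)
      have h5 := mul_le_mul_of_nonneg_left (hb' z hz) (by positivity : 0 ≤ 2 * c z ^ 2)
      linarith
    · have hz' := hz
      simp only [hS, mem_union, not_or] at hz
      have e1 : ∀ k ∈ F, Ef z * YY α β A B (fun z => χ k z * b z) (fun z => χ k z * c z) z = 0 := by
        intro k _
        rw [YY_zero, mul_zero]
        · exact fun h => hz.1 (hks k b h).1
        · exact fun h => hz.2 (hks k c h).1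
      rw [Finset.sum_eq_zero e1, YY_zero hz.1 hz.2, image_eq_zero_of_notMem_tsupport hz.1,
        image_eq_zero_of_notMem_tsupport hz.2]
      simp
  have I2 : Integrable (fun z => Ef z * YY α β A B b c z) μ :=
    int_of μ (hEf.mul (YY_cont hA' hB' hb hc)) hb hc fun z h1 h2 => by rw [YY_zero h1 h2]; ring
  have I3 : Integrable (fun z => Ef z * (8 * Ga z * b z ^ 2 + 2 * Gb z * c z ^ 2)) μ := by
    apply int_of μ (hEf.mul (((continuous_const.mul hGa).mul (hb.1.continuous.pow 2)).add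
      ((continuous_const.mul hGb).mul (hc.1.continuous.pow 2)))) hb hc
    intro z h1 h2
    show Ef z * (8 * Ga z * b z ^ 2 + 2 * Gb z * c z ^ 2) = 0
    rw [image_eq_zero_of_notMem_tsupport h1, image_eq_zero_of_notMem_tsupport h2]
    ring
  have Ik : ∀ k ∈ F, Integrable
      (fun z => Ef z * YY α β A B (fun z => χ k z * b z) (fun z => χ k z * c z) z) μ := by
    intro k hk
    have tb := hb.mul_left (hχ k hk)
    have tc := hc.mul_left (hχ k hk)
    exact int_of μ (hEf.mul (YY_cont hA' hB' tb tc)) tb tc fun z h1 h2 => by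
      rw [YY_zero h1 h2]; ring
  have h3 := integral_mono (integrable_finsetSum F Ik) (I2.add I3) hpt
  rw [integral_finsetSum F Ik] at h3
  have e3 : ∫ z, ((fun z => Ef z * YY α β A B b c z)
      + (fun z => Ef z * (8 * Ga z * b z ^ 2 + 2 * Gb z * c z ^ 2)) : E → ℝ) z ∂μ
      = ∫ z, Ef z * YY α β A B b c z ∂μ
        + ∫ z, Ef z * (8 * Ga z * b z ^ 2 + 2 * Gb z * c z ^ 2) ∂μ := integral_add' I2 I3
  rw [e3] at h3
  have h4 := (Finset.sum_le_sum hone).trans h3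
  -- sum of the squares of the cutoffs
  have J1 : ∀ k ∈ F, Integrable (fun z => Ef z ^ 2 * (χ k z * b z) ^ 2) μ := fun k hk =>
    w_int μ (hEf.pow 2) (hb.mul_left (hχ k hk))
  have J2 : ∀ k ∈ F, Integrable (fun z => Ef z * (8 * e₁ z ^ 2 * (χ k z * b z) ^ 2
      + 2 * e₂ z ^ 2 * (χ k z * c z) ^ 2)) μ := by
    intro k hk
    have tb := hb.mul_left (hχ k hk)
    have tc := hc.mul_left (hχ k hk)
    apply int_of μ (hEf.mul (((continuous_const.mul (he₁.pow 2)).mul (tb.1.continuous.pow 2)).add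
      ((continuous_const.mul (he₂.pow 2)).mul (tc.1.continuous.pow 2)))) tb tc
    intro z h1 h2
    have h1' : χ k z * b z = 0 :=
      image_eq_zero_of_notMem_tsupport (f := fun z => χ k z * b z) h1
    have h2' : χ k z * c z = 0 :=
      image_eq_zero_of_notMem_tsupport (f := fun z => χ k z * c z) h2
    show Ef z * (8 * e₁ z ^ 2 * (χ k z * b z) ^ 2 + 2 * e₂ z ^ 2 * (χ k z * c z) ^ 2) = 0
    rw [h1', h2']
    ring
  have s1 : ∑ k ∈ F, ∫ z, Ef z ^ 2 * (χ k z * b z) ^ 2 ∂μ = ∫ z, Ef z ^ 2 * b z ^ 2 ∂μ := by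
    rw [← integral_finsetSum F J1]
    congr 1
    funext z
    by_cases hz : z ∈ S
    · have : ∑ k ∈ F, Ef z ^ 2 * (χ k z * b z) ^ 2 = (Ef z ^ 2 * b z ^ 2) * ∑ k ∈ F, χ k z ^ 2 := by
        rw [Finset.mul_sum]
        exact Finset.sum_congr rfl fun k _ => by ring
      rw [this, h1 z hz, mul_one]
    · simp only [hS, mem_union, not_or] at hz
      rw [image_eq_zero_of_notMem_tsupport hz.1]
      simp
  have s2 : ∑ k ∈ F, ∫ z, Ef z * (8 * e₁ z ^ 2 * (χ k z * b z) ^ 2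
      + 2 * e₂ z ^ 2 * (χ k z * c z) ^ 2) ∂μ = ∫ z, Ef z * er z ∂μ := by
    rw [← integral_finsetSum F J2]
    congr 1
    funext z
    by_cases hz : z ∈ S
    · have : ∑ k ∈ F, Ef z * (8 * e₁ z ^ 2 * (χ k z * b z) ^ 2
          + 2 * e₂ z ^ 2 * (χ k z * c z) ^ 2) = (Ef z * er z) * ∑ k ∈ F, χ k z ^ 2 := by
        rw [Finset.mul_sum]
        exact Finset.sum_congr rfl fun k _ => by simp only [her]; ring
      rw [this, h1 z hz, mul_one]
    · simp only [hS, mem_union, not_or] at hz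
      simp only [her, image_eq_zero_of_notMem_tsupport hz.1,
        image_eq_zero_of_notMem_tsupport hz.2]
      simp
  rw [Finset.sum_sub_distrib, ← Finset.mul_sum, ← Finset.mul_sum, s1, s2] at h4
  linarith

end Int

end Vale.Agent.P088.R2.H960.C
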