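import Vale.Agent.P088.R2.H960.C.Slab
import Vale.Agent.P088.R2.H321.W.LemEF

/-!
# The frozen lemma E as the input of the freezing theorem
-/

open Set MeasureTheory
open scoped ContDiff

noncomputable section

namespace Vale.Agent.P088.R2.H960.C

open Vale.Agent.P088.R2.H464.EP

variable {E : Type} [NormedAddCommGroup E] [NormedSpace ℝ E] [FiniteDimensional ℝ E]
  [MeasurableSpace E] [BorelSpace E] (μ : Measure E) [μ.IsAddHaarMeasure]
  {ι : Type} [Fintype ι] [DecidableEq ι] {α β : ι → E} {lq : ι → E →L[ℝ] ℝ}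

/-- Lemma E, frozen, any `m ≠ 0`, constant `8 (n - 1)`. -/
theorem fz_iso (h1 : ∀ i j, lq i (α j) = if i = j then 1 else 0) (h2 : ∀ i j, lq i (β j) = 0) :
    FZ μ α β lq (8 * ((Fintype.card ι : ℝ) - 1)) := by
  intro τ hτ w m hm b c hb hc
  have h := H321.lemE_iso μ (a := α) (b := β) (l := fun i => τ • lq i) (fun i => -w i) (m := m)
    (e := τ) (fun i j => by
      simp only [_root_.smul_apply, h1, smul_eq_mul, mul_ite, mul_one, mul_zero])
    (fun i j => by simp only [_root_.smul_apply, h2, smul_eq_mul, mul_zero]) hm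
    (Ds := fun i => -dv (α i) + ml (H321.aff (τ • lq i) (-w i)))
    (Ks := fun i => -dv (β i) + m i • 1) (fun _ => rfl) (fun _ => rfl) ⟨b, hb.1, hb.2⟩
    ⟨c, hc.1, hc.2⟩
  have e1 : ip μ (⟨b, hb.1, hb.2⟩ : TE E) ⟨b, hb.1, hb.2⟩ = ∫ z, b z ^ 2 ∂μ := by
    rw [ip_apply]
    congr 1
    funext z
    ring
  have e2 : ∀ i, ip μ ((2 : ℝ) • (-dv (α i) + ml (H321.aff (τ • lq i) (-w i)))
        (⟨b, hb.1, hb.2⟩ : TE E) + (-dv (β i) + m i • 1) (⟨c, hc.1, hc.2⟩ : TE E))
      ((2 : ℝ) • (-dv (α i) + ml (H321.aff (τ • lq i) (-w i)))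
        (⟨b, hb.1, hb.2⟩ : TE E) + (-dv (β i) + m i • 1) (⟨c, hc.1, hc.2⟩ : TE E))
      = ∫ z, Yi α β (fun i z => w i + τ * lq i z) (fun i _ => m i) b c i z ^ 2 ∂μ := by
    intro i
    rw [ip_apply]
    congr 1
    funext z
    have : ((2 : ℝ) • (-dv (α i) + ml (H321.aff (τ • lq i) (-w i)))
        (⟨b, hb.1, hb.2⟩ : TE E) + (-dv (β i) + m i • 1) (⟨c, hc.1, hc.2⟩ : TE E)).fn z
        = Yi α β (fun i z => w i + τ * lq i z) (fun i _ => m i) b c i z := by
      have : ((2 : ℝ) • (-dv (α i) + ml (H321.aff (τ • lq i) (-w i)))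
        (⟨b, hb.1, hb.2⟩ : TE E) + (-dv (β i) + m i • 1) (⟨c, hc.1, hc.2⟩ : TE E)).fn z
        = 2 * (-fderiv ℝ b z (α i) + (τ * lq i z - (-w i)) * b z)
          + (-fderiv ℝ c z (β i) + m i * c z) := rfl
      rw [this]
      unfold Yi
      ring
    rw [this]
    ring
  have cA : ∀ i, Continuous ((fun i z => w i + τ * lq i z : ι → E → ℝ) i) := fun i =>
    continuous_const.add (continuous_const.mul (lq i).continuous)
  have cB : ∀ i, Continuous ((fun i _ => m i : ι → E → ℝ) i) := fun i => continuous_const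
  have e3 : ∫ z, YY α β (fun i z => w i + τ * lq i z) (fun i _ => m i) b c z ∂μ
      = ∑ i, ∫ z, Yi α β (fun i z => w i + τ * lq i z) (fun i _ => m i) b c i z ^ 2 ∂μ := by
    unfold YY
    rw [integral_finsetSum]
    intro i _
    apply int_of μ ((Yi_cont cA cB hb hc i).pow 2) hb hc
    intro z h3 h4
    have h5 : YY α β (fun i z => w i + τ * lq i z) (fun i _ => m i) b c z = 0 := YY_zero h3 h4
    unfold YY at h5
    exact (Finset.sum_eq_zero_iff_of_nonneg (fun _ _ => sq_nonneg _)).1 h5 i (Finset.mem_univ i)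
  simp only [e2, e1] at h
  rw [e3]
  exact h

end Vale.Agent.P088.R2.H960.C
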