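import Mathlib

/-!
# Lattice partitions of unity

`th : ℝ → ℝ` smooth, supported in `[-1, 1]`, `∑_k th (t - k) ^ 2 = 1`. For finitely many linear
coordinates `ℓ j` and sizes `ρ j > 0` the products `ch ℓ ρ k z = ∏ j, th (ℓ j z / ρ j - k j)`.
-/

open Set
open scoped ContDiff

noncomputable section

namespace Vale.Agent.P088.R2.H960.C

/-- The profile. -/
def th (t : ℝ) : ℝ :=
  Real.sin (Real.pi / 2 * Real.smoothTransition (1 + t)) *
    Real.cos (Real.pi / 2 * Real.smoothTransition t)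

theorem th_smooth : ContDiff ℝ ∞ th := by
  unfold th
  have h : ContDiff ℝ ∞ Real.smoothTransition := Real.smoothTransition.contDiff
  exact (Real.contDiff_sin.comp (contDiff_const.mul (h.comp (contDiff_const.add contDiff_id)))).mul
    (Real.contDiff_cos.comp (contDiff_const.mul h))

theorem th_lo {t : ℝ} (h : t ≤ -1) : th t = 0 := by
  unfold th
  rw [Real.smoothTransition.zero_of_nonpos (by linarith)]
  simp

theorem th_hi {t : ℝ} (h : 1 ≤ t) : th t = 0 := by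
  unfold th
  rw [Real.smoothTransition.one_of_one_le h]
  simp

theorem th_zero {t : ℝ} (h : 1 ≤ |t|) : th t = 0 := by
  rcases le_abs.1 h with h | h
  · exact th_hi h
  · exact th_lo (by linarith)

theorem th_pair {t : ℝ} (h0 : 0 ≤ t) (h1 : t ≤ 1) : th t ^ 2 + th (t - 1) ^ 2 = 1 := by
  unfold th
  rw [Real.smoothTransition.one_of_one_le (by linarith : (1 : ℝ) ≤ 1 + t),
    Real.smoothTransition.zero_of_nonpos (by linarith : t - 1 ≤ 0)]
  have e : 1 + (t - 1) = t := by ring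
  rw [e]
  simp only [mul_one, mul_zero, Real.cos_zero, Real.sin_pi_div_two, one_mul]
  have := Real.sin_sq_add_cos_sq (Real.pi / 2 * Real.smoothTransition t)
  linarith

theorem th_le (t : ℝ) : |th t| ≤ 1 := by
  unfold th
  rw [abs_mul]
  exact mul_le_one₀ (Real.abs_sin_le_one _) (abs_nonneg _) (Real.abs_cos_le_one _)

theorem th_sum {F : Finset ℤ} {t : ℝ} (h0 : ⌊t⌋ ∈ F) (h1 : ⌊t⌋ + 1 ∈ F) :
    ∑ k ∈ F, th (t - k) ^ 2 = 1 := by
  have hs : ({⌊t⌋, ⌊t⌋ + 1} : Finset ℤ) ⊆ F := by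
    intro x hx
    simp only [Finset.mem_insert, Finset.mem_singleton] at hx
    rcases hx with rfl | rfl
    · exact h0
    · exact h1
  rw [← Finset.sum_subset hs]
  · rw [Finset.sum_pair (by omega)]
    have := th_pair (t := t - ⌊t⌋) (by linarith [Int.floor_le t]) (by linarith [Int.lt_floor_add_one t])
    have e : t - ((⌊t⌋ + 1 : ℤ) : ℝ) = t - ⌊t⌋ - 1 := by push_cast; ring
    rw [e]
    exact this
  · intro k _ hk
    simp only [Finset.mem_insert, Finset.mem_singleton, not_or] at hk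
    have : th (t - k) = 0 := by
      apply th_zero
      rcases lt_or_gt_of_ne hk.1 with h | h
      · have : (k : ℝ) ≤ ⌊t⌋ - 1 := by exact_mod_cast Int.le_sub_one_of_lt h
        rw [le_abs]; left; linarith [Int.floor_le t]
      · have h2 : ⌊t⌋ + 1 < k := lt_of_le_of_ne (by omega) (Ne.symm hk.2)
        have : (⌊t⌋ : ℝ) + 2 ≤ k := by exact_mod_cast (by omega : ⌊t⌋ + 2 ≤ k)
        rw [le_abs]; right; linarith [Int.lt_floor_add_one t]
    rw [this]; ring

theorem dth_cont : Continuous (deriv th) := by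
  exact th_smooth.continuous_deriv (by simp)

theorem dth_zero {t : ℝ} (h : 1 < |t|) : deriv th t = 0 := by
  have : th =ᶠ[nhds t] fun _ => 0 := by
    have ho : IsOpen {s : ℝ | 1 < |s|} := isOpen_lt continuous_const continuous_abs
    filter_upwards [ho.mem_nhds h] with s hs
    exact th_zero (le_of_lt hs)
  rw [this.deriv_eq]
  simp

theorem dth_bd : ∃ M : ℝ, 0 < M ∧ ∀ t, deriv th t ^ 2 ≤ M := by
  obtain ⟨C, hC⟩ := (isCompact_Icc (a := (-1 : ℝ)) (b := 1)).exists_bound_of_continuousOn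
    (f := fun t => deriv th t ^ 2) (by
      exact (dth_cont.pow 2).continuousOn)
  refine ⟨max C 1, by positivity, fun t => ?_⟩
  by_cases h : |t| ≤ 1
  · have := hC t (abs_le.1 h)
    rw [Real.norm_eq_abs] at this
    exact (le_abs_self _).trans (this.trans (le_max_left _ _))
  · rw [dth_zero (not_le.1 h)]
    have : (0 : ℝ) < max C 1 := by positivity
    simp only [ne_eq, OfNat.ofNat_ne_zero, not_false_eq_true, zero_pow]
    exact this.le

/-- The constant: `∑_k th'(t - k)^2 ≤ Mth`. -/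
def Mth : ℝ := 4 * dth_bd.choose

theorem Mth_pos : 0 < Mth := by
  have := dth_bd.choose_spec.1
  unfold Mth; positivity

theorem dth_sum (F : Finset ℤ) (t : ℝ) : ∑ k ∈ F, deriv th (t - k) ^ 2 ≤ Mth := by
  have hM := dth_bd.choose_spec
  set M := dth_bd.choose with hMd
  have h1 : ∑ k ∈ F, deriv th (t - k) ^ 2
      ≤ ∑ k ∈ F ∩ Finset.Icc (⌊t⌋ - 1) (⌊t⌋ + 2), deriv th (t - k) ^ 2 := by
    rw [← Finset.sum_inter_add_sum_sdiff F (Finset.Icc (⌊t⌋ - 1) (⌊t⌋ + 2))]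
    rw [add_le_iff_nonpos_right]
    apply le_of_eq
    apply Finset.sum_eq_zero
    intro k hk
    simp only [Finset.mem_sdiff, Finset.mem_Icc, not_and_or, not_le] at hk
    have : deriv th (t - k) = 0 := by
      apply dth_zero
      rcases hk.2 with h | h
      · have : (k : ℝ) ≤ ⌊t⌋ - 2 := by exact_mod_cast (by omega : k ≤ ⌊t⌋ - 2)
        rw [lt_abs]; left; linarith [Int.floor_le t]
      · have : (⌊t⌋ : ℝ) + 3 ≤ k := by exact_mod_cast (by omega : ⌊t⌋ + 3 ≤ k)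
        rw [lt_abs]; right; linarith [Int.lt_floor_add_one t]
    rw [this]; ring
  refine h1.trans ?_
  calc _ ≤ ∑ k ∈ F ∩ Finset.Icc (⌊t⌋ - 1) (⌊t⌋ + 2), M :=
        Finset.sum_le_sum fun k _ => hM.2 _
    _ = (F ∩ Finset.Icc (⌊t⌋ - 1) (⌊t⌋ + 2)).card * M := by
        rw [Finset.sum_const, nsmul_eq_mul]
    _ ≤ (4 : ℕ) * M := by
        apply mul_le_mul_of_nonneg_right _ hM.1.le
        have h2 := Finset.card_le_card
          (Finset.inter_subset_right (s₁ := F) (s₂ := Finset.Icc (⌊t⌋ - 1) (⌊t⌋ + 2)))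
        rw [Int.card_Icc] at h2
        have : (⌊t⌋ + 2 + 1 - (⌊t⌋ - 1)).toNat = 4 := by
          have : ⌊t⌋ + 2 + 1 - (⌊t⌋ - 1) = 4 := by ring
          rw [this]; rfl
        rw [this] at h2
        exact_mod_cast h2
    _ = Mth := by simp [Mth, hMd]

section Tensor

set_option linter.unusedSectionVars false

variable {E : Type*} [NormedAddCommGroup E] [NormedSpace ℝ E] {J : Type*} [Fintype J]
  [DecidableEq J]

/-- The product cutoffs. -/
def ch (ℓ : J → E →L[ℝ] ℝ) (ρ : J → ℝ) (k : J → ℤ) (z : E) : ℝ :=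
  ∏ j, th (ℓ j z / ρ j - k j)

/-- The box of indices. -/
def bx (J : Type*) [Fintype J] [DecidableEq J] (L : ℕ) : Finset (J → ℤ) :=
  Fintype.piFinset fun _ => Finset.Icc (-(L : ℤ)) L

variable {ℓ : J → E →L[ℝ] ℝ} {ρ : J → ℝ}

theorem ch_fac_smooth (ℓ : J → E →L[ℝ] ℝ) (ρ : J → ℝ) (k : J → ℤ) (j : J) :
    ContDiff ℝ ∞ fun z => th (ℓ j z / ρ j - k j) :=
  th_smooth.comp (((ℓ j).contDiff.div_const _).sub contDiff_const)

theorem ch_smooth (ℓ : J → E →L[ℝ] ℝ) (ρ : J → ℝ) (k : J → ℤ) : ContDiff ℝ ∞ (ch ℓ ρ k) := by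
  unfold ch
  exact contDiff_prod fun j _ => ch_fac_smooth ℓ ρ k j

theorem ch_supp (hρ : ∀ j, 0 < ρ j) {k : J → ℤ} {z : E} (hz : z ∈ tsupport (ch ℓ ρ k)) (j : J) :
    |ℓ j z - ρ j * k j| ≤ ρ j := by
  have hc : IsClosed {z : E | |ℓ j z - ρ j * k j| ≤ ρ j} :=
    isClosed_le (((ℓ j).continuous.sub continuous_const).abs) continuous_const
  refine (closure_minimal ?_ hc) hz
  intro w hw
  simp only [Function.mem_support] at hw
  show |ℓ j w - ρ j * k j| ≤ ρ j
  by_contra h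
  push Not at h
  apply hw
  unfold ch
  apply Finset.prod_eq_zero (Finset.mem_univ j)
  apply th_zero
  have hp := hρ j
  have e : ℓ j w / ρ j - k j = (ℓ j w - ρ j * k j) / ρ j := by
    field_simp
  rw [e, abs_div, abs_of_pos hp, le_div_iff₀ hp]
  linarith

theorem fl_mem {t : ℝ} {L : ℕ} (h : |t| < L) :
    ⌊t⌋ ∈ Finset.Icc (-(L : ℤ)) L ∧ ⌊t⌋ + 1 ∈ Finset.Icc (-(L : ℤ)) L := by
  rw [abs_lt] at h
  have h1 : -(L : ℤ) ≤ ⌊t⌋ := by
    rw [Int.le_floor]; push_cast; linarith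
  have h2 : ⌊t⌋ < (L : ℤ) := by
    rw [Int.floor_lt]; push_cast; linarith
  simp only [Finset.mem_Icc]
  omega

/-- The region where the box of size `L` covers. -/
def cov (ℓ : J → E →L[ℝ] ℝ) (ρ : J → ℝ) (L : ℕ) : Set E := {z | ∀ j, |ℓ j z / ρ j| < L}

theorem cov_open (ℓ : J → E →L[ℝ] ℝ) (ρ : J → ℝ) (L : ℕ) : IsOpen (cov ℓ ρ L) := by
  have : cov ℓ ρ L = ⋂ j, {z | |ℓ j z / ρ j| < L} := by ext z; simp [cov]
  rw [this]
  exact isOpen_iInter_of_finite fun j =>
    isOpen_lt ((((ℓ j).continuous.div_const _)).abs) continuous_const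

theorem ch_sum {L : ℕ} {z : E} (hz : z ∈ cov ℓ ρ L) : ∑ k ∈ bx J L, ch ℓ ρ k z ^ 2 = 1 := by
  unfold bx ch
  have := Finset.prod_univ_sum (fun _ : J => Finset.Icc (-(L : ℤ)) L)
    (fun (j : J) (m : ℤ) => th (ℓ j z / ρ j - m) ^ 2)
  simp_rw [← Finset.prod_pow]
  rw [← this]
  apply Finset.prod_eq_one
  intro j _
  exact th_sum (fl_mem (hz j)).1 (fl_mem (hz j)).2

theorem ch_dsum {L : ℕ} {z : E} (hz : z ∈ cov ℓ ρ L) (v : E) :
    ∑ k ∈ bx J L, ch ℓ ρ k z * fderiv ℝ (ch ℓ ρ k) z v = 0 := by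
  have h1 : (fun w => ∑ k ∈ bx J L, ch ℓ ρ k w ^ 2) =ᶠ[nhds z] fun _ => (1 : ℝ) := by
    filter_upwards [(cov_open ℓ ρ L).mem_nhds hz] with w hw using ch_sum hw
  have h2 := h1.fderiv_eq (𝕜 := ℝ)
  have hd : ∀ k, DifferentiableAt ℝ (ch ℓ ρ k) z := fun k =>
    (ch_smooth ℓ ρ k).contDiffAt.differentiableAt (by simp)
  have h3 : fderiv ℝ (fun w => ∑ k ∈ bx J L, ch ℓ ρ k w ^ 2) z v
      = ∑ k ∈ bx J L, 2 * (ch ℓ ρ k z * fderiv ℝ (ch ℓ ρ k) z v) := by
    have hd2 : ∀ k ∈ bx J L, DifferentiableAt ℝ (fun w => ch ℓ ρ k w ^ 2) z :=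
      fun k _ => (hd k).pow 2
    rw [fderiv_fun_sum hd2]
    rw [_root_.sum_apply]
    apply Finset.sum_congr rfl
    intro k _
    rw [fderiv_fun_pow 2 (hd k)]
    simp
    ring
  rw [h2] at h3
  simp only [fderiv_fun_const, Pi.zero_apply, _root_.zero_apply] at h3
  rw [← Finset.mul_sum] at h3
  linarith

theorem ch_dv (k : J → ℤ) (z v : E) : fderiv ℝ (ch ℓ ρ k) z v
    = ∑ i, (∏ j ∈ Finset.univ.erase i, th (ℓ j z / ρ j - k j)) *
        (deriv th (ℓ i z / ρ i - k i) * (ℓ i v / ρ i)) := by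
  have hd : ∀ i, HasFDerivAt (fun z => th (ℓ i z / ρ i - k i))
      ((deriv th (ℓ i z / ρ i - k i)) • ((ρ i)⁻¹ • ℓ i)) z := by
    intro i
    have h1 : HasFDerivAt (fun z => ℓ i z / ρ i - k i) ((ρ i)⁻¹ • ℓ i) z := by
      have := ((ℓ i).hasFDerivAt (x := z)).const_smul (ρ i)⁻¹
      have h2 := this.sub_const (k i : ℝ)
      refine h2.congr_of_eventuallyEq (Filter.Eventually.of_forall fun w => ?_)
      simp only [Pi.smul_apply, smul_eq_mul]
      ring
    have h3 : HasDerivAt th (deriv th (ℓ i z / ρ i - k i)) (ℓ i z / ρ i - k i) :=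
      (th_smooth.contDiffAt.differentiableAt (by simp)).hasDerivAt
    exact h3.comp_hasFDerivAt z h1
  have h := HasFDerivAt.finsetProd (u := Finset.univ) (fun i _ => hd i) (x := z)
  have e : (fun z => ∏ i, th (ℓ i z / ρ i - k i)) = ch ℓ ρ k := rfl
  have h2 := h.fderiv
  rw [e] at h2
  rw [h2]
  simp only [_root_.sum_apply, _root_.smul_apply, smul_eq_mul]
  apply Finset.sum_congr rfl
  intro i _
  ring

theorem ch_grad {L : ℕ} {z : E} (hz : z ∈ cov ℓ ρ L) (v : E) :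
    ∑ k ∈ bx J L, (fderiv ℝ (ch ℓ ρ k) z v) ^ 2
      ≤ Fintype.card J * Mth * ∑ j, (ℓ j v / ρ j) ^ 2 := by
  have h1 : ∀ k : J → ℤ, (fderiv ℝ (ch ℓ ρ k) z v) ^ 2 ≤ Fintype.card J *
      ∑ i, (ℓ i v / ρ i) ^ 2 * ∏ j, (if j = i then deriv th (ℓ j z / ρ j - k j) ^ 2
        else th (ℓ j z / ρ j - k j) ^ 2) := by
    intro k
    rw [ch_dv]
    refine (sq_sum_le_card_mul_sum_sq).trans ?_
    rw [Finset.card_univ]
    apply mul_le_mul_of_nonneg_left _ (Nat.cast_nonneg _)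
    apply le_of_eq
    apply Finset.sum_congr rfl
    intro i _
    rw [← Finset.mul_prod_erase Finset.univ _ (Finset.mem_univ i)]
    rw [if_pos rfl]
    have : ∏ j ∈ Finset.univ.erase i, (if j = i then deriv th (ℓ j z / ρ j - k j) ^ 2
        else th (ℓ j z / ρ j - k j) ^ 2) = (∏ j ∈ Finset.univ.erase i, th (ℓ j z / ρ j - k j)) ^ 2 := by
      rw [← Finset.prod_pow]
      apply Finset.prod_congr rfl
      intro j hj
      rw [if_neg (Finset.ne_of_mem_erase hj)]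
    rw [this]
    ring
  calc _ ≤ ∑ k ∈ bx J L, (Fintype.card J : ℝ) *
      ∑ i, (ℓ i v / ρ i) ^ 2 * ∏ j, (if j = i then deriv th (ℓ j z / ρ j - k j) ^ 2
        else th (ℓ j z / ρ j - k j) ^ 2) := Finset.sum_le_sum fun k _ => h1 k
    _ = Fintype.card J * ∑ i, (ℓ i v / ρ i) ^ 2 * ∑ k ∈ bx J L,
        ∏ j, (if j = i then deriv th (ℓ j z / ρ j - k j) ^ 2
        else th (ℓ j z / ρ j - k j) ^ 2) := by
        rw [← Finset.mul_sum, Finset.sum_comm]
        simp_rw [← Finset.mul_sum]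
    _ ≤ Fintype.card J * ∑ i, (ℓ i v / ρ i) ^ 2 * Mth := by
        apply mul_le_mul_of_nonneg_left _ (Nat.cast_nonneg _)
        apply Finset.sum_le_sum
        intro i _
        apply mul_le_mul_of_nonneg_left _ (sq_nonneg _)
        have := Finset.prod_univ_sum (fun _ : J => Finset.Icc (-(L : ℤ)) L)
          (fun (j : J) (m : ℤ) => if j = i then deriv th (ℓ j z / ρ j - m) ^ 2
            else th (ℓ j z / ρ j - m) ^ 2)
        unfold bx
        rw [← this, ← Finset.mul_prod_erase Finset.univ _ (Finset.mem_univ i)]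
        have h2 : ∏ j ∈ Finset.univ.erase i, ∑ m ∈ Finset.Icc (-(L : ℤ)) L,
            (if j = i then deriv th (ℓ j z / ρ j - m) ^ 2 else th (ℓ j z / ρ j - m) ^ 2) = 1 := by
          apply Finset.prod_eq_one
          intro j hj
          simp_rw [if_neg (Finset.ne_of_mem_erase hj)]
          exact th_sum (fl_mem (hz j)).1 (fl_mem (hz j)).2
        rw [h2, mul_one]
        simp only [if_true]
        exact dth_sum _ _
    _ = _ := by rw [← Finset.sum_mul]; ring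

/-- A compact set is covered by a box. -/
theorem cov_cpt (ℓ : J → E →L[ℝ] ℝ) (ρ : J → ℝ) {K : Set E} (hK : IsCompact K) :
    ∃ L : ℕ, K ⊆ cov ℓ ρ L := by
  have h : ∀ j, ∃ C : ℝ, ∀ z ∈ K, |ℓ j z / ρ j| ≤ C := by
    intro j
    obtain ⟨C, hC⟩ := hK.exists_bound_of_continuousOn
      (f := fun z => ℓ j z / ρ j) ((ℓ j).continuous.div_const _).continuousOn
    exact ⟨C, fun z hz => by
      have := hC z hz
      rwa [Real.norm_eq_abs] at this⟩
  choose C hC using h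
  obtain ⟨L, hL⟩ := exists_nat_gt (∑ j, |C j|)
  refine ⟨L, fun z hz j => ?_⟩
  refine (hC j z hz).trans_lt (lt_of_le_of_lt ?_ hL)
  exact (le_abs_self _).trans (Finset.single_le_sum (f := fun j => |C j|)
    (fun i _ => abs_nonneg _) (Finset.mem_univ j))

end Tensor

end Vale.Agent.P088.R2.H960.C
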