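import Vale.Agent.P088.R2.H960.C.RegI

/-!
# Region I of zone C, flat, with separate slopes

`W_q = E sd(r²) q + a e_n`, `W_p = (bb + 2 E sg(r²)) e_n`: `a`, `bb` arbitrary functions which vary
little in the cells.
-/

open Set MeasureTheory
open scoped ContDiff

noncomputable section

namespace Vale.Agent.P088.R2.H960.C

variable {E : Type*} [NormedAddCommGroup E] [NormedSpace ℝ E] {ι : Type*} [Fintype ι]
  [DecidableEq ι] [MeasurableSpace E] [BorelSpace E] (μ : Measure E)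
  [IsFiniteMeasureOnCompacts μ]
  {α β : ι → E} {lq lp : ι → E →L[ℝ] ℝ} {nn : ι}

set_option linter.unusedSectionVars false

/-- `W_q`. -/
def Aw2 (lq lp : ι → E →L[ℝ] ℝ) (nn : ι) (sd : ℝ → ℝ) (a : E → ℝ) (i : ι) (z : E) : ℝ :=
  Aw lq lp nn sd i z + if i = nn then a z else 0

/-- `W_p`. -/
def Bw2 (lq lp : ι → E →L[ℝ] ℝ) (nn : ι) (bb : E → ℝ) (sg : ℝ → ℝ) (i : ι) (z : E) : ℝ :=
  Bw lq lp nn (fun _ => 0) sg i z + if i = nn then bb z else 0

/-- Two points of one cell. -/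
def Near (lq lp : ι → E →L[ℝ] ℝ) (nn : ι) (K : ℝ → ℝ) (A₀ : ℝ) (z z' : E) : Prop :=
  K (uu lp nn z) * (uu lp nn z - uu lp nn z') ^ 2 ≤ 16 ∧
    ∀ j, Ee lp nn z / A₀ * (lq j z - lq j z') ^ 2 ≤ 4

/-- The lower bound of `∫ E |Y|²` in region I. -/
theorem low2 (fr : Fr α β lq lp) (hn : 3 ≤ Fintype.card ι)
    (fz : FZ μ α β lq (8 * ((Fintype.card ι : ℝ) - 1)))
    {sd sg K : ℝ → ℝ} {a bb : E → ℝ} {Cs Cb c₀ c A₀ k₁ : ℝ} (hCs : 0 ≤ Cs)
    (hc₀ : 0 < c₀)
    (hc₀1 : c₀ ≤ 1) (hc : 0 ≤ c) (hA₀ : 0 < A₀)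
    (hk : 128 * (1 + Cs) ^ 2 * c + 288 * (Fintype.card ι : ℝ) ^ 2 * Cs ^ 2 * c₀ ^ 4 * A₀ ≤ k₁)
    (csd : Continuous sd) (csg : Continuous sg) (ca : Continuous a) (cb : Continuous bb)
    (cK : Continuous K)
    (d1 : ∀ s, 0 ≤ s → s ≤ 1 → |sd s - 1| ≤ Cs * s)
    (d2 : ∀ s s', 0 ≤ s → s ≤ 1 → 0 ≤ s' → s' ≤ 1 → |sd s - sd s'| ≤ Cs * |s - s'|)
    (g1 : ∀ s, 0 ≤ s → s ≤ 1 → 0 ≤ sg s ∧ sg s ≤ Cs * s)
    (g2 : ∀ s s', 0 ≤ s → s ≤ 1 → 0 ≤ s' → s' ≤ 1 → |sg s - sg s'| ≤ Cs * |s - s'|)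
    {O : Set E} (K1 : ∀ z ∈ O, (256 * (Fintype.card ι : ℝ)) ^ 2 ≤ K (uu lp nn z))
    (B1 : ∀ z ∈ O, 0 < bb z)
    (K2 : ∀ z ∈ O, ∀ z' ∈ O, |uu lp nn z - uu lp nn z'| ≤ 1 / 2 →
      K (uu lp nn z) ≤ 2 * K (uu lp nn z'))
    (AB : ∀ z ∈ O, ∀ z' ∈ O, Near lq lp nn K A₀ z z' →
      |a z - a z'| ≤ Real.sqrt (k₁ * Ee lp nn z) ∧
      |bb z - bb z'| ≤ Cb * Real.sqrt (K (uu lp nn z)))
    {b c' : E → ℝ} (hb : Ts b) (hc' : Ts c') (hO' : tsupport b ∪ tsupport c' ⊆ O)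
    (hO : ∀ z ∈ O, r2 lq z ≤ c₀ ^ 2 ∧ Ee lp nn z * r2 lq z ≤ c * K (uu lp nn z)) :
    (1 - 1 / (64 * (Fintype.card ι : ℝ))) ^ 4 * (8 * ((Fintype.card ι : ℝ) - 1))
          * ∫ z, Ee lp nn z ^ 2 * b z ^ 2 ∂μ
        - (2048 * (Fintype.card ι : ℝ) ^ 2 * k₁ + 64 * (Fintype.card ι : ℝ) ^ 2 * Mth / A₀)
          * ∫ z, Ee lp nn z ^ 2 * b z ^ 2 ∂μ
        - (128 * (Fintype.card ι : ℝ) ^ 2 * (Cb + (16 * Cs * c + 16 * Cs * (Fintype.card ι)
            * (A₀ + Real.sqrt (A₀ * c)))) ^ 2 + 2 * (64 + 8 * (Fintype.card ι : ℝ) ^ 2) * Mth)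
          * ∫ z, Ee lp nn z * K (uu lp nn z) * c' z ^ 2 ∂μ
      ≤ ∫ z, Ee lp nn z * YY α β (Aw2 lq lp nn sd a) (Bw2 lq lp nn bb sg) b c' z ∂μ := by
  set n : ℝ := (Fintype.card ι : ℝ) with hn'
  have hn3 : (3 : ℝ) ≤ n := by rw [hn']; exact_mod_cast hn
  have hn0 : 0 < n := by linarith
  set C₂ := Cb + (16 * Cs * c + 16 * Cs * n * (A₀ + Real.sqrt (A₀ * c))) with hC₂
  have hc2 : c₀ ^ 2 ≤ 1 := pow_le_one₀ hc₀.le hc₀1
  have hk0 : 0 ≤ k₁ := le_trans (by positivity) hk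
  have KO : ∀ z ∈ O, (256 * n) ^ 2 ≤ K (uu lp nn z) := K1
  have KO1 : ∀ z ∈ O, 1 ≤ K (uu lp nn z) := fun z hz => by
    have := KO z hz; nlinarith
  set Cc : E → ℝ := fun z => max (K (uu lp nn z)) 0 with hCc
  have cCc : Continuous Cc := (cK.comp uu_cont).max continuous_const
  have Cc1 : ∀ z ∈ O, Cc z = K (uu lp nn z) := fun z hz =>
    max_eq_left (by have := KO1 z hz; linarith)
  have Cc0 : ∀ z, 0 ≤ Cc z := fun z => le_max_right _ _
  -- the hypotheses of the freezing theorem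
  have key := slab μ (E := E) (J := ι ⊕ ι) (ℓ₀ := lp nn) (lam := 1 / 8) (ℓ := lj lq lp)
    (A := Aw2 lq lp nn sd a) (B := Bw2 lq lp nn bb sg) (b := b) (c := c') (α := α) (β := β)
    fz (by linarith) (O := O) (Ef := Ee lp nn)
    (e₁ := fun z => 2 * Real.sqrt (k₁ * Ee lp nn z)) (e₂ := fun z => C₂ * Real.sqrt (Cc z))
    (Ga := fun z => 8 * n ^ 2 * Mth * (Ee lp nn z / A₀))
    (Gb := fun z => (64 + 8 * n ^ 2) * Mth * Cc z)
    (r := rj lp nn K A₀) (δ := 1 / (64 * n)) (by positivity)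
    (by rw [div_le_one (by positivity)]; linarith) (by norm_num) hb hc'
    hO' Ee_cont (continuous_const.mul (continuous_const.mul Ee_cont).sqrt)
    (continuous_const.mul cCc.sqrt) (continuous_const.mul (Ee_cont.div_const _))
    (continuous_const.mul cCc)
    (fun i => by
      unfold Aw2
      refine (Ee_cont.mul ((csd.comp r2_cont).mul (lq i).continuous)).add ?_
      by_cases hi : i = nn
      · simp only [if_pos hi]; exact ca
      · simp only [if_neg hi]; exact continuous_const)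
    (fun i => by
      unfold Bw2 Bw
      by_cases hi : i = nn
      · simp only [if_pos hi]
        exact (continuous_const.mul (continuous_const.add
          (Ee_cont.mul (csg.comp r2_cont)))).add cb
      · simp only [if_neg hi]
        exact continuous_const.add continuous_const)
    (fun z _ => Ee_pos z)
    (fun z hz j => by
      rcases j with j | j
      · have := KO1 z hz
        show 0 < K (uu lp nn z)
        linarith
      · exact div_pos (Ee_pos z) hA₀)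
    (fun z hz h0 => by
      have h1 := congrFun h0 nn
      simp only [Bw2, Bw, if_true, Pi.zero_apply] at h1
      have h2 := B1 _ hz
      have h3 := (g1 (r2 lq z) (r2_nonneg z) ((hO z hz).1.trans hc2)).1
      have h4 := mul_nonneg (Ee_pos (lp := lp) (nn := nn) z).le h3
      linarith)
    (fun z hz z' hz' h j => by
      have hu : |uu lp nn z - uu lp nn z'| ≤ 1 / 2 := by
        unfold uu
        rw [← mul_sub, abs_mul, abs_of_pos (by norm_num : (0 : ℝ) < 2)]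
        linarith
      rcases j with j | j
      · exact K2 _ hz _ hz' hu
      · show Ee lp nn z / A₀ ≤ 2 * (Ee lp nn z' / A₀)
        rw [← mul_div_assoc]
        exact div_le_div_of_nonneg_right (exp_two hu) hA₀.le)
    (fun z hz z' hz' h => by
      have hp := h (Sum.inl nn)
      have hq : ∀ j, Ee lp nn z / A₀ * (lq j z - lq j z') ^ 2 ≤ 4 := fun j => h (Sum.inr j)
      have hu2 : K (uu lp nn z) * (uu lp nn z - uu lp nn z') ^ 2 ≤ 16 := by
        have h1 : K (uu lp nn z) * (lp nn z - lp nn z') ^ 2 ≤ 4 := hp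
        have h2 : K (uu lp nn z) * (uu lp nn z - uu lp nn z') ^ 2
            = 4 * (K (uu lp nn z) * (lp nn z - lp nn z') ^ 2) := by unfold uu; ring
        rw [h2]; linarith
      have hKz := KO z hz
      have hu3 : |uu lp nn z - uu lp nn z'| ≤ 1 / (64 * n) := by
        rw [← abs_of_pos (show 0 < 1 / (64 * n) by positivity)]
        apply sq_le_sq.1
        rw [div_pow, one_pow, le_div_iff₀ (by positivity)]
        have h3 := mul_le_mul_of_nonneg_right hKz (sq_nonneg (uu lp nn z - uu lp nn z'))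
        nlinarith
      have hu4 : |uu lp nn z - uu lp nn z'| ≤ 1 / 2 := by
        refine hu3.trans ?_
        rw [div_le_div_iff₀ (by positivity) (by norm_num)]
        linarith
      obtain ⟨ha', hb'⟩ := AB z hz z' hz' ⟨hu2, hq⟩
      refine ⟨exp_low hu3, exp_low (by rw [abs_sub_comm]; exact hu3), fun i => ?_, fun i => ?_⟩
      · have h5 := ptA (nn := nn) hCs hc₀ hc₀1 hA₀ (by linarith [KO1 z hz]) (by omega) d1 d2 hk
          (hO z hz).1 (hO z' hz').1 (hO z hz).2 hu4 hu2 hq i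
        have h6 : |(if i = nn then a z else 0) - (if i = nn then a z' else 0)|
            ≤ Real.sqrt (k₁ * Ee lp nn z) := by
          by_cases hi : i = nn
          · simp only [if_pos hi]; exact ha'
          · simp only [if_neg hi, sub_self, abs_zero]; exact Real.sqrt_nonneg _
        have e : Aw2 lq lp nn sd a i z - Aw2 lq lp nn sd a i z'
            - Ee lp nn z' * (lq i z - lq i z')
            = (Aw lq lp nn sd i z - Aw lq lp nn sd i z' - Ee lp nn z' * (lq i z - lq i z'))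
              + ((if i = nn then a z else 0) - (if i = nn then a z' else 0)) := by
          unfold Aw2; ring
        rw [e]
        refine (abs_add_le _ _).trans ?_
        linarith
      · rw [Cc1 z hz]
        have h5 := ptB (f₁ := fun _ => 0) (Cf := 0) (nn := nn) hCs le_rfl hc₀ hc₀1 hc hA₀
          (KO1 z hz)
          (fun s h0 h1 => by rw [abs_of_nonneg (g1 s h0 h1).1]; exact (g1 s h0 h1).2) g2
          (hO z hz).1 (hO z' hz').1 (hO z hz).2 hu4 hu2 (by simp) hq i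
        have hsK : 0 ≤ Real.sqrt (K (uu lp nn z)) := Real.sqrt_nonneg _
        have h6 : |(if i = nn then bb z else 0) - (if i = nn then bb z' else 0)|
            ≤ Cb * Real.sqrt (K (uu lp nn z)) := by
          by_cases hi : i = nn
          · simp only [if_pos hi]; exact hb'
          · simp only [if_neg hi, sub_self, abs_zero]
            exact (abs_nonneg _).trans hb'
        have e : Bw2 lq lp nn bb sg i z - Bw2 lq lp nn bb sg i z'
            = (Bw lq lp nn (fun _ => 0) sg i z - Bw lq lp nn (fun _ => 0) sg i z')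
              + ((if i = nn then bb z else 0) - (if i = nn then bb z' else 0)) := by
          unfold Bw2; ring
        rw [e]
        refine (abs_add_le _ _).trans ?_
        have e2 : C₂ * Real.sqrt (K (uu lp nn z))
            = (8 * 0 + 16 * Cs * c + 16 * Cs * n * (A₀ + Real.sqrt (A₀ * c)))
              * Real.sqrt (K (uu lp nn z)) + Cb * Real.sqrt (K (uu lp nn z)) := by
          rw [hC₂]; ring
        rw [e2]
        exact add_le_add h5 h6)
    (fun z hz => by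
      rw [sum_a fr]
      simp only [fr.pa, zero_div, ne_eq, OfNat.ofNat_ne_zero, not_false_eq_true, zero_pow,
        Finset.sum_const_zero, mul_zero, zero_add]
      apply le_of_eq
      rw [Fintype.card_sum]
      push_cast
      rw [← hn']
      ring)
    (fun z hz => by
      rw [sum_b fr, Cc1 z hz]
      have h1 : ∑ i, (lp nn (β i) / (1 / 8)) ^ 2 = 64 := by
        simp only [fr.pb]
        rw [Finset.sum_eq_single nn]
        · norm_num
        · intro i _ hi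
          rw [if_neg (Ne.symm hi)]; norm_num
        · intro h; exact absurd (Finset.mem_univ _) h
      rw [h1, Fintype.card_sum]
      push_cast
      rw [← hn']
      have h2 := KO1 z hz
      have h3 := Mth_pos
      nlinarith [mul_le_mul_of_nonneg_left h2 (by positivity : 0 ≤ Mth * 64)])
  refine le_trans (le_of_eq ?_) key
  -- evaluation of the costs
  have T1 : Integrable (fun z => Ee lp nn z ^ 2 * b z ^ 2) μ := w_int μ (Ee_cont.pow 2) hb
  have T2 : Integrable (fun z => (Ee lp nn z * Cc z) * c' z ^ 2) μ :=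
    w_int μ (Ee_cont.mul cCc) hc'
  have T3 : ∫ z, Ee lp nn z * K (uu lp nn z) * c' z ^ 2 ∂μ
      = ∫ z, (Ee lp nn z * Cc z) * c' z ^ 2 ∂μ := by
    congr 1
    funext z
    by_cases hz : z ∈ tsupport c'
    · rw [Cc1 z (hO' (Or.inr hz))]
    · rw [image_eq_zero_of_notMem_tsupport hz]; ring
  have e1 : ∫ z, Ee lp nn z * (8 * (2 * Real.sqrt (k₁ * Ee lp nn z)) ^ 2 * b z ^ 2
        + 2 * (C₂ * Real.sqrt (Cc z)) ^ 2 * c' z ^ 2) ∂μ
      = 32 * k₁ * ∫ z, Ee lp nn z ^ 2 * b z ^ 2 ∂μ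
        + 2 * C₂ ^ 2 * ∫ z, (Ee lp nn z * Cc z) * c' z ^ 2 ∂μ := by
    rw [← integral_const_mul, ← integral_const_mul,
      ← integral_add (T1.const_mul _) (T2.const_mul _)]
    congr 1
    funext z
    rw [mul_pow 2, Real.sq_sqrt (mul_nonneg hk0 (Ee_pos z).le), mul_pow, Real.sq_sqrt (Cc0 z)]
    ring
  have e2 : ∫ z, Ee lp nn z * (8 * (8 * n ^ 2 * Mth * (Ee lp nn z / A₀)) * b z ^ 2
        + 2 * ((64 + 8 * n ^ 2) * Mth * Cc z) * c' z ^ 2) ∂μ
      = 64 * n ^ 2 * Mth / A₀ * ∫ z, Ee lp nn z ^ 2 * b z ^ 2 ∂μ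
        + 2 * (64 + 8 * n ^ 2) * Mth * ∫ z, (Ee lp nn z * Cc z) * c' z ^ 2 ∂μ := by
    rw [← integral_const_mul, ← integral_const_mul,
      ← integral_add (T1.const_mul _) (T2.const_mul _)]
    congr 1
    funext z
    ring
  rw [e1, e2, T3]
  have e3 : n / (1 / (64 * n)) = 64 * n ^ 2 := by field_simp
  rw [e3]
  ring

/-- The size of the `q`-cells. -/
def A00 (n : ℕ) : ℝ := 256 * (n : ℝ) ^ 2 * Mth

/-- The allowed relative error. -/
def k00 (n : ℕ) : ℝ := 1 / (8192 * (n : ℝ) ^ 2)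

/-- **Region I of zone C (flat, separate slopes).** The constants depend on `n`, `Cs`, `Cb` only. -/
theorem regI2 (n : ℕ) (hn : 3 ≤ n) {Cs Cb : ℝ} (hCs : 0 ≤ Cs) :
    ∃ c₀ c C₃ : ℝ, 0 < c₀ ∧ c₀ ≤ 1 ∧ 0 < c ∧ c ≤ 1 ∧ 0 < C₃ ∧
      ∀ (_ : Fintype.card ι = n) (α β : ι → E) (lq lp : ι → E →L[ℝ] ℝ) (nn : ι)
      (_ : Fr α β lq lp) (_ : FZ μ α β lq (8 * ((n : ℝ) - 1)))
      (sd sg K : ℝ → ℝ) (a bb : E → ℝ) (_ : Continuous sd) (_ : Continuous sg)
      (_ : Continuous a) (_ : Continuous bb) (_ : Continuous K)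
      (_ : ∀ s, 0 ≤ s → s ≤ 1 → |sd s - 1| ≤ Cs * s)
      (_ : ∀ s s', 0 ≤ s → s ≤ 1 → 0 ≤ s' → s' ≤ 1 → |sd s - sd s'| ≤ Cs * |s - s'|)
      (_ : ∀ s, 0 ≤ s → s ≤ 1 → 0 ≤ sg s ∧ sg s ≤ Cs * s)
      (_ : ∀ s s', 0 ≤ s → s ≤ 1 → 0 ≤ s' → s' ≤ 1 → |sg s - sg s'| ≤ Cs * |s - s'|)
      (O : Set E) (_ : ∀ z ∈ O, (256 * (n : ℝ)) ^ 2 ≤ K (uu lp nn z)) (_ : ∀ z ∈ O, 0 < bb z)
      (_ : ∀ z ∈ O, ∀ z' ∈ O, |uu lp nn z - uu lp nn z'| ≤ 1 / 2 →
        K (uu lp nn z) ≤ 2 * K (uu lp nn z'))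
      (_ : ∀ z ∈ O, ∀ z' ∈ O, Near lq lp nn K (A00 n) z z' →
        |a z - a z'| ≤ Real.sqrt (k00 n * Ee lp nn z) ∧
        |bb z - bb z'| ≤ Cb * Real.sqrt (K (uu lp nn z)))
      (_ : ∀ z ∈ O, r2 lq z ≤ c₀ ^ 2 ∧ Ee lp nn z * r2 lq z ≤ c * K (uu lp nn z))
      (b c' : E → ℝ) (_ : Ts b) (_ : Ts c') (_ : tsupport b ∪ tsupport c' ⊆ O),
      1 / 2 * (∫ z, Ee lp nn z * YY α β (Aw2 lq lp nn sd a) (Bw2 lq lp nn bb sg) b c' z ∂μ
          + ∫ z, Ee lp nn z ^ 2 * b z ^ 2 ∂μ)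
        - C₃ * ∫ z, Ee lp nn z * K (uu lp nn z) * c' z ^ 2 ∂μ
      ≤ 8 * ∫ z, Ee lp nn z * YY α β (Aw2 lq lp nn sd a) (Bw2 lq lp nn bb sg) b c' z ∂μ
        - 32 * n * ∫ z, Ee lp nn z ^ 2 * b z ^ 2 ∂μ := by
  have hnR : (3 : ℝ) ≤ n := by exact_mod_cast hn
  have hn0 : (0 : ℝ) < n := by linarith
  have hM := Mth_pos
  have pA : 0 < A00 n := by unfold A00; positivity
  have pk : 0 < k00 n := by unfold k00; positivity
  have hA₀ : A00 n = 256 * (n : ℝ) ^ 2 * Mth := rfl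
  have hk₁ : k00 n = 1 / (8192 * (n : ℝ) ^ 2) := rfl
  set N : ℝ := (n : ℝ) with hN
  set A₀ : ℝ := A00 n with hA₀'
  set k₁ : ℝ := k00 n with hk₁'
  set c : ℝ := k₁ / (256 * (1 + Cs) ^ 2) with hc
  have pc : 0 < c := by positivity
  have c1 : c ≤ 1 := by
    rw [hc, div_le_one (by positivity)]
    have h1 : k₁ ≤ 1 := by
      rw [hk₁, div_le_one (by positivity)]; nlinarith
    have h2 : 1 ≤ (1 + Cs) ^ 2 := one_le_pow₀ (by linarith)
    linarith
  set c₀ : ℝ := min 1 (k₁ / (576 * N ^ 2 * (1 + Cs) ^ 2 * A₀)) with hc₀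
  have pc₀ : 0 < c₀ := lt_min one_pos (by positivity)
  have c₀1 : c₀ ≤ 1 := min_le_left _ _
  set C₂ : ℝ := Cb + (16 * Cs * c + 16 * Cs * N * (A₀ + Real.sqrt (A₀ * c))) with hC₂
  set C' : ℝ := 128 * N ^ 2 * C₂ ^ 2 + 2 * (64 + 8 * N ^ 2) * Mth with hC'
  have pC' : 0 < C' := by positivity
  refine ⟨c₀, c, 8 * C', pc₀, c₀1, pc, c1, by positivity, ?_⟩
  intro card α β lq lp nn fr fz sd sg K a bb csd csg ca cb cK d1 d2 g1 g2 O K1 B1 K2 AB hO b c'
    hb hc' hO'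
  have hk : 128 * (1 + Cs) ^ 2 * c + 288 * (Fintype.card ι : ℝ) ^ 2 * Cs ^ 2 * c₀ ^ 4 * A₀ ≤ k₁ := by
    rw [card]
    have h1 : 128 * (1 + Cs) ^ 2 * c = k₁ / 2 := by
      rw [hc]; field_simp; norm_num
    have h2 : c₀ ^ 4 ≤ c₀ := pow_le_of_le_one pc₀.le c₀1 (by norm_num)
    have h3 : c₀ ≤ k₁ / (576 * N ^ 2 * (1 + Cs) ^ 2 * A₀) := min_le_right _ _
    have h4 : Cs ^ 2 ≤ (1 + Cs) ^ 2 := pow_le_pow_left₀ hCs (by linarith) 2
    have h5 : 288 * N ^ 2 * Cs ^ 2 * c₀ ^ 4 * A₀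
        ≤ 288 * N ^ 2 * (1 + Cs) ^ 2 * (k₁ / (576 * N ^ 2 * (1 + Cs) ^ 2 * A₀)) * A₀ := by
      apply mul_le_mul_of_nonneg_right _ pA.le
      apply mul_le_mul _ (h2.trans h3) (by positivity) (by positivity)
      exact mul_le_mul_of_nonneg_left h4 (by positivity)
    have h6 : 288 * N ^ 2 * (1 + Cs) ^ 2 * (k₁ / (576 * N ^ 2 * (1 + Cs) ^ 2 * A₀)) * A₀
        = k₁ / 2 := by
      field_simp; norm_num
    rw [h6] at h5
    rw [h1]
    linarith
  have key := low2 μ fr (by rw [card]; exact hn) (by rw [card]; exact fz) hCs pc₀ c₀1 pc.le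
    pA hk csd csg ca cb cK d1 d2 g1 g2 (by rw [card]; exact K1) B1 K2 AB hb hc' hO' hO
  rw [card, ← hN] at key
  rw [← hC₂, ← hC'] at key
  set X := ∫ z, Ee lp nn z ^ 2 * b z ^ 2 ∂μ with hX
  set Z := ∫ z, Ee lp nn z * K (uu lp nn z) * c' z ^ 2 ∂μ with hZ
  set Y := ∫ z, Ee lp nn z * YY α β (Aw2 lq lp nn sd a) (Bw2 lq lp nn bb sg) b c' z ∂μ with hY
  have X0 : 0 ≤ X := integral_nonneg fun z => by positivity
  have Z0 : 0 ≤ Z := by
    apply integral_nonneg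
    intro z
    by_cases hz : z ∈ tsupport c'
    · have h1 := K1 _ (hO' (Or.inr hz))
      have h2 : 0 ≤ K (uu lp nn z) := le_trans (by positivity) h1
      have h3 := Ee_pos (lp := lp) (nn := nn) z
      show 0 ≤ Ee lp nn z * K (uu lp nn z) * c' z ^ 2
      positivity
    · show 0 ≤ Ee lp nn z * K (uu lp nn z) * c' z ^ 2
      rw [image_eq_zero_of_notMem_tsupport hz]; simp
  have h1 : 2048 * N ^ 2 * k₁ + 64 * N ^ 2 * Mth / A₀ = 1 / 2 := by
    rw [hk₁, hA₀]; field_simp; norm_num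
  rw [h1] at key
  have h2 : 1 - 4 * (1 / (64 * N)) ≤ (1 - 1 / (64 * N)) ^ 4 := by
    have h3 : 1 / (64 * N) ≤ 1 := by rw [div_le_one (by positivity)]; linarith
    have := one_add_mul_le_pow (a := -(1 / (64 * N))) (by linarith) 4
    have e : (1 : ℝ) + ((4 : ℕ) : ℝ) * -(1 / (64 * N)) = 1 - 4 * (1 / (64 * N)) := by
      push_cast; ring
    rw [e] at this
    have e2 : (1 : ℝ) + -(1 / (64 * N)) = 1 - 1 / (64 * N) := by ring
    rwa [e2] at this
  have h3 : 8 * (N - 1) - 1 / 2 ≤ (1 - 1 / (64 * N)) ^ 4 * (8 * (N - 1)) := by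
    have h4 := mul_le_mul_of_nonneg_right h2 (by linarith : 0 ≤ 8 * (N - 1))
    have h5 : (1 - 4 * (1 / (64 * N))) * (8 * (N - 1)) = 8 * (N - 1) - (N - 1) / (2 * N) := by
      field_simp; ring
    rw [h5] at h4
    have h6 : (N - 1) / (2 * N) ≤ 1 / 2 := by
      rw [div_le_div_iff₀ (by positivity) (by norm_num)]; linarith
    linarith
  have h4 := mul_le_mul_of_nonneg_right h3 X0
  -- `Y ≥ (8 (N - 1) - 1) X - C' Z`
  have h5 : (8 * (N - 1) - 1) * X - C' * Z ≤ Y := by linarith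
  have h6 : 0 ≤ C' * Z := mul_nonneg pC'.le Z0
  have h7 : 0 ≤ (28 * N - 68) * X := mul_nonneg (by linarith) X0
  have h8 : (60 * N - 67.5) * X - 7.5 * (C' * Z) ≤ 7.5 * Y := by linarith
  have h9 : (60 * N - 67.5) * X = (32 * N + 1 / 2) * X + (28 * N - 68) * X := by ring
  have h10 : 8 * C' * Z = 8 * (C' * Z) := by ring
  rw [h10]
  linarith

end Vale.Agent.P088.R2.H960.C
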