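import Vale.Agent.P088.R2.H960.C.RegA
import Vale.Agent.P088.R2.H960.C.RegI2

/-!
# Region I of zone C: flat frames, general slope part, weight `χ²` inside
-/

open Set MeasureTheory
open scoped ContDiff

noncomputable section

namespace Vale.Agent.P088.R2.H960.C

variable {E : Type*} [NormedAddCommGroup E] [NormedSpace ℝ E] {ι : Type*} [Fintype ι]
  [DecidableEq ι] [MeasurableSpace E] [BorelSpace E] (μ : Measure E)
  [IsFiniteMeasureOnCompacts μ]
  {α β : ι → E} {lq lp : ι → E →L[ℝ] ℝ} {nn : ι}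

set_option linter.unusedSectionVars false

/-- The hypotheses of region I for `W_q = E sd(r²) q + a e_n`, `W_p = (bb + 2 E sg(r²)) e_n`. -/
structure RF (n : ℕ) (O : Set E) (α β : ι → E) (lq lp : ι → E →L[ℝ] ℝ) (nn : ι)
    (sd sg K : ℝ → ℝ) (a bb : E → ℝ) (Cs Cb c₀ c lam : ℝ) : Prop where
  hn : 3 ≤ n
  card : Fintype.card ι = n
  fr : Fr α β lq lp
  fz : FZ μ α β lq (8 * ((n : ℝ) - 1))
  hCs : 0 ≤ Cs
  hCb : 0 ≤ Cb
  hc₀ : 0 < c₀
  hc₀1 : c₀ ≤ 1
  hc : 0 ≤ c
  hlam : 0 < lam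
  hlam1 : lam ≤ 1 / 8
  hk : 128 * (1 + Cs) ^ 2 * c + 288 * (n : ℝ) ^ 2 * Cs ^ 2 * c₀ ^ 4 * A00 n ≤ k00 n
  csd : Continuous sd
  csg : Continuous sg
  ca : Continuous a
  cb : Continuous bb
  cK : Continuous K
  d1 : ∀ s, 0 ≤ s → s ≤ 1 → |sd s - 1| ≤ Cs * s
  d2 : ∀ s s', 0 ≤ s → s ≤ 1 → 0 ≤ s' → s' ≤ 1 → |sd s - sd s'| ≤ Cs * |s - s'|
  g1 : ∀ s, 0 ≤ s → s ≤ 1 → 0 ≤ sg s ∧ sg s ≤ Cs * s
  g2 : ∀ s s', 0 ≤ s → s ≤ 1 → 0 ≤ s' → s' ≤ 1 → |sg s - sg s'| ≤ Cs * |s - s'|
  K1 : ∀ z ∈ O, (256 * (n : ℝ)) ^ 2 ≤ K (uu lp nn z)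
  B1 : ∀ z ∈ O, 0 < bb z
  K2 : ∀ z ∈ O, ∀ z' ∈ O, |uu lp nn z - uu lp nn z'| ≤ 4 * lam →
      K (uu lp nn z) ≤ 2 * K (uu lp nn z')
  AB : ∀ z ∈ O, ∀ z' ∈ O, Near lq lp nn K (A00 n) z z' →
      |a z - a z'| ≤ Real.sqrt (k00 n * Ee lp nn z) ∧
      |bb z - bb z'| ≤ Cb * Real.sqrt (K (uu lp nn z))
  hO : ∀ z ∈ O, r2 lq z ≤ c₀ ^ 2 ∧ Ee lp nn z * r2 lq z ≤ c * K (uu lp nn z)

/-- The constant of `W_p`. -/
def CB (n : ℕ) (Cs Cb c : ℝ) : ℝ :=
  Cb + (16 * Cs * c + 16 * Cs * n * (A00 n + Real.sqrt (A00 n * c)))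

theorem ra_flat {n : ℕ} {O : Set E} {sd sg K : ℝ → ℝ} {a bb : E → ℝ} {Cs Cb c₀ c lam : ℝ}
    (h : RF μ n O α β lq lp nn sd sg K a bb Cs Cb c₀ c lam) :
    RA μ n O (fun i _ => α i) (fun i _ => β i) (Aw2 lq lp nn sd a) (Bw2 lq lp nn bb sg)
      (Ee lp nn) (fun z => K (uu lp nn z)) (fun _ => 0)
      (fun z => 2 * (Fintype.card Unit * Mth * ∑ _j : Unit, (‖lp nn‖ / lam) ^ 2)
        + 8 * (Fintype.card (ι ⊕ ι) * Mth * ∑ j, ‖lj lq lp j‖ ^ 2 * rj lp nn K (A00 n) j z))
      (fun _ => lq) (fun _ : Unit => lp nn) lam (lj lq lp) (rj lp nn K (A00 n))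
      (CB n Cs Cb c ^ 2) ((1 / lam ^ 2 + 8 * (n : ℝ) ^ 2) * Mth) := by
  have hn3 : (3 : ℝ) ≤ n := by exact_mod_cast h.hn
  have hn0 : (0 : ℝ) < n := by linarith
  have hM := Mth_pos
  have pA : 0 < A00 n := by unfold A00; positivity
  have pk : 0 < k00 n := by unfold k00; positivity
  have hc2 : c₀ ^ 2 ≤ 1 := pow_le_one₀ h.hc₀.le h.hc₀1
  have KO1 : ∀ z ∈ O, 1 ≤ K (uu lp nn z) := fun z hz => by
    have := h.K1 z hz; nlinarith
  have hCB0 : 0 ≤ CB n Cs Cb c := by
    have h1 := h.hCs; have h2 := h.hCb; have h3 := h.hc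
    unfold CB; positivity
  refine
    { hlam := h.hlam
      fz := fun z₀ _ => h.fz
      cE := Ee_cont
      cK := h.cK.comp uu_cont
      ce := continuous_const
      cG := ?_
      cα := fun i => continuous_const
      cβ := fun i => continuous_const
      cA := ?_
      cB := ?_
      E0 := fun z _ => Ee_pos z
      K0 := fun z hz => by
        show 0 < K (uu lp nn z)
        linarith [KO1 z hz]
      r0 := ?_
      B0 := ?_
      hr := ?_
      cell := ?_
      ga := ?_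
      gb := ?_
      gn := fun z _ => le_rfl }
  · have hr : ∀ j, Continuous (rj lp nn K (A00 n) j) := by
      rintro (j | j)
      · exact h.cK.comp uu_cont
      · exact Ee_cont.div_const _
    exact continuous_const.add (continuous_const.mul (continuous_const.mul
      (continuous_finsetSum _ fun j _ => continuous_const.mul (hr j))))
  · intro i
    unfold Aw2
    refine (Ee_cont.mul ((h.csd.comp r2_cont).mul (lq i).continuous)).add ?_
    by_cases hi : i = nn
    · simp only [if_pos hi]; exact h.ca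
    · simp only [if_neg hi]; exact continuous_const
  · intro i
    unfold Bw2 Bw
    by_cases hi : i = nn
    · simp only [if_pos hi]
      exact (continuous_const.mul (continuous_const.add
        (Ee_cont.mul (h.csg.comp r2_cont)))).add h.cb
    · simp only [if_neg hi]
      exact continuous_const.add continuous_const
  · intro z hz j
    rcases j with j | j
    · have := KO1 z hz
      show 0 < K (uu lp nn z)
      linarith
    · exact div_pos (Ee_pos z) pA
  · intro z hz h0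
    have h1 := congrFun h0 nn
    simp only [Bw2, Bw, if_true, Pi.zero_apply] at h1
    have h2 := h.B1 _ hz
    have h3 := (h.g1 (r2 lq z) (r2_nonneg z) ((h.hO z hz).1.trans hc2)).1
    have h4 := mul_nonneg (Ee_pos (lp := lp) (nn := nn) z).le h3
    linarith
  · intro z hz z' hz' hl j
    have hu : |uu lp nn z - uu lp nn z'| ≤ 4 * lam := by
      unfold uu
      rw [← mul_sub, abs_mul, abs_of_pos (by norm_num : (0 : ℝ) < 2)]
      have := hl ()
      linarith
    rcases j with j | j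
    · exact h.K2 _ hz _ hz' hu
    · show Ee lp nn z / A00 n ≤ 2 * (Ee lp nn z' / A00 n)
      rw [← mul_div_assoc]
      exact div_le_div_of_nonneg_right (exp_two (by linarith [h.hlam1])) pA.le
  · intro z hz z' hz' _ hl
    have hp := hl (Sum.inl nn)
    have hq : ∀ j, Ee lp nn z / A00 n * (lq j z - lq j z') ^ 2 ≤ 4 := fun j => hl (Sum.inr j)
    have hu2 : K (uu lp nn z) * (uu lp nn z - uu lp nn z') ^ 2 ≤ 16 := by
      have h1 : K (uu lp nn z) * (lp nn z - lp nn z') ^ 2 ≤ 4 := hp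
      have h2 : K (uu lp nn z) * (uu lp nn z - uu lp nn z') ^ 2
          = 4 * (K (uu lp nn z) * (lp nn z - lp nn z') ^ 2) := by unfold uu; ring
      rw [h2]; linarith
    have hKz := h.K1 z hz
    have hu3 : |uu lp nn z - uu lp nn z'| ≤ 1 / (64 * n) := by
      rw [← abs_of_pos (show 0 < 1 / (64 * (n : ℝ)) by positivity)]
      apply sq_le_sq.1
      rw [div_pow, one_pow, le_div_iff₀ (by positivity)]
      have h3 := mul_le_mul_of_nonneg_right hKz (sq_nonneg (uu lp nn z - uu lp nn z'))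
      nlinarith
    have hu4 : |uu lp nn z - uu lp nn z'| ≤ 1 / 2 := by
      refine hu3.trans ?_
      rw [div_le_div_iff₀ (by positivity) (by norm_num)]
      linarith
    obtain ⟨ha', hb'⟩ := h.AB z hz z' hz' ⟨hu2, hq⟩
    refine ⟨exp_low hu3, exp_low (by rw [abs_sub_comm]; exact hu3), fun i => ?_, fun i => ?_,
      fun i => by simp, fun i => by simp⟩
    · have h5 := ptA (nn := nn) (k₁ := k00 n) h.hCs h.hc₀ h.hc₀1 pA (by linarith [KO1 z hz])
        (by rw [h.card]; exact le_trans (by decide) h.hn) h.d1 h.d2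
        (by rw [h.card]; exact h.hk)
        (h.hO z hz).1 (h.hO z' hz').1 (h.hO z hz).2 hu4 hu2 hq i
      have h6 : |(if i = nn then a z else 0) - (if i = nn then a z' else 0)|
          ≤ Real.sqrt (k00 n * Ee lp nn z) := by
        by_cases hi : i = nn
        · simp only [if_pos hi]; exact ha'
        · simp only [if_neg hi, sub_self, abs_zero]; exact Real.sqrt_nonneg _
      have e : Aw2 lq lp nn sd a i z - Aw2 lq lp nn sd a i z'
          - Ee lp nn z' * lq i (z - z')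
          = (Aw lq lp nn sd i z - Aw lq lp nn sd i z' - Ee lp nn z' * (lq i z - lq i z'))
            + ((if i = nn then a z else 0) - (if i = nn then a z' else 0)) := by
        rw [map_sub]; unfold Aw2; ring
      rw [e]
      have h7 := (abs_add_le (Aw lq lp nn sd i z - Aw lq lp nn sd i z'
        - Ee lp nn z' * (lq i z - lq i z'))
        ((if i = nn then a z else 0) - (if i = nn then a z' else 0))).trans (add_le_add h5 h6)
      have h8 := pow_le_pow_left₀ (abs_nonneg _) h7 2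
      rw [sq_abs] at h8
      refine h8.trans (le_of_eq ?_)
      have h9 := Real.sq_sqrt (mul_nonneg pk.le (Ee_pos (lp := lp) (nn := nn) z).le)
      have : (Real.sqrt (k00 n * Ee lp nn z) + Real.sqrt (k00 n * Ee lp nn z)) ^ 2
          = 4 * Real.sqrt (k00 n * Ee lp nn z) ^ 2 := by ring
      rw [this, h9]
      have h10 : 4 * k00 n = ka n := by unfold ka k00; field_simp; norm_num
      rw [← h10]; ring
    · have h5 := ptB (f₁ := fun _ => 0) (Cf := 0) (nn := nn) h.hCs le_rfl h.hc₀ h.hc₀1 h.hc pA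
        (KO1 z hz)
        (fun s h0 h1 => by rw [abs_of_nonneg (h.g1 s h0 h1).1]; exact (h.g1 s h0 h1).2) h.g2
        (h.hO z hz).1 (h.hO z' hz').1 (h.hO z hz).2 hu4 hu2 (by simp) hq i
      have hsK : 0 ≤ Real.sqrt (K (uu lp nn z)) := Real.sqrt_nonneg _
      have h6 : |(if i = nn then bb z else 0) - (if i = nn then bb z' else 0)|
          ≤ Cb * Real.sqrt (K (uu lp nn z)) := by
        by_cases hi : i = nn
        · simp only [if_pos hi]; exact hb'
        · simp only [if_neg hi, sub_self, abs_zero]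
          exact (abs_nonneg _).trans hb'
      have e : Bw2 lq lp nn bb sg i z - Bw2 lq lp nn bb sg i z'
          = (Bw lq lp nn (fun _ => 0) sg i z - Bw lq lp nn (fun _ => 0) sg i z')
            + ((if i = nn then bb z else 0) - (if i = nn then bb z' else 0)) := by
        unfold Bw2; ring
      rw [e]
      have h7 := (abs_add_le (Bw lq lp nn (fun _ => 0) sg i z - Bw lq lp nn (fun _ => 0) sg i z')
        ((if i = nn then bb z else 0) - (if i = nn then bb z' else 0))).trans (add_le_add h5 h6)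
      have e2 : (8 * 0 + 16 * Cs * c + 16 * Cs * (Fintype.card ι : ℝ)
          * (A00 n + Real.sqrt (A00 n * c))) * Real.sqrt (K (uu lp nn z))
          + Cb * Real.sqrt (K (uu lp nn z)) = CB n Cs Cb c * Real.sqrt (K (uu lp nn z)) := by
        unfold CB; rw [h.card]; ring
      rw [e2] at h7
      have h8 := pow_le_pow_left₀ (abs_nonneg _) h7 2
      rw [sq_abs] at h8
      refine h8.trans (le_of_eq ?_)
      rw [mul_pow, Real.sq_sqrt (by linarith [KO1 z hz])]
  · intro z hz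
    rw [sum_a h.fr]
    simp only [h.fr.pa, zero_div, ne_eq, OfNat.ofNat_ne_zero, not_false_eq_true, zero_pow,
      Finset.sum_const_zero, mul_zero, zero_add]
    apply le_of_eq
    rw [Fintype.card_sum, h.card]
    push_cast
    unfold A00
    field_simp
    ring
  · intro z hz
    rw [sum_b h.fr]
    have h1 : ∑ i, ∑ _j : Unit, (lp nn (β i) / lam) ^ 2 = 1 / lam ^ 2 := by
      simp only [h.fr.pb, Finset.univ_unique, Finset.sum_const, Finset.card_singleton, one_smul]
      rw [Finset.sum_eq_single nn]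
      · simp
      · intro i _ hi
        rw [if_neg (Ne.symm hi)]; simp
      · intro h; exact absurd (Finset.mem_univ _) h
    rw [h1, Fintype.card_sum, h.card]
    push_cast
    have h2 := KO1 z hz
    have h3 : 0 ≤ Mth * (1 / lam ^ 2) := by have := h.hlam; positivity
    have h4 := mul_le_mul_of_nonneg_left h2 h3
    simp only [Fintype.card_unit, Nat.cast_one, one_mul]
    linarith

/-- **Region I, flat, with the weight `χ²` inside.** -/
theorem cutF {n : ℕ} {O : Set E} {sd sg K : ℝ → ℝ} {a bb : E → ℝ} {Cs Cb c₀ c lam : ℝ}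
    (h : RF μ n O α β lq lp nn sd sg K a bb Cs Cb c₀ c lam)
    {χ b c' : E → ℝ} (hχ : ContDiff ℝ ∞ χ) (hχO : tsupport χ ⊆ O) (hb : Ts b) (hc : Ts c') :
    1 / 4 * (∫ z, χ z ^ 2 * (Ee lp nn z * YY α β (Aw2 lq lp nn sd a) (Bw2 lq lp nn bb sg)
            b c' z) ∂μ
          + ∫ z, χ z ^ 2 * (Ee lp nn z ^ 2 * b z ^ 2) ∂μ)
        - (8192 * (n : ℝ) ^ 2 * CB n Cs Cb c ^ 2 + 16 * ((1 / lam ^ 2 + 8 * (n : ℝ) ^ 2) * Mth))
          * ∫ z, χ z ^ 2 * (Ee lp nn z * K (uu lp nn z) * c' z ^ 2) ∂μ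
        - 8 * (1 + 128 * n) * ∫ z, Ee lp nn z * ∑ i, (2 * (fderiv ℝ χ z (α i) * b z)
            + fderiv ℝ χ z (β i) * c' z) ^ 2 ∂μ
      ≤ 8 * (1 - 1 / (128 * (n : ℝ))) * ∫ z, χ z ^ 2 * (Ee lp nn z
            * YY α β (Aw2 lq lp nn sd a) (Bw2 lq lp nn bb sg) b c' z) ∂μ
        - 32 * n * (1 + 1 / (128 * (n : ℝ))) * ∫ z, χ z ^ 2 * (Ee lp nn z ^ 2 * b z ^ 2) ∂μ := by
  have hCg : 0 ≤ (1 / lam ^ 2 + 8 * (n : ℝ) ^ 2) * Mth := by
    have h1 := h.hlam; have h2 := Mth_pos; positivity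
  have key := cutG μ h.hn h.card (sq_nonneg _) hCg (ra_flat μ h) hχ hχO hb hc
  have e0 : ∀ z, fre (fun _ => (0 : ℝ)) (fun z => 2 * (Fintype.card Unit * Mth
        * ∑ _j : Unit, (‖lp nn‖ / lam) ^ 2)
        + 8 * (Fintype.card (ι ⊕ ι) * Mth * ∑ j, ‖lj lq lp j‖ ^ 2 * rj lp nn K (A00 n) j z))
      (fun z => χ z * b z) (fun z => χ z * c' z) z = 0 := by
    intro z; unfold fre; simp
  simp only [e0, mul_zero, integral_zero, sub_zero] at key
  exact key

end Vale.Agent.P088.R2.H960.C
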