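import Vale.Agent.P088.R2.H960.C.Inst

/-!
# Region I of zone C, flat: the final inequality
-/

open Set MeasureTheory
open scoped ContDiff

noncomputable section

namespace Vale.Agent.P088.R2.H960.C

variable {E : Type*} [NormedAddCommGroup E] [NormedSpace ℝ E] {ι : Type*} [Fintype ι]
  [DecidableEq ι] [MeasurableSpace E] [BorelSpace E] (μ : Measure E)
  [IsFiniteMeasureOnCompacts μ]
  {α β : ι → E} {lq lp : ι → E →L[ℝ] ℝ} {nn : ι}

set_option linter.unusedSectionVars false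

/-- All coordinates. -/
def lj (lq lp : ι → E →L[ℝ] ℝ) : ι ⊕ ι → E →L[ℝ] ℝ := Sum.elim lp lq

/-- The inverse squares of the sizes. -/
def rj (lp : ι → E →L[ℝ] ℝ) (nn : ι) (K : ℝ → ℝ) (A₀ : ℝ) : ι ⊕ ι → E → ℝ :=
  Sum.elim (fun _ z => K (uu lp nn z)) (fun _ z => Ee lp nn z / A₀)

theorem sum_a (fr : Fr α β lq lp) (K : ℝ → ℝ) (A₀ : ℝ) (z : E) :
    ∑ i, ∑ j, lj lq lp j (α i) ^ 2 * rj lp nn K A₀ j z
      = Fintype.card ι * (Ee lp nn z / A₀) := by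
  have : ∀ i, ∑ j, lj lq lp j (α i) ^ 2 * rj lp nn K A₀ j z = Ee lp nn z / A₀ := by
    intro i
    rw [Fintype.sum_sum_type]
    simp only [lj, rj, Sum.elim_inl, Sum.elim_inr, fr.pa, fr.qa]
    simp
  simp only [this, Finset.sum_const, Finset.card_univ, nsmul_eq_mul]

theorem sum_b (fr : Fr α β lq lp) (K : ℝ → ℝ) (A₀ : ℝ) (z : E) :
    ∑ i, ∑ j, lj lq lp j (β i) ^ 2 * rj lp nn K A₀ j z
      = Fintype.card ι * K (uu lp nn z) := by
  have : ∀ i, ∑ j, lj lq lp j (β i) ^ 2 * rj lp nn K A₀ j z = K (uu lp nn z) := by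
    intro i
    rw [Fintype.sum_sum_type]
    simp only [lj, rj, Sum.elim_inl, Sum.elim_inr, fr.pb, fr.qb]
    simp
  simp only [this, Finset.sum_const, Finset.card_univ, nsmul_eq_mul]

/-- The lower bound of `∫ E |Y|²` in region I. -/
theorem low (fr : Fr α β lq lp) (hn : 3 ≤ Fintype.card ι)
    (fz : FZ μ α β lq (8 * ((Fintype.card ι : ℝ) - 1)))
    {sd sg f₁ K : ℝ → ℝ} {Cs Cf c₀ c A₀ k₁ : ℝ} (hCs : 0 ≤ Cs) (hCf : 0 ≤ Cf) (hc₀ : 0 < c₀)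
    (hc₀1 : c₀ ≤ 1) (hc : 0 ≤ c) (hA₀ : 0 < A₀)
    (hk : 128 * (1 + Cs) ^ 2 * c + 288 * (Fintype.card ι : ℝ) ^ 2 * Cs ^ 2 * c₀ ^ 4 * A₀ ≤ k₁)
    (csd : Continuous sd) (csg : Continuous sg) (cf : Continuous f₁) (cK : Continuous K)
    (d1 : ∀ s, 0 ≤ s → s ≤ 1 → |sd s - 1| ≤ Cs * s)
    (d2 : ∀ s s', 0 ≤ s → s ≤ 1 → 0 ≤ s' → s' ≤ 1 → |sd s - sd s'| ≤ Cs * |s - s'|)
    (g1 : ∀ s, 0 ≤ s → s ≤ 1 → 0 ≤ sg s ∧ sg s ≤ Cs * s)
    (g2 : ∀ s s', 0 ≤ s → s ≤ 1 → 0 ≤ s' → s' ≤ 1 → |sg s - sg s'| ≤ Cs * |s - s'|)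
    {I : Set ℝ} (K1 : ∀ u ∈ I, (256 * (Fintype.card ι : ℝ)) ^ 2 ≤ K u) (F1 : ∀ u ∈ I, 0 < f₁ u)
    (K2 : ∀ u ∈ I, ∀ u' ∈ I, |u - u'| ≤ 1 / 2 → K u ≤ 2 * K u' ∧
      |f₁ u - f₁ u'| ≤ Cf * K u * |u - u'|)
    {b c' : E → ℝ} (hb : Ts b) (hc' : Ts c')
    (hO : ∀ z ∈ tsupport b ∪ tsupport c', uu lp nn z ∈ I ∧ r2 lq z ≤ c₀ ^ 2 ∧
      Ee lp nn z * r2 lq z ≤ c * K (uu lp nn z)) :
    (1 - 1 / (64 * (Fintype.card ι : ℝ))) ^ 4 * (8 * ((Fintype.card ι : ℝ) - 1))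
          * ∫ z, Ee lp nn z ^ 2 * b z ^ 2 ∂μ
        - (512 * (Fintype.card ι : ℝ) ^ 2 * k₁ + 64 * (Fintype.card ι : ℝ) ^ 2 * Mth / A₀)
          * ∫ z, Ee lp nn z ^ 2 * b z ^ 2 ∂μ
        - (128 * (Fintype.card ι : ℝ) ^ 2 * (8 * Cf + 16 * Cs * c + 16 * Cs * (Fintype.card ι)
            * (A₀ + Real.sqrt (A₀ * c))) ^ 2 + 2 * (64 + 8 * (Fintype.card ι : ℝ) ^ 2) * Mth)
          * ∫ z, Ee lp nn z * K (uu lp nn z) * c' z ^ 2 ∂μ
      ≤ ∫ z, Ee lp nn z * YY α β (Aw lq lp nn sd) (Bw lq lp nn f₁ sg) b c' z ∂μ := by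
  set n : ℝ := (Fintype.card ι : ℝ) with hn'
  have hn3 : (3 : ℝ) ≤ n := by rw [hn']; exact_mod_cast hn
  have hn0 : 0 < n := by linarith
  set C₂ := 8 * Cf + 16 * Cs * c + 16 * Cs * n * (A₀ + Real.sqrt (A₀ * c)) with hC₂
  set O : Set E := {z | uu lp nn z ∈ I ∧ r2 lq z ≤ c₀ ^ 2 ∧
    Ee lp nn z * r2 lq z ≤ c * K (uu lp nn z)} with hOd
  have hc2 : c₀ ^ 2 ≤ 1 := pow_le_one₀ hc₀.le hc₀1
  have hk0 : 0 ≤ k₁ := le_trans (by positivity) hk
  have KO : ∀ z ∈ O, (256 * n) ^ 2 ≤ K (uu lp nn z) := fun z hz => K1 _ hz.1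
  have KO1 : ∀ z ∈ O, 1 ≤ K (uu lp nn z) := fun z hz => by
    have := KO z hz; nlinarith
  set Cc : E → ℝ := fun z => max (K (uu lp nn z)) 0 with hCc
  have cCc : Continuous Cc := (cK.comp uu_cont).max continuous_const
  have Cc1 : ∀ z ∈ O, Cc z = K (uu lp nn z) := fun z hz =>
    max_eq_left (by have := KO1 z hz; linarith)
  have Cc0 : ∀ z, 0 ≤ Cc z := fun z => le_max_right _ _
  -- the hypotheses of the freezing theorem
  have key := slab μ (E := E) (J := ι ⊕ ι) (ℓ₀ := lp nn) (lam := 1 / 8) (ℓ := lj lq lp)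
    (A := Aw lq lp nn sd) (B := Bw lq lp nn f₁ sg) (b := b) (c := c') (α := α) (β := β)
    fz (by linarith) (O := O) (Ef := Ee lp nn)
    (e₁ := fun z => Real.sqrt (k₁ * Ee lp nn z)) (e₂ := fun z => C₂ * Real.sqrt (Cc z))
    (Ga := fun z => 8 * n ^ 2 * Mth * (Ee lp nn z / A₀))
    (Gb := fun z => (64 + 8 * n ^ 2) * Mth * Cc z)
    (r := rj lp nn K A₀) (δ := 1 / (64 * n)) (by positivity)
    (by rw [div_le_one (by positivity)]; linarith) (by norm_num) hb hc'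
    (fun z hz => hO z hz) Ee_cont ((continuous_const.mul Ee_cont).sqrt)
    (continuous_const.mul cCc.sqrt) (continuous_const.mul (Ee_cont.div_const _))
    (continuous_const.mul cCc)
    (fun i => Ee_cont.mul ((csd.comp r2_cont).mul (lq i).continuous))
    (fun i => by
      unfold Bw
      by_cases hi : i = nn
      · simp only [if_pos hi]
        exact continuous_const.mul ((cf.comp uu_cont).add (Ee_cont.mul (csg.comp r2_cont)))
      · simp only [if_neg hi]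
        exact continuous_const)
    (fun z _ => Ee_pos z)
    (fun z hz j => by
      rcases j with j | j
      · have := KO1 z hz
        show 0 < K (uu lp nn z)
        linarith
      · exact div_pos (Ee_pos z) hA₀)
    (fun z hz h0 => by
      have h1 := congrFun h0 nn
      simp only [Bw, if_true, Pi.zero_apply] at h1
      have h2 := F1 _ hz.1
      have h3 := (g1 (r2 lq z) (r2_nonneg z) (hz.2.1.trans hc2)).1
      have h4 := mul_nonneg (Ee_pos (lp := lp) (nn := nn) z).le h3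
      linarith)
    (fun z hz z' hz' h j => by
      have hu : |uu lp nn z - uu lp nn z'| ≤ 1 / 2 := by
        unfold uu
        rw [← mul_sub, abs_mul, abs_of_pos (by norm_num : (0 : ℝ) < 2)]
        linarith
      rcases j with j | j
      · exact (K2 _ hz.1 _ hz'.1 hu).1
      · show Ee lp nn z / A₀ ≤ 2 * (Ee lp nn z' / A₀)
        rw [← mul_div_assoc]
        exact div_le_div_of_nonneg_right (exp_two hu) hA₀.le)
    (fun z hz z' hz' h => by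
      have hp := h (Sum.inl nn)
      have hq : ∀ j, Ee lp nn z / A₀ * (lq j z - lq j z') ^ 2 ≤ 4 := fun j => h (Sum.inr j)
      have hu2 : K (uu lp nn z) * (uu lp nn z - uu lp nn z') ^ 2 ≤ 16 := by
        have h1 : K (uu lp nn z) * (lp nn z - lp nn z') ^ 2 ≤ 4 := hp
        have h2 : K (uu lp nn z) * (uu lp nn z - uu lp nn z') ^ 2
            = 4 * (K (uu lp nn z) * (lp nn z - lp nn z') ^ 2) := by unfold uu; ring
        rw [h2]; linarith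
      have hKz := KO z hz
      have hu3 : |uu lp nn z - uu lp nn z'| ≤ 1 / (64 * n) := by
        rw [← abs_of_pos (show 0 < 1 / (64 * n) by positivity)]
        apply sq_le_sq.1
        rw [div_pow, one_pow, le_div_iff₀ (by positivity)]
        have h3 := mul_le_mul_of_nonneg_right hKz (sq_nonneg (uu lp nn z - uu lp nn z'))
        nlinarith
      have hu4 : |uu lp nn z - uu lp nn z'| ≤ 1 / 2 := by
        refine hu3.trans ?_
        rw [div_le_div_iff₀ (by positivity) (by norm_num)]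
        linarith
      refine ⟨exp_low hu3, exp_low (by rw [abs_sub_comm]; exact hu3), fun i => ?_, fun i => ?_⟩
      · exact ptA hCs hc₀ hc₀1 hA₀ (by linarith [KO1 z hz]) (by omega) d1 d2 hk hz.2.1 hz'.2.1
          hz.2.2 hu4 hu2 hq i
      · rw [Cc1 z hz]
        exact ptB hCs hCf hc₀ hc₀1 hc hA₀ (KO1 z hz)
          (fun s h0 h1 => by rw [abs_of_nonneg (g1 s h0 h1).1]; exact (g1 s h0 h1).2) g2
          hz.2.1 hz'.2.1 hz.2.2 hu4 hu2 (K2 _ hz.1 _ hz'.1 hu4).2 hq i)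
    (fun z hz => by
      rw [sum_a fr]
      simp only [fr.pa, zero_div, ne_eq, OfNat.ofNat_ne_zero, not_false_eq_true, zero_pow,
        Finset.sum_const_zero, mul_zero, zero_add]
      apply le_of_eq
      rw [Fintype.card_sum]
      push_cast
      rw [← hn']
      ring)
    (fun z hz => by
      rw [sum_b fr, Cc1 z hz]
      have h1 : ∑ i, (lp nn (β i) / (1 / 8)) ^ 2 = 64 := by
        simp only [fr.pb]
        rw [Finset.sum_eq_single nn]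
        · norm_num
        · intro i _ hi
          rw [if_neg (Ne.symm hi)]; norm_num
        · intro h; exact absurd (Finset.mem_univ _) h
      rw [h1, Fintype.card_sum]
      push_cast
      rw [← hn']
      have h2 := KO1 z hz
      have h3 := Mth_pos
      nlinarith [mul_le_mul_of_nonneg_left h2 (by positivity : 0 ≤ Mth * 64)])
  refine le_trans (le_of_eq ?_) key
  -- evaluation of the costs
  have T1 : Integrable (fun z => Ee lp nn z ^ 2 * b z ^ 2) μ := w_int μ (Ee_cont.pow 2) hb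
  have T2 : Integrable (fun z => (Ee lp nn z * Cc z) * c' z ^ 2) μ :=
    w_int μ (Ee_cont.mul cCc) hc'
  have T3 : ∫ z, Ee lp nn z * K (uu lp nn z) * c' z ^ 2 ∂μ
      = ∫ z, (Ee lp nn z * Cc z) * c' z ^ 2 ∂μ := by
    congr 1
    funext z
    by_cases hz : z ∈ tsupport c'
    · rw [Cc1 z (hO z (Or.inr hz))]
    · rw [image_eq_zero_of_notMem_tsupport hz]; ring
  have e1 : ∫ z, Ee lp nn z * (8 * Real.sqrt (k₁ * Ee lp nn z) ^ 2 * b z ^ 2
        + 2 * (C₂ * Real.sqrt (Cc z)) ^ 2 * c' z ^ 2) ∂μ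
      = 8 * k₁ * ∫ z, Ee lp nn z ^ 2 * b z ^ 2 ∂μ
        + 2 * C₂ ^ 2 * ∫ z, (Ee lp nn z * Cc z) * c' z ^ 2 ∂μ := by
    rw [← integral_const_mul, ← integral_const_mul,
      ← integral_add (T1.const_mul _) (T2.const_mul _)]
    congr 1
    funext z
    rw [Real.sq_sqrt (mul_nonneg hk0 (Ee_pos z).le), mul_pow, Real.sq_sqrt (Cc0 z)]
    ring
  have e2 : ∫ z, Ee lp nn z * (8 * (8 * n ^ 2 * Mth * (Ee lp nn z / A₀)) * b z ^ 2
        + 2 * ((64 + 8 * n ^ 2) * Mth * Cc z) * c' z ^ 2) ∂μ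
      = 64 * n ^ 2 * Mth / A₀ * ∫ z, Ee lp nn z ^ 2 * b z ^ 2 ∂μ
        + 2 * (64 + 8 * n ^ 2) * Mth * ∫ z, (Ee lp nn z * Cc z) * c' z ^ 2 ∂μ := by
    rw [← integral_const_mul, ← integral_const_mul,
      ← integral_add (T1.const_mul _) (T2.const_mul _)]
    congr 1
    funext z
    ring
  rw [e1, e2, T3]
  have e3 : n / (1 / (64 * n)) = 64 * n ^ 2 := by field_simp
  rw [e3]
  ring

/-- **Region I of zone C (flat).** All constants depend on `n`, `Cs`, `Cf` only. -/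
theorem regI (n : ℕ) (hn : 3 ≤ n) {Cs Cf : ℝ} (hCs : 0 ≤ Cs) (hCf : 0 ≤ Cf) :
    ∃ c₀ c C₃ K₀ : ℝ, 0 < c₀ ∧ c₀ ≤ 1 ∧ 0 < c ∧ 0 < C₃ ∧ 0 < K₀ ∧
      ∀ (_ : Fintype.card ι = n) (α β : ι → E) (lq lp : ι → E →L[ℝ] ℝ) (nn : ι)
      (_ : Fr α β lq lp) (_ : FZ μ α β lq (8 * ((n : ℝ) - 1)))
      (sd sg f₁ K : ℝ → ℝ) (_ : Continuous sd) (_ : Continuous sg) (_ : Continuous f₁)
      (_ : Continuous K)
      (_ : ∀ s, 0 ≤ s → s ≤ 1 → |sd s - 1| ≤ Cs * s)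
      (_ : ∀ s s', 0 ≤ s → s ≤ 1 → 0 ≤ s' → s' ≤ 1 → |sd s - sd s'| ≤ Cs * |s - s'|)
      (_ : ∀ s, 0 ≤ s → s ≤ 1 → 0 ≤ sg s ∧ sg s ≤ Cs * s)
      (_ : ∀ s s', 0 ≤ s → s ≤ 1 → 0 ≤ s' → s' ≤ 1 → |sg s - sg s'| ≤ Cs * |s - s'|)
      (I : Set ℝ) (_ : ∀ u ∈ I, K₀ ≤ K u) (_ : ∀ u ∈ I, 0 < f₁ u)
      (_ : ∀ u ∈ I, ∀ u' ∈ I, |u - u'| ≤ 1 / 2 → K u ≤ 2 * K u' ∧
        |f₁ u - f₁ u'| ≤ Cf * K u * |u - u'|)
      (b c' : E → ℝ) (_ : Ts b) (_ : Ts c')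
      (_ : ∀ z ∈ tsupport b ∪ tsupport c', uu lp nn z ∈ I ∧ r2 lq z ≤ c₀ ^ 2 ∧
        Ee lp nn z * r2 lq z ≤ c * K (uu lp nn z)),
      1 / 2 * (∫ z, Ee lp nn z * YY α β (Aw lq lp nn sd) (Bw lq lp nn f₁ sg) b c' z ∂μ
          + ∫ z, Ee lp nn z ^ 2 * b z ^ 2 ∂μ)
        - C₃ * ∫ z, Ee lp nn z * K (uu lp nn z) * c' z ^ 2 ∂μ
      ≤ 8 * ∫ z, Ee lp nn z * YY α β (Aw lq lp nn sd) (Bw lq lp nn f₁ sg) b c' z ∂μ
        - 32 * n * ∫ z, Ee lp nn z ^ 2 * b z ^ 2 ∂μ := by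
  have hnR : (3 : ℝ) ≤ n := by exact_mod_cast hn
  have hn0 : (0 : ℝ) < n := by linarith
  set N : ℝ := (n : ℝ) with hN
  have hM := Mth_pos
  set A₀ : ℝ := 256 * N ^ 2 * Mth with hA₀
  have pA : 0 < A₀ := by positivity
  set k₁ : ℝ := 1 / (2048 * N ^ 2) with hk₁
  have pk : 0 < k₁ := by positivity
  set c : ℝ := k₁ / (256 * (1 + Cs) ^ 2) with hc
  have pc : 0 < c := by positivity
  set c₀ : ℝ := min 1 (k₁ / (576 * N ^ 2 * (1 + Cs) ^ 2 * A₀)) with hc₀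
  have pc₀ : 0 < c₀ := lt_min one_pos (by positivity)
  have c₀1 : c₀ ≤ 1 := min_le_left _ _
  set C₂ : ℝ := 8 * Cf + 16 * Cs * c + 16 * Cs * N * (A₀ + Real.sqrt (A₀ * c)) with hC₂
  set C' : ℝ := 128 * N ^ 2 * C₂ ^ 2 + 2 * (64 + 8 * N ^ 2) * Mth with hC'
  have pC' : 0 < C' := by positivity
  refine ⟨c₀, c, 8 * C', (256 * N) ^ 2, pc₀, c₀1, pc, by positivity, by positivity, ?_⟩
  intro card α β lq lp nn fr fz sd sg f₁ K csd csg cf cK d1 d2 g1 g2 I K1 F1 K2 b c' hb hc' hO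
  have hk : 128 * (1 + Cs) ^ 2 * c + 288 * (Fintype.card ι : ℝ) ^ 2 * Cs ^ 2 * c₀ ^ 4 * A₀ ≤ k₁ := by
    rw [card]
    have h1 : 128 * (1 + Cs) ^ 2 * c = k₁ / 2 := by
      rw [hc]; field_simp; norm_num
    have h2 : c₀ ^ 4 ≤ c₀ := pow_le_of_le_one pc₀.le c₀1 (by norm_num)
    have h3 : c₀ ≤ k₁ / (576 * N ^ 2 * (1 + Cs) ^ 2 * A₀) := min_le_right _ _
    have h4 : Cs ^ 2 ≤ (1 + Cs) ^ 2 := pow_le_pow_left₀ hCs (by linarith) 2
    have h5 : 288 * N ^ 2 * Cs ^ 2 * c₀ ^ 4 * A₀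
        ≤ 288 * N ^ 2 * (1 + Cs) ^ 2 * (k₁ / (576 * N ^ 2 * (1 + Cs) ^ 2 * A₀)) * A₀ := by
      apply mul_le_mul_of_nonneg_right _ pA.le
      apply mul_le_mul _ (h2.trans h3) (by positivity) (by positivity)
      exact mul_le_mul_of_nonneg_left h4 (by positivity)
    have h6 : 288 * N ^ 2 * (1 + Cs) ^ 2 * (k₁ / (576 * N ^ 2 * (1 + Cs) ^ 2 * A₀)) * A₀
        = k₁ / 2 := by
      field_simp; norm_num
    rw [h6] at h5
    rw [h1]
    linarith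
  have key := low μ fr (by rw [card]; exact hn) (by rw [card]; exact fz) hCs hCf pc₀ c₀1 pc.le pA
    hk csd csg cf cK d1 d2 g1 g2 (by rw [card]; exact K1) F1 K2 hb hc' hO
  rw [card, ← hN] at key
  rw [← hC₂, ← hC'] at key
  set X := ∫ z, Ee lp nn z ^ 2 * b z ^ 2 ∂μ with hX
  set Z := ∫ z, Ee lp nn z * K (uu lp nn z) * c' z ^ 2 ∂μ with hZ
  set Y := ∫ z, Ee lp nn z * YY α β (Aw lq lp nn sd) (Bw lq lp nn f₁ sg) b c' z ∂μ with hY
  have X0 : 0 ≤ X := integral_nonneg fun z => by positivity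
  have Z0 : 0 ≤ Z := by
    apply integral_nonneg
    intro z
    by_cases hz : z ∈ tsupport c'
    · have h1 := K1 _ (hO z (Or.inr hz)).1
      have h2 : 0 ≤ K (uu lp nn z) := le_trans (by positivity) h1
      have h3 := Ee_pos (lp := lp) (nn := nn) z
      show 0 ≤ Ee lp nn z * K (uu lp nn z) * c' z ^ 2
      positivity
    · show 0 ≤ Ee lp nn z * K (uu lp nn z) * c' z ^ 2
      rw [image_eq_zero_of_notMem_tsupport hz]; simp
  have h1 : 512 * N ^ 2 * k₁ + 64 * N ^ 2 * Mth / A₀ = 1 / 2 := by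
    rw [hk₁, hA₀]; field_simp; norm_num
  rw [h1] at key
  have h2 : 1 - 4 * (1 / (64 * N)) ≤ (1 - 1 / (64 * N)) ^ 4 := by
    have h3 : 1 / (64 * N) ≤ 1 := by rw [div_le_one (by positivity)]; linarith
    have := one_add_mul_le_pow (a := -(1 / (64 * N))) (by linarith) 4
    have e : (1 : ℝ) + ((4 : ℕ) : ℝ) * -(1 / (64 * N)) = 1 - 4 * (1 / (64 * N)) := by
      push_cast; ring
    rw [e] at this
    have e2 : (1 : ℝ) + -(1 / (64 * N)) = 1 - 1 / (64 * N) := by ring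
    rwa [e2] at this
  have h3 : 8 * (N - 1) - 1 / 2 ≤ (1 - 1 / (64 * N)) ^ 4 * (8 * (N - 1)) := by
    have h4 := mul_le_mul_of_nonneg_right h2 (by linarith : 0 ≤ 8 * (N - 1))
    have h5 : (1 - 4 * (1 / (64 * N))) * (8 * (N - 1)) = 8 * (N - 1) - (N - 1) / (2 * N) := by
      field_simp; ring
    rw [h5] at h4
    have h6 : (N - 1) / (2 * N) ≤ 1 / 2 := by
      rw [div_le_div_iff₀ (by positivity) (by norm_num)]; linarith
    linarith
  have h4 := mul_le_mul_of_nonneg_right h3 X0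
  -- `Y ≥ (8 (N - 1) - 1) X - C' Z`
  have h5 : (8 * (N - 1) - 1) * X - C' * Z ≤ Y := by linarith
  have h6 : 0 ≤ C' * Z := mul_nonneg pC'.le Z0
  have h7 : 0 ≤ (28 * N - 68) * X := mul_nonneg (by linarith) X0
  have h8 : (60 * N - 67.5) * X - 7.5 * (C' * Z) ≤ 7.5 * Y := by linarith
  have h9 : (60 * N - 67.5) * X = (32 * N + 1 / 2) * X + (28 * N - 68) * X := by ring
  have h10 : 8 * C' * Z = 8 * (C' * Z) := by ring
  rw [h10]
  linarith

end Vale.Agent.P088.R2.H960.C
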