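import Vale.Agent.P088.R2.H960.C.Cell

/-!
# Cells of variable size

First slabs of size `lam` in one coordinate `ℓ₀`, then boxes whose sizes `(2 r_j)^(-1/2)` are
constant on every slab. Result `slab`: the freezing theorem under pointwise hypotheses.
-/

open Set MeasureTheory
open scoped ContDiff

noncomputable section

namespace Vale.Agent.P088.R2.H960.C

variable {E : Type*} [NormedAddCommGroup E] [NormedSpace ℝ E] {ι : Type*} [Fintype ι]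
  {J : Type*} [Fintype J] [DecidableEq J]

theorem cov_mono {ℓ : J → E →L[ℝ] ℝ} {ρ : J → ℝ} {L L' : ℕ} (h : L ≤ L') :
    cov ℓ ρ L ⊆ cov ℓ ρ L' := fun _ hz j => (hz j).trans_le (by exact_mod_cast h)

/-- The composed cutoffs. -/
def cc (ℓ₀ : E →L[ℝ] ℝ) (lam : ℝ) (ℓ : J → E →L[ℝ] ℝ) (ρ : (Unit → ℤ) → J → ℝ)
    (s : (Unit → ℤ) × (J → ℤ)) (z : E) : ℝ :=
  ch (fun _ : Unit => ℓ₀) (fun _ => lam) s.1 z * ch ℓ (ρ s.1) s.2 z

variable {ℓ₀ : E →L[ℝ] ℝ} {lam : ℝ} {ℓ : J → E →L[ℝ] ℝ} {ρ : (Unit → ℤ) → J → ℝ}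

theorem cc_smooth (s : (Unit → ℤ) × (J → ℤ)) : ContDiff ℝ ∞ (cc ℓ₀ lam ℓ ρ s) :=
  (ch_smooth _ _ _).mul (ch_smooth _ _ _)

theorem cc_dv (s : (Unit → ℤ) × (J → ℤ)) (z v : E) : fderiv ℝ (cc ℓ₀ lam ℓ ρ s) z v
    = ch (fun _ : Unit => ℓ₀) (fun _ => lam) s.1 z * fderiv ℝ (ch ℓ (ρ s.1) s.2) z v
      + fderiv ℝ (ch (fun _ : Unit => ℓ₀) (fun _ => lam) s.1) z v * ch ℓ (ρ s.1) s.2 z := by
  have h1 : DifferentiableAt ℝ (ch (fun _ : Unit => ℓ₀) (fun _ => lam) s.1) z :=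
    (ch_smooth _ _ _).contDiffAt.differentiableAt (by simp)
  have h2 : DifferentiableAt ℝ (ch ℓ (ρ s.1) s.2) z :=
    (ch_smooth _ _ _).contDiffAt.differentiableAt (by simp)
  have : cc ℓ₀ lam ℓ ρ s = fun z => ch (fun _ : Unit => ℓ₀) (fun _ => lam) s.1 z
      * ch ℓ (ρ s.1) s.2 z := rfl
  rw [this, fderiv_fun_mul h1 h2]
  simp only [_root_.add_apply, _root_.smul_apply, smul_eq_mul]
  ring

/-- Both coverings at `z`. -/
def cov2 (ℓ₀ : E →L[ℝ] ℝ) (lam : ℝ) (ℓ : J → E →L[ℝ] ℝ) (ρ : (Unit → ℤ) → J → ℝ)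
    (L L' : ℕ) (z : E) : Prop :=
  z ∈ cov (fun _ : Unit => ℓ₀) (fun _ => lam) L ∧ ∀ s ∈ bx Unit L, z ∈ cov ℓ (ρ s) L'

theorem cc_sum {L L' : ℕ} {z : E} (h : cov2 ℓ₀ lam ℓ ρ L L' z) :
    ∑ s ∈ bx Unit L ×ˢ bx J L', cc ℓ₀ lam ℓ ρ s z ^ 2 = 1 := by
  rw [Finset.sum_product]
  unfold cc
  have : ∀ s ∈ bx Unit L, ∑ k ∈ bx J L',
      (ch (fun _ : Unit => ℓ₀) (fun _ => lam) s z * ch ℓ (ρ s) k z) ^ 2
      = ch (fun _ : Unit => ℓ₀) (fun _ => lam) s z ^ 2 := by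
    intro s hs
    have e : ∀ k ∈ bx J L', (ch (fun _ : Unit => ℓ₀) (fun _ => lam) s z * ch ℓ (ρ s) k z) ^ 2
        = ch (fun _ : Unit => ℓ₀) (fun _ => lam) s z ^ 2 * ch ℓ (ρ s) k z ^ 2 := fun k _ => by ring
    rw [Finset.sum_congr rfl e, ← Finset.mul_sum, ch_sum (h.2 s hs), mul_one]
  rw [Finset.sum_congr rfl this]
  exact ch_sum h.1

theorem cc_dsum {L L' : ℕ} {z : E} (h : cov2 ℓ₀ lam ℓ ρ L L' z) (v : E) :
    ∑ s ∈ bx Unit L ×ˢ bx J L', cc ℓ₀ lam ℓ ρ s z * fderiv ℝ (cc ℓ₀ lam ℓ ρ s) z v = 0 := by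
  rw [Finset.sum_product]
  have : ∀ s ∈ bx Unit L, ∑ k ∈ bx J L',
      cc ℓ₀ lam ℓ ρ (s, k) z * fderiv ℝ (cc ℓ₀ lam ℓ ρ (s, k)) z v
      = ch (fun _ : Unit => ℓ₀) (fun _ => lam) s z
        * fderiv ℝ (ch (fun _ : Unit => ℓ₀) (fun _ => lam) s) z v := by
    intro s hs
    have e : ∀ k ∈ bx J L', cc ℓ₀ lam ℓ ρ (s, k) z * fderiv ℝ (cc ℓ₀ lam ℓ ρ (s, k)) z v
        = ch (fun _ : Unit => ℓ₀) (fun _ => lam) s z ^ 2
            * (ch ℓ (ρ s) k z * fderiv ℝ (ch ℓ (ρ s) k) z v)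
          + (ch (fun _ : Unit => ℓ₀) (fun _ => lam) s z
            * fderiv ℝ (ch (fun _ : Unit => ℓ₀) (fun _ => lam) s) z v) * ch ℓ (ρ s) k z ^ 2 := by
      intro k _
      rw [cc_dv]
      unfold cc
      ring
    rw [Finset.sum_congr rfl e, Finset.sum_add_distrib, ← Finset.mul_sum, ← Finset.mul_sum,
      ch_dsum (h.2 s hs), ch_sum (h.2 s hs)]
    ring
  rw [Finset.sum_congr rfl this]
  exact ch_dsum h.1 v

theorem cc_grad {L L' : ℕ} {z : E} (h : cov2 ℓ₀ lam ℓ ρ L L' z) (v : E) {R : ℝ}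
    (hR : ∀ s ∈ bx Unit L, ch (fun _ : Unit => ℓ₀) (fun _ => lam) s z ≠ 0 →
      ∑ j, (ℓ j v / ρ s j) ^ 2 ≤ R) :
    ∑ s ∈ bx Unit L ×ˢ bx J L', (fderiv ℝ (cc ℓ₀ lam ℓ ρ s) z v) ^ 2
      ≤ Mth * (ℓ₀ v / lam) ^ 2 + Fintype.card J * Mth * R := by
  rw [Finset.sum_product]
  have h1 : ∀ s ∈ bx Unit L, ∑ k ∈ bx J L', (fderiv ℝ (cc ℓ₀ lam ℓ ρ (s, k)) z v) ^ 2
      ≤ (fderiv ℝ (ch (fun _ : Unit => ℓ₀) (fun _ => lam) s) z v) ^ 2
        + (Fintype.card J * Mth * R) * ch (fun _ : Unit => ℓ₀) (fun _ => lam) s z ^ 2 := by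
    intro s hs
    have e : ∀ k ∈ bx J L', (fderiv ℝ (cc ℓ₀ lam ℓ ρ (s, k)) z v) ^ 2
        = ch (fun _ : Unit => ℓ₀) (fun _ => lam) s z ^ 2 * (fderiv ℝ (ch ℓ (ρ s) k) z v) ^ 2
          + (2 * ch (fun _ : Unit => ℓ₀) (fun _ => lam) s z
            * fderiv ℝ (ch (fun _ : Unit => ℓ₀) (fun _ => lam) s) z v)
            * (ch ℓ (ρ s) k z * fderiv ℝ (ch ℓ (ρ s) k) z v)
          + (fderiv ℝ (ch (fun _ : Unit => ℓ₀) (fun _ => lam) s) z v) ^ 2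
            * ch ℓ (ρ s) k z ^ 2 := by
      intro k _
      rw [cc_dv]
      ring
    rw [Finset.sum_congr rfl e, Finset.sum_add_distrib, Finset.sum_add_distrib,
      ← Finset.mul_sum, ← Finset.mul_sum, ← Finset.mul_sum, ch_dsum (h.2 s hs),
      ch_sum (h.2 s hs)]
    by_cases h0 : ch (fun _ : Unit => ℓ₀) (fun _ => lam) s z = 0
    · rw [h0]; simp
    · have h2 := ch_grad (h.2 s hs) v
      have h3 : Fintype.card J * Mth * ∑ j, (ℓ j v / ρ s j) ^ 2 ≤ Fintype.card J * Mth * R :=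
        mul_le_mul_of_nonneg_left (hR s hs h0) (mul_nonneg (Nat.cast_nonneg _) Mth_pos.le)
      have h4 := mul_le_mul_of_nonneg_left (h2.trans h3)
        (sq_nonneg (ch (fun _ : Unit => ℓ₀) (fun _ => lam) s z))
      linarith
  refine (Finset.sum_le_sum h1).trans ?_
  rw [Finset.sum_add_distrib, ← Finset.mul_sum, ch_sum h.1]
  have h2 := ch_grad h.1 v
  simp only [Fintype.card_unit, Nat.cast_one, one_mul, Finset.univ_unique, Finset.sum_const,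
    Finset.card_singleton, one_smul] at h2
  linarith

section Int

variable [MeasurableSpace E] [BorelSpace E] (μ : Measure E) [IsFiniteMeasureOnCompacts μ]
variable {α β : ι → E} {A B : ι → E → ℝ} {b c : E → ℝ} {lq : ι → E →L[ℝ] ℝ} {g : ℝ}

/-- **Freezing theorem.** `O` is any set containing the supports. -/
theorem slab (fz : FZ μ α β lq g) (hg : 0 ≤ g) {O : Set E}
    {Ef e₁ e₂ Ga Gb : E → ℝ} {r : J → E → ℝ} {δ : ℝ} (hδ : 0 < δ) (hδ1 : δ ≤ 1)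
    (hlam : 0 < lam) (hb : Ts b) (hc : Ts c) (hO : tsupport b ∪ tsupport c ⊆ O)
    (hEf : Continuous Ef) (he₁ : Continuous e₁) (he₂ : Continuous e₂) (hGa : Continuous Ga)
    (hGb : Continuous Gb) (hA' : ∀ i, Continuous (A i)) (hB' : ∀ i, Continuous (B i))
    (hE0 : ∀ z ∈ O, 0 < Ef z) (hr0 : ∀ z ∈ O, ∀ j, 0 < r j z)
    (hB0 : ∀ z ∈ O, (fun i => B i z) ≠ 0)
    (hr : ∀ z ∈ O, ∀ z' ∈ O, |ℓ₀ z - ℓ₀ z'| ≤ 2 * lam → ∀ j, r j z ≤ 2 * r j z')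
    (hcell : ∀ z ∈ O, ∀ z' ∈ O, (∀ j, r j z * (ℓ j z - ℓ j z') ^ 2 ≤ 4) →
      (1 - δ) * Ef z' ≤ Ef z ∧ (1 - δ) * Ef z ≤ Ef z' ∧
      (∀ i, |A i z - A i z' - Ef z' * (lq i z - lq i z')| ≤ e₁ z) ∧
      ∀ i, |B i z - B i z'| ≤ e₂ z)
    (ha : ∀ z ∈ O, Mth * ∑ i, (ℓ₀ (α i) / lam) ^ 2
      + 4 * Fintype.card J * Mth * ∑ i, ∑ j, ℓ j (α i) ^ 2 * r j z ≤ Ga z)
    (hb' : ∀ z ∈ O, Mth * ∑ i, (ℓ₀ (β i) / lam) ^ 2
      + 4 * Fintype.card J * Mth * ∑ i, ∑ j, ℓ j (β i) ^ 2 * r j z ≤ Gb z) :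
    (1 - δ) ^ 4 * g * ∫ z, Ef z ^ 2 * b z ^ 2 ∂μ
        - (Fintype.card ι / δ) * ∫ z, Ef z * (8 * e₁ z ^ 2 * b z ^ 2 + 2 * e₂ z ^ 2 * c z ^ 2) ∂μ
        - ∫ z, Ef z * (8 * Ga z * b z ^ 2 + 2 * Gb z * c z ^ 2) ∂μ
      ≤ ∫ z, Ef z * YY α β A B b c z ∂μ := by
  classical
  set S := tsupport b ∪ tsupport c with hS
  have cS : IsCompact S := hb.2.isCompact.union hc.2.isCompact
  -- centres of the slabs
  set cs : (Unit → ℤ) → E → ℝ := fun s => ch (fun _ : Unit => ℓ₀) (fun _ => lam) s with hcs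
  have hctr : ∀ s : Unit → ℤ, ∃ p : E, (S ∩ tsupport (cs s)).Nonempty → p ∈ S ∩ tsupport (cs s) := by
    intro s
    by_cases h : (S ∩ tsupport (cs s)).Nonempty
    · exact ⟨h.choose, fun _ => h.choose_spec⟩
    · exact ⟨0, fun h' => absurd h' h⟩
  choose ctr hctr' using hctr
  set ρ : (Unit → ℤ) → J → ℝ := fun s j =>
    if (S ∩ tsupport (cs s)).Nonempty then (Real.sqrt (2 * r j (ctr s)))⁻¹ else 1 with hρd
  have hρ0 : ∀ s j, 0 < ρ s j := by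
    intro s j
    simp only [hρd]
    split_ifs with h
    · have := hr0 _ (hO (hctr' s h).1) j
      positivity
    · exact one_pos
  have hρ2 : ∀ s, (S ∩ tsupport (cs s)).Nonempty → ∀ j, (1 / ρ s j) ^ 2 = 2 * r j (ctr s) := by
    intro s h j
    simp only [hρd, if_pos h]
    have := hr0 _ (hO (hctr' s h).1) j
    rw [one_div, inv_inv, Real.sq_sqrt (by positivity)]
  -- the slab relation
  have hslab : ∀ s, ∀ z ∈ S ∩ tsupport (cs s), ∀ z' ∈ S ∩ tsupport (cs s),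
      |ℓ₀ z - ℓ₀ z'| ≤ 2 * lam := by
    intro s z hz z' hz'
    have h1 := ch_supp (ρ := fun _ : Unit => lam) (fun _ => hlam) hz.2 ()
    have h2 := ch_supp (ρ := fun _ : Unit => lam) (fun _ => hlam) hz'.2 ()
    have h1' : |ℓ₀ z - lam * s ()| ≤ lam := h1
    have h2' : |ℓ₀ z' - lam * s ()| ≤ lam := h2
    rw [abs_le] at h1' h2' ⊢
    constructor <;> linarith [h1'.1, h1'.2, h2'.1, h2'.2]
  -- the boxes
  obtain ⟨L, hL⟩ := cov_cpt (fun _ : Unit => ℓ₀) (fun _ => lam) cS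
  have hL' : ∀ s : Unit → ℤ, ∃ L' : ℕ, S ⊆ cov ℓ (ρ s) L' := fun s => cov_cpt ℓ (ρ s) cS
  choose Ls hLs using hL'
  set L' := (bx Unit L).sup Ls with hL'd
  have hcov : ∀ z ∈ S, cov2 ℓ₀ lam ℓ ρ L L' z := fun z hz =>
    ⟨hL hz, fun s hs => cov_mono (Finset.le_sup (f := Ls) hs) (hLs s hz)⟩
  set F := bx Unit L ×ˢ bx J L' with hF
  set χ : (Unit → ℤ) × (J → ℤ) → E → ℝ := fun s => cc ℓ₀ lam ℓ ρ s with hχd
  -- centres of the cells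
  have hct2 : ∀ s : (Unit → ℤ) × (J → ℤ), ∃ p : E, (S ∩ tsupport (χ s)).Nonempty →
      p ∈ S ∩ tsupport (χ s) := by
    intro s
    by_cases h : (S ∩ tsupport (χ s)).Nonempty
    · exact ⟨h.choose, fun _ => h.choose_spec⟩
    · exact ⟨0, fun h' => absurd h' h⟩
  choose pt hpt using hct2
  have hsub : ∀ s : (Unit → ℤ) × (J → ℤ), tsupport (χ s) ⊆ tsupport (cs s.1) ∩
      tsupport (ch ℓ (ρ s.1) s.2) := fun s =>
    subset_inter tsupport_mul_subset_left tsupport_mul_subset_right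
  -- the bound of the gradients
  have hgr : ∀ z ∈ S, ∀ v, ∑ s ∈ F, (fderiv ℝ (χ s) z v) ^ 2
      ≤ Mth * (ℓ₀ v / lam) ^ 2 + Fintype.card J * Mth * ∑ j, 4 * (ℓ j v ^ 2 * r j z) := by
    intro z hz v
    refine cc_grad (hcov z hz) v ?_
    intro s hs h0
    have hz' : z ∈ S ∩ tsupport (cs s) := ⟨hz, subset_tsupport (cs s) h0⟩
    have hne : (S ∩ tsupport (cs s)).Nonempty := ⟨z, hz'⟩
    apply Finset.sum_le_sum
    intro j _
    have h1 : (ℓ j v / ρ s j) ^ 2 = ℓ j v ^ 2 * (1 / ρ s j) ^ 2 := by ring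
    rw [h1, hρ2 s hne j]
    have h2 := hr _ (hO (hctr' s hne).1) _ (hO hz) (hslab s _ (hctr' s hne) _ hz') j
    have h3 := mul_le_mul_of_nonneg_left h2 (sq_nonneg (ℓ j v))
    linarith
  have hsumv : ∀ (v : ι → E) (z : E), z ∈ S → ∑ k ∈ F, ∑ i, (fderiv ℝ (χ k) z (v i)) ^ 2
      ≤ Mth * ∑ i, (ℓ₀ (v i) / lam) ^ 2
        + 4 * Fintype.card J * Mth * ∑ i, ∑ j, ℓ j (v i) ^ 2 * r j z := by
    intro v z hz
    rw [Finset.sum_comm]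
    refine (Finset.sum_le_sum fun i _ => hgr z hz (v i)).trans (le_of_eq ?_)
    rw [Finset.sum_add_distrib, Finset.mul_sum, Finset.mul_sum]
    congr 1
    apply Finset.sum_congr rfl
    intro i _
    rw [← Finset.mul_sum]
    ring
  refine cells μ fz hg F (χ := χ) (Ef := Ef) (e₁ := e₁) (e₂ := e₂) (Ga := Ga) (Gb := Gb) hδ hδ1
    (τ := fun k => Ef (pt k))
    (w := fun k i => A i (pt k) - Ef (pt k) * lq i (pt k)) (m := fun k i => B i (pt k)) hb hc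
    (fun k _ => cc_smooth k) (fun z hz => cc_sum (hcov z hz))
    (fun z hz v => cc_dsum (hcov z hz) v) hEf he₁ he₂ hGa hGb hA' hB'
    (fun z hz => (hE0 z (hO hz)).le) ?_
    (fun z hz => (hsumv α z hz).trans (ha z (hO hz)))
    (fun z hz => (hsumv β z hz).trans (hb' z (hO hz)))
  intro k hk hne
  have hp := hpt k hne
  refine ⟨hE0 _ (hO hp.1), hB0 _ (hO hp.1), ?_⟩
  intro z hz
  -- the cell relation
  have hk1 := hsub k hp.2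
  have hk2 := hsub k hz.2
  have hne1 : (S ∩ tsupport (cs k.1)).Nonempty := ⟨z, hz.1, hk2.1⟩
  have hrel : ∀ j, r j z * (ℓ j z - ℓ j (pt k)) ^ 2 ≤ 4 := by
    intro j
    have h1 := ch_supp (hρ0 k.1) hk1.2 j
    have h2 := ch_supp (hρ0 k.1) hk2.2 j
    have h3 : |ℓ j z - ℓ j (pt k)| ≤ 2 * ρ k.1 j := by
      rw [abs_le] at h1 h2 ⊢
      constructor <;> linarith [h1.1, h1.2, h2.1, h2.2]
    have h4 : (ℓ j z - ℓ j (pt k)) ^ 2 ≤ (2 * ρ k.1 j) ^ 2 :=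
      sq_le_sq' (by linarith [(abs_le.1 h3).1]) (abs_le.1 h3).2
    have h5 : r j z ≤ 2 * r j (ctr k.1) :=
      hr _ (hO hz.1) _ (hO (hctr' k.1 hne1).1) (hslab k.1 _ ⟨hz.1, hk2.1⟩ _ (hctr' k.1 hne1)) j
    have h6 := hρ2 k.1 hne1 j
    have h7 : 2 * r j (ctr k.1) * (2 * ρ k.1 j) ^ 2 = 4 := by
      rw [← h6]
      have := (hρ0 k.1 j).ne'
      field_simp
      norm_num
    calc r j z * (ℓ j z - ℓ j (pt k)) ^ 2 ≤ 2 * r j (ctr k.1) * (2 * ρ k.1 j) ^ 2 :=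
          mul_le_mul h5 h4 (sq_nonneg _) (by have := hr0 _ (hO (hctr' k.1 hne1).1) j; positivity)
      _ = 4 := h7
  obtain ⟨q1, q2, q3, q4⟩ := hcell z (hO hz.1) (pt k) (hO hp.1) hrel
  refine ⟨⟨q1, q2⟩, fun i => ?_, q4⟩
  have := q3 i
  have e : A i z - (A i (pt k) - Ef (pt k) * lq i (pt k) + Ef (pt k) * lq i z)
      = A i z - A i (pt k) - Ef (pt k) * (lq i z - lq i (pt k)) := by ring
  rw [e]
  exact this

end Int

end Vale.Agent.P088.R2.H960.C
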