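import Vale.Agent.P088.R2.H960.C.Slab

/-!
# The freezing theorem with variable frames

`α i, β i : E → E` vector fields. First-level boxes in arbitrary coordinates `l0 j`, `j : J₀`.
-/

open Set MeasureTheory
open scoped ContDiff

noncomputable section

namespace Vale.Agent.P088.R2.H960.C

variable {E : Type*} [NormedAddCommGroup E] [NormedSpace ℝ E] {ι : Type*} [Fintype ι]
  {J : Type*} [Fintype J] [DecidableEq J] {J₀ : Type*} [Fintype J₀] [DecidableEq J₀]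

set_option linter.unusedSectionVars false

/-! ### Norms of the gradients of the cutoffs -/

section norm

variable {ℓ : J → E →L[ℝ] ℝ} {ρ : J → ℝ}

theorem ch_fd (k : J → ℤ) (z : E) : fderiv ℝ (ch ℓ ρ k) z
    = ∑ i, ((∏ j ∈ Finset.univ.erase i, th (ℓ j z / ρ j - k j)) *
        (deriv th (ℓ i z / ρ i - k i) * (ρ i)⁻¹)) • ℓ i := by
  ext v
  rw [ch_dv, _root_.sum_apply]
  apply Finset.sum_congr rfl
  intro i _
  rw [_root_.smul_apply, smul_eq_mul]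
  ring

theorem ch_ngrad {L : ℕ} {z : E} (hz : z ∈ cov ℓ ρ L) :
    ∑ k ∈ bx J L, ‖fderiv ℝ (ch ℓ ρ k) z‖ ^ 2
      ≤ Fintype.card J * Mth * ∑ j, (‖ℓ j‖ / ρ j) ^ 2 := by
  have h1 : ∀ k : J → ℤ, ‖fderiv ℝ (ch ℓ ρ k) z‖ ^ 2 ≤ Fintype.card J *
      ∑ i, (‖ℓ i‖ / ρ i) ^ 2 * ∏ j, (if j = i then deriv th (ℓ j z / ρ j - k j) ^ 2
        else th (ℓ j z / ρ j - k j) ^ 2) := by
    intro k
    rw [ch_fd]
    have h2 := norm_sum_le Finset.univ (fun i => ((∏ j ∈ Finset.univ.erase i,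
      th (ℓ j z / ρ j - k j)) * (deriv th (ℓ i z / ρ i - k i) * (ρ i)⁻¹)) • ℓ i)
    refine (pow_le_pow_left₀ (norm_nonneg _) h2 2).trans ?_
    refine (sq_sum_le_card_mul_sum_sq).trans ?_
    rw [Finset.card_univ]
    apply mul_le_mul_of_nonneg_left _ (Nat.cast_nonneg _)
    apply le_of_eq
    apply Finset.sum_congr rfl
    intro i _
    rw [← Finset.mul_prod_erase Finset.univ _ (Finset.mem_univ i)]
    rw [if_pos rfl]
    have : ∏ j ∈ Finset.univ.erase i, (if j = i then deriv th (ℓ j z / ρ j - k j) ^ 2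
        else th (ℓ j z / ρ j - k j) ^ 2) = (∏ j ∈ Finset.univ.erase i, th (ℓ j z / ρ j - k j)) ^ 2 := by
      rw [← Finset.prod_pow]
      apply Finset.prod_congr rfl
      intro j hj
      rw [if_neg (Finset.ne_of_mem_erase hj)]
    rw [this, norm_smul, mul_pow, Real.norm_eq_abs, sq_abs]
    ring
  calc _ ≤ ∑ k ∈ bx J L, (Fintype.card J : ℝ) *
      ∑ i, (‖ℓ i‖ / ρ i) ^ 2 * ∏ j, (if j = i then deriv th (ℓ j z / ρ j - k j) ^ 2
        else th (ℓ j z / ρ j - k j) ^ 2) := Finset.sum_le_sum fun k _ => h1 k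
    _ = Fintype.card J * ∑ i, (‖ℓ i‖ / ρ i) ^ 2 * ∑ k ∈ bx J L,
        ∏ j, (if j = i then deriv th (ℓ j z / ρ j - k j) ^ 2
        else th (ℓ j z / ρ j - k j) ^ 2) := by
        rw [← Finset.mul_sum, Finset.sum_comm]
        simp_rw [← Finset.mul_sum]
    _ ≤ Fintype.card J * ∑ i, (‖ℓ i‖ / ρ i) ^ 2 * Mth := by
        apply mul_le_mul_of_nonneg_left _ (Nat.cast_nonneg _)
        apply Finset.sum_le_sum
        intro i _
        apply mul_le_mul_of_nonneg_left _ (sq_nonneg _)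
        have := Finset.prod_univ_sum (fun _ : J => Finset.Icc (-(L : ℤ)) L)
          (fun (j : J) (m : ℤ) => if j = i then deriv th (ℓ j z / ρ j - m) ^ 2
            else th (ℓ j z / ρ j - m) ^ 2)
        unfold bx
        rw [← this, ← Finset.mul_prod_erase Finset.univ _ (Finset.mem_univ i)]
        have h2 : ∏ j ∈ Finset.univ.erase i, ∑ m ∈ Finset.Icc (-(L : ℤ)) L,
            (if j = i then deriv th (ℓ j z / ρ j - m) ^ 2 else th (ℓ j z / ρ j - m) ^ 2) = 1 := by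
          apply Finset.prod_eq_one
          intro j hj
          simp_rw [if_neg (Finset.ne_of_mem_erase hj)]
          exact th_sum (fl_mem (hz j)).1 (fl_mem (hz j)).2
        rw [h2, mul_one]
        simp only [if_true]
        exact dth_sum _ _
    _ = _ := by rw [← Finset.sum_mul]; ring

end norm

/-! ### Two levels of boxes -/

/-- The composed cutoffs. -/
def cg (l0 : J₀ → E →L[ℝ] ℝ) (lam : ℝ) (ℓ : J → E →L[ℝ] ℝ) (ρ : (J₀ → ℤ) → J → ℝ)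
    (s : (J₀ → ℤ) × (J → ℤ)) (z : E) : ℝ :=
  ch l0 (fun _ => lam) s.1 z * ch ℓ (ρ s.1) s.2 z

variable {l0 : J₀ → E →L[ℝ] ℝ} {lam : ℝ} {ℓ : J → E →L[ℝ] ℝ} {ρ : (J₀ → ℤ) → J → ℝ}

theorem cg_smooth (s : (J₀ → ℤ) × (J → ℤ)) : ContDiff ℝ ∞ (cg l0 lam ℓ ρ s) :=
  (ch_smooth _ _ _).mul (ch_smooth _ _ _)

theorem cg_fd (s : (J₀ → ℤ) × (J → ℤ)) (z : E) : fderiv ℝ (cg l0 lam ℓ ρ s) z
    = ch l0 (fun _ => lam) s.1 z • fderiv ℝ (ch ℓ (ρ s.1) s.2) z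
      + ch ℓ (ρ s.1) s.2 z • fderiv ℝ (ch l0 (fun _ => lam) s.1) z := by
  have h1 : DifferentiableAt ℝ (ch l0 (fun _ => lam) s.1) z :=
    (ch_smooth _ _ _).contDiffAt.differentiableAt (by simp)
  have h2 : DifferentiableAt ℝ (ch ℓ (ρ s.1) s.2) z :=
    (ch_smooth _ _ _).contDiffAt.differentiableAt (by simp)
  have : cg l0 lam ℓ ρ s = fun z => ch l0 (fun _ => lam) s.1 z * ch ℓ (ρ s.1) s.2 z := rfl
  rw [this, fderiv_fun_mul h1 h2]

theorem cg_dv (s : (J₀ → ℤ) × (J → ℤ)) (z v : E) : fderiv ℝ (cg l0 lam ℓ ρ s) z v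
    = ch l0 (fun _ => lam) s.1 z * fderiv ℝ (ch ℓ (ρ s.1) s.2) z v
      + fderiv ℝ (ch l0 (fun _ => lam) s.1) z v * ch ℓ (ρ s.1) s.2 z := by
  rw [cg_fd]
  simp only [_root_.add_apply, _root_.smul_apply, smul_eq_mul]
  ring

/-- Both coverings at `z`. -/
def covg (l0 : J₀ → E →L[ℝ] ℝ) (lam : ℝ) (ℓ : J → E →L[ℝ] ℝ) (ρ : (J₀ → ℤ) → J → ℝ)
    (L L' : ℕ) (z : E) : Prop :=
  z ∈ cov l0 (fun _ => lam) L ∧ ∀ s ∈ bx J₀ L, z ∈ cov ℓ (ρ s) L'

theorem cg_sum {L L' : ℕ} {z : E} (h : covg l0 lam ℓ ρ L L' z) :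
    ∑ s ∈ bx J₀ L ×ˢ bx J L', cg l0 lam ℓ ρ s z ^ 2 = 1 := by
  rw [Finset.sum_product]
  unfold cg
  have : ∀ s ∈ bx J₀ L, ∑ k ∈ bx J L', (ch l0 (fun _ => lam) s z * ch ℓ (ρ s) k z) ^ 2
      = ch l0 (fun _ => lam) s z ^ 2 := by
    intro s hs
    have e : ∀ k ∈ bx J L', (ch l0 (fun _ => lam) s z * ch ℓ (ρ s) k z) ^ 2
        = ch l0 (fun _ => lam) s z ^ 2 * ch ℓ (ρ s) k z ^ 2 := fun k _ => by ring
    rw [Finset.sum_congr rfl e, ← Finset.mul_sum, ch_sum (h.2 s hs), mul_one]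
  rw [Finset.sum_congr rfl this]
  exact ch_sum h.1

theorem cg_dsum {L L' : ℕ} {z : E} (h : covg l0 lam ℓ ρ L L' z) (v : E) :
    ∑ s ∈ bx J₀ L ×ˢ bx J L', cg l0 lam ℓ ρ s z * fderiv ℝ (cg l0 lam ℓ ρ s) z v = 0 := by
  rw [Finset.sum_product]
  have : ∀ s ∈ bx J₀ L, ∑ k ∈ bx J L',
      cg l0 lam ℓ ρ (s, k) z * fderiv ℝ (cg l0 lam ℓ ρ (s, k)) z v
      = ch l0 (fun _ => lam) s z * fderiv ℝ (ch l0 (fun _ => lam) s) z v := by
    intro s hs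
    have e : ∀ k ∈ bx J L', cg l0 lam ℓ ρ (s, k) z * fderiv ℝ (cg l0 lam ℓ ρ (s, k)) z v
        = ch l0 (fun _ => lam) s z ^ 2 * (ch ℓ (ρ s) k z * fderiv ℝ (ch ℓ (ρ s) k) z v)
          + (ch l0 (fun _ => lam) s z * fderiv ℝ (ch l0 (fun _ => lam) s) z v)
            * ch ℓ (ρ s) k z ^ 2 := by
      intro k _
      rw [cg_dv]
      unfold cg
      ring
    rw [Finset.sum_congr rfl e, Finset.sum_add_distrib, ← Finset.mul_sum, ← Finset.mul_sum,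
      ch_dsum (h.2 s hs), ch_sum (h.2 s hs)]
    ring
  rw [Finset.sum_congr rfl this]
  exact ch_dsum h.1 v

theorem cg_grad {L L' : ℕ} {z : E} (h : covg l0 lam ℓ ρ L L' z) (v : E) {R : ℝ}
    (hR : ∀ s ∈ bx J₀ L, ch l0 (fun _ => lam) s z ≠ 0 → ∑ j, (ℓ j v / ρ s j) ^ 2 ≤ R) :
    ∑ s ∈ bx J₀ L ×ˢ bx J L', (fderiv ℝ (cg l0 lam ℓ ρ s) z v) ^ 2
      ≤ Fintype.card J₀ * Mth * ∑ j, (l0 j v / lam) ^ 2 + Fintype.card J * Mth * R := by
  rw [Finset.sum_product]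
  have h1 : ∀ s ∈ bx J₀ L, ∑ k ∈ bx J L', (fderiv ℝ (cg l0 lam ℓ ρ (s, k)) z v) ^ 2
      ≤ (fderiv ℝ (ch l0 (fun _ => lam) s) z v) ^ 2
        + (Fintype.card J * Mth * R) * ch l0 (fun _ => lam) s z ^ 2 := by
    intro s hs
    have e : ∀ k ∈ bx J L', (fderiv ℝ (cg l0 lam ℓ ρ (s, k)) z v) ^ 2
        = ch l0 (fun _ => lam) s z ^ 2 * (fderiv ℝ (ch ℓ (ρ s) k) z v) ^ 2
          + (2 * ch l0 (fun _ => lam) s z * fderiv ℝ (ch l0 (fun _ => lam) s) z v)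
            * (ch ℓ (ρ s) k z * fderiv ℝ (ch ℓ (ρ s) k) z v)
          + (fderiv ℝ (ch l0 (fun _ => lam) s) z v) ^ 2 * ch ℓ (ρ s) k z ^ 2 := by
      intro k _
      rw [cg_dv]
      ring
    rw [Finset.sum_congr rfl e, Finset.sum_add_distrib, Finset.sum_add_distrib,
      ← Finset.mul_sum, ← Finset.mul_sum, ← Finset.mul_sum, ch_dsum (h.2 s hs),
      ch_sum (h.2 s hs)]
    by_cases h0 : ch l0 (fun _ => lam) s z = 0
    · rw [h0]; simp
    · have h2 := ch_grad (h.2 s hs) v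
      have h3 : Fintype.card J * Mth * ∑ j, (ℓ j v / ρ s j) ^ 2 ≤ Fintype.card J * Mth * R :=
        mul_le_mul_of_nonneg_left (hR s hs h0) (mul_nonneg (Nat.cast_nonneg _) Mth_pos.le)
      have h4 := mul_le_mul_of_nonneg_left (h2.trans h3) (sq_nonneg (ch l0 (fun _ => lam) s z))
      linarith
  refine (Finset.sum_le_sum h1).trans ?_
  rw [Finset.sum_add_distrib, ← Finset.mul_sum, ch_sum h.1]
  have h2 := ch_grad h.1 v
  linarith

theorem cg_ngrad {L L' : ℕ} {z : E} (h : covg l0 lam ℓ ρ L L' z) {R : ℝ}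
    (hR : ∀ s ∈ bx J₀ L, ch l0 (fun _ => lam) s z ≠ 0 → ∑ j, (‖ℓ j‖ / ρ s j) ^ 2 ≤ R) :
    ∑ s ∈ bx J₀ L ×ˢ bx J L', ‖fderiv ℝ (cg l0 lam ℓ ρ s) z‖ ^ 2
      ≤ 2 * (Fintype.card J₀ * Mth * ∑ j, (‖l0 j‖ / lam) ^ 2) + 2 * (Fintype.card J * Mth * R) := by
  rw [Finset.sum_product]
  have h1 : ∀ s ∈ bx J₀ L, ∑ k ∈ bx J L', ‖fderiv ℝ (cg l0 lam ℓ ρ (s, k)) z‖ ^ 2
      ≤ 2 * ‖fderiv ℝ (ch l0 (fun _ => lam) s) z‖ ^ 2
        + (2 * (Fintype.card J * Mth * R)) * ch l0 (fun _ => lam) s z ^ 2 := by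
    intro s hs
    have e : ∀ k ∈ bx J L', ‖fderiv ℝ (cg l0 lam ℓ ρ (s, k)) z‖ ^ 2
        ≤ (2 * ch l0 (fun _ => lam) s z ^ 2) * ‖fderiv ℝ (ch ℓ (ρ s) k) z‖ ^ 2
          + (2 * ‖fderiv ℝ (ch l0 (fun _ => lam) s) z‖ ^ 2) * ch ℓ (ρ s) k z ^ 2 := by
      intro k _
      rw [cg_fd]
      have h2 := norm_add_le (ch l0 (fun _ => lam) s z • fderiv ℝ (ch ℓ (ρ s) k) z)
        (ch ℓ (ρ s) k z • fderiv ℝ (ch l0 (fun _ => lam) s) z)
      have h3 := pow_le_pow_left₀ (norm_nonneg _) h2 2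
      rw [norm_smul, norm_smul, Real.norm_eq_abs, Real.norm_eq_abs] at h3
      have h4 : ∀ a b c d : ℝ, (|a| * b + |c| * d) ^ 2 ≤ 2 * a ^ 2 * b ^ 2 + 2 * d ^ 2 * c ^ 2 := by
        intro a b c d
        have := sq_nonneg (|a| * b - |c| * d)
        have h5 := sq_abs a
        have h6 := sq_abs c
        calc (|a| * b + |c| * d) ^ 2 ≤ 2 * (|a| ^ 2 * b ^ 2) + 2 * (|c| ^ 2 * d ^ 2) := by nlinarith
          _ = _ := by rw [h5, h6]; ring
      exact h3.trans (h4 _ _ _ _)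
    refine (Finset.sum_le_sum e).trans ?_
    rw [Finset.sum_add_distrib, ← Finset.mul_sum, ← Finset.mul_sum, ch_sum (h.2 s hs), mul_one]
    by_cases h0 : ch l0 (fun _ => lam) s z = 0
    · rw [h0]; simp
    · have h2 := ch_ngrad (h.2 s hs)
      have h3 : Fintype.card J * Mth * ∑ j, (‖ℓ j‖ / ρ s j) ^ 2 ≤ Fintype.card J * Mth * R :=
        mul_le_mul_of_nonneg_left (hR s hs h0) (mul_nonneg (Nat.cast_nonneg _) Mth_pos.le)
      have h4 := mul_le_mul_of_nonneg_left (h2.trans h3)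
        (by positivity : 0 ≤ 2 * (ch l0 (fun _ => lam) s z) ^ 2)
      linarith
  refine (Finset.sum_le_sum h1).trans ?_
  rw [Finset.sum_add_distrib, ← Finset.mul_sum, ← Finset.mul_sum, ch_sum h.1]
  have h2 := ch_ngrad h.1
  linarith

/-! ### Forms with variable frames -/

variable {A B : ι → E → ℝ} {b c : E → ℝ}

/-- The square of the form with vector fields `α`, `β`. -/
def YG (α β : ι → E → E) (A B : ι → E → ℝ) (b c : E → ℝ) (z : E) : ℝ :=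
  YY (fun i => α i z) (fun i => β i z) A B b c z

/-- Pointwise comparison with a frozen form with other vectors. -/
theorem frz_ptG {α β α' β' : ι → E} {A' B' : ι → E → ℝ} {z : E} {δ e₁ e₂ e₃ : ℝ} (hδ : 0 < δ)
    (hA : ∀ i, |A i z - A' i z| ≤ e₁) (hB : ∀ i, |B i z - B' i z| ≤ e₂)
    (ha : ∀ i, ‖α i - α' i‖ ≤ e₃) (hb : ∀ i, ‖β i - β' i‖ ≤ e₃) :
    (1 - δ) * YY α' β' A' B' b c z
        - (16 * Fintype.card ι / δ) * (e₁ ^ 2 * b z ^ 2 + e₂ ^ 2 * c z ^ 2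
          + e₃ ^ 2 * (‖fderiv ℝ b z‖ ^ 2 + ‖fderiv ℝ c z‖ ^ 2))
      ≤ YY α β A B b c z := by
  unfold YY
  rw [Finset.mul_sum]
  set R := e₁ ^ 2 * b z ^ 2 + e₂ ^ 2 * c z ^ 2
          + e₃ ^ 2 * (‖fderiv ℝ b z‖ ^ 2 + ‖fderiv ℝ c z‖ ^ 2) with hR
  have e : (16 * Fintype.card ι / δ) * R = ∑ _i : ι, (1 / δ) * (16 * R) := by
    rw [Finset.sum_const, Finset.card_univ, nsmul_eq_mul]; ring
  rw [e, ← Finset.sum_sub_distrib]
  apply Finset.sum_le_sum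
  intro i _
  set y := Yi α β A B b c i z with hy
  set y' := Yi α' β' A' B' b c i z with hy'
  set p := fderiv ℝ b z (α i - α' i) with hp
  set q := fderiv ℝ c z (β i - β' i) with hq
  set s := (A i z - A' i z) * b z with hs
  set t := (B i z - B' i z) * c z with ht
  have hd : y = y' + (2 * (-p + s) + (-q + t)) := by
    simp only [hy, hy', hp, hq, hs, ht, Yi, map_sub]; ring
  have hp2 : p ^ 2 ≤ e₃ ^ 2 * ‖fderiv ℝ b z‖ ^ 2 := by
    have h1 : |p| ≤ ‖fderiv ℝ b z‖ * e₃ := by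
      rw [← Real.norm_eq_abs]
      exact (ContinuousLinearMap.le_opNorm _ _).trans
        (mul_le_mul_of_nonneg_left (ha i) (norm_nonneg _))
    have := pow_le_pow_left₀ (abs_nonneg _) h1 2
    rw [sq_abs] at this
    linarith
  have hq2 : q ^ 2 ≤ e₃ ^ 2 * ‖fderiv ℝ c z‖ ^ 2 := by
    have h1 : |q| ≤ ‖fderiv ℝ c z‖ * e₃ := by
      rw [← Real.norm_eq_abs]
      exact (ContinuousLinearMap.le_opNorm _ _).trans
        (mul_le_mul_of_nonneg_left (hb i) (norm_nonneg _))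
    have := pow_le_pow_left₀ (abs_nonneg _) h1 2
    rw [sq_abs] at this
    linarith
  have hs2 : s ^ 2 ≤ e₁ ^ 2 * b z ^ 2 := by
    have h1 : (A i z - A' i z) ^ 2 ≤ e₁ ^ 2 := sq_le_sq' (by linarith [(abs_le.1 (hA i)).1])
      (abs_le.1 (hA i)).2
    have := mul_le_mul_of_nonneg_right h1 (sq_nonneg (b z))
    rw [hs, mul_pow]; exact this
  have ht2 : t ^ 2 ≤ e₂ ^ 2 * c z ^ 2 := by
    have h1 : (B i z - B' i z) ^ 2 ≤ e₂ ^ 2 := sq_le_sq' (by linarith [(abs_le.1 (hB i)).1])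
      (abs_le.1 (hB i)).2
    have := mul_le_mul_of_nonneg_right h1 (sq_nonneg (c z))
    rw [ht, mul_pow]; exact this
  clear_value y y' p q s t
  set f := 2 * (-p + s) + (-q + t) with hf
  have hf2 : f ^ 2 ≤ 16 * R := by
    have h1 : f ^ 2 ≤ 16 * (p ^ 2 + s ^ 2 + q ^ 2 + t ^ 2) := by
      rw [hf]
      nlinarith [sq_nonneg (p + s), sq_nonneg (p - q), sq_nonneg (p + t), sq_nonneg (s + q),
        sq_nonneg (s - t), sq_nonneg (q + t), sq_nonneg p, sq_nonneg q, sq_nonneg s, sq_nonneg t]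
    have : p ^ 2 + s ^ 2 + q ^ 2 + t ^ 2 ≤ R := by rw [hR]; linarith
    linarith
  have h6 : 0 ≤ (1 / δ) * (δ * y' + f) ^ 2 := by positivity
  have h7 : (1 / δ) * (δ * y' + f) ^ 2 = δ * y' ^ 2 + 2 * y' * f + (1 / δ) * f ^ 2 := by
    field_simp
    ring
  have h8 : (1 / δ) * f ^ 2 ≤ (1 / δ) * (16 * R) := mul_le_mul_of_nonneg_left hf2 (by positivity)
  have h9 : 0 ≤ f ^ 2 := sq_nonneg f
  rw [h7] at h6
  rw [hd]
  nlinarith

end Vale.Agent.P088.R2.H960.C
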