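import Vale.Agent.P088.R2.H960.C.SlabG

/-!
# The freezing theorem with variable frames: integrals
-/

open Set MeasureTheory
open scoped ContDiff

noncomputable section

namespace Vale.Agent.P088.R2.H960.C

variable {E : Type*} [NormedAddCommGroup E] [NormedSpace ℝ E] {ι : Type*} [Fintype ι]
  {J : Type*} [Fintype J] [DecidableEq J] {J₀ : Type*} [Fintype J₀] [DecidableEq J₀]
  [MeasurableSpace E] [BorelSpace E] (μ : Measure E) [IsFiniteMeasureOnCompacts μ]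
  {α β : ι → E → E} {A B : ι → E → ℝ} {b c : E → ℝ} {g : ℝ}

set_option linter.unusedSectionVars false

theorem YG_zero {z : E} (hb : z ∉ tsupport b) (hc : z ∉ tsupport c) : YG α β A B b c z = 0 :=
  YY_zero hb hc

theorem YG_nonneg (z : E) : 0 ≤ YG α β A B b c z := YY_nonneg z

theorem YG_cont (hα : ∀ i, Continuous (α i)) (hβ : ∀ i, Continuous (β i))
    (hA : ∀ i, Continuous (A i)) (hB : ∀ i, Continuous (B i)) (hb : Ts b)
    (hc : Ts c) : Continuous (YG α β A B b c) := by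
  unfold YG YY Yi
  have hdb : Continuous (fderiv ℝ b) := hb.1.continuous_fderiv (by simp)
  have hdc : Continuous (fderiv ℝ c) := hc.1.continuous_fderiv (by simp)
  exact continuous_finsetSum _ fun i _ =>
    ((continuous_const.mul ((hdb.clm_apply (hα i)).neg.add ((hA i).mul hb.1.continuous))).add
      ((hdc.clm_apply (hβ i)).neg.add ((hB i).mul hc.1.continuous))).pow 2

/-- The error density. -/
def erd (e₁ e₂ e₃ b c : E → ℝ) (z : E) : ℝ :=
  e₁ z ^ 2 * b z ^ 2 + e₂ z ^ 2 * c z ^ 2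
    + e₃ z ^ 2 * (‖fderiv ℝ b z‖ ^ 2 + ‖fderiv ℝ c z‖ ^ 2)

theorem erd_cont {e₁ e₂ e₃ : E → ℝ} (h1 : Continuous e₁) (h2 : Continuous e₂)
    (h3 : Continuous e₃) (hb : Ts b) (hc : Ts c) : Continuous (erd e₁ e₂ e₃ b c) := by
  have hdb : Continuous (fderiv ℝ b) := hb.1.continuous_fderiv (by simp)
  have hdc : Continuous (fderiv ℝ c) := hc.1.continuous_fderiv (by simp)
  exact (((h1.pow 2).mul (hb.1.continuous.pow 2)).add ((h2.pow 2).mul (hc.1.continuous.pow 2))).add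
    ((h3.pow 2).mul ((hdb.norm.pow 2).add (hdc.norm.pow 2)))

theorem fd_zero {f : E → ℝ} {z : E} (hf : z ∉ tsupport f) : fderiv ℝ f z = 0 := by
  by_contra h
  exact hf (support_fderiv_subset ℝ h)

theorem erd_zero {e₁ e₂ e₃ : E → ℝ} {z : E} (hb : z ∉ tsupport b) (hc : z ∉ tsupport c) :
    erd e₁ e₂ e₃ b c z = 0 := by
  unfold erd
  rw [image_eq_zero_of_notMem_tsupport hb, image_eq_zero_of_notMem_tsupport hc, fd_zero hb,
    fd_zero hc]
  simp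

/-- One cell. -/
theorem oneG {α' β' : ι → E} {lq : ι → E →L[ℝ] ℝ} (fz : FZ μ α' β' lq g) (hg : 0 ≤ g)
    {Ef e₁ e₂ e₃ : E → ℝ} {δ τ : ℝ} (hδ : 0 < δ)
    (hδ1 : δ ≤ 1) (hτ : 0 < τ) {w m : ι → ℝ} (hm : m ≠ 0) (hb : Ts b) (hc : Ts c)
    (hEf : Continuous Ef) (he₁ : Continuous e₁) (he₂ : Continuous e₂) (he₃ : Continuous e₃)
    (hα : ∀ i, Continuous (α i)) (hβ : ∀ i, Continuous (β i))
    (hA' : ∀ i, Continuous (A i)) (hB' : ∀ i, Continuous (B i))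
    (hE : ∀ z ∈ tsupport b ∪ tsupport c, (1 - δ) * τ ≤ Ef z ∧ (1 - δ) * Ef z ≤ τ ∧ 0 ≤ Ef z)
    (hA : ∀ z ∈ tsupport b ∪ tsupport c, ∀ i, |A i z - (w i + τ * lq i z)| ≤ e₁ z)
    (hB : ∀ z ∈ tsupport b ∪ tsupport c, ∀ i, |B i z - m i| ≤ e₂ z)
    (ha : ∀ z ∈ tsupport b ∪ tsupport c, ∀ i, ‖α i z - α' i‖ ≤ e₃ z)
    (hb' : ∀ z ∈ tsupport b ∪ tsupport c, ∀ i, ‖β i z - β' i‖ ≤ e₃ z) :
    (1 - δ) ^ 4 * g * ∫ z, Ef z ^ 2 * b z ^ 2 ∂μ
        - (16 * Fintype.card ι / δ) * ∫ z, Ef z * erd e₁ e₂ e₃ b c z ∂μ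
      ≤ ∫ z, Ef z * YG α β A B b c z ∂μ := by
  set A' : ι → E → ℝ := fun i z => w i + τ * lq i z with hA'd
  set B' : ι → E → ℝ := fun i _ => m i with hB'd
  have cA' : ∀ i, Continuous (A' i) := fun i =>
    continuous_const.add (continuous_const.mul (lq i).continuous)
  have cB' : ∀ i, Continuous (B' i) := fun i => continuous_const
  have hδ0 : 0 ≤ 1 - δ := by linarith
  set er : E → ℝ := erd e₁ e₂ e₃ b c with her
  have cer : Continuous er := erd_cont he₁ he₂ he₃ hb hc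
  -- pointwise
  have hpt : ∀ z, (1 - δ) ^ 2 * τ * YY α' β' A' B' b c z
      - (16 * Fintype.card ι / δ) * (Ef z * er z) ≤ Ef z * YG α β A B b c z := by
    intro z
    by_cases hz : z ∈ tsupport b ∪ tsupport c
    · obtain ⟨h1, _, h3⟩ := hE z hz
      have h4 := frz_ptG (α := fun i => α i z) (β := fun i => β i z) (α' := α') (β' := β')
        (b := b) (c := c) (A := A) (B := B) (A' := A')
        (B' := B') hδ (hA z hz) (hB z hz) (ha z hz) (hb' z hz)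
      have h4' : (1 - δ) * YY α' β' A' B' b c z - (16 * Fintype.card ι / δ) * er z
          ≤ YG α β A B b c z := h4
      have h5 := mul_le_mul_of_nonneg_left h4' h3
      have h6 : (1 - δ) * ((1 - δ) * τ * YY α' β' A' B' b c z)
          ≤ (1 - δ) * (Ef z * YY α' β' A' B' b c z) :=
        mul_le_mul_of_nonneg_left (mul_le_mul_of_nonneg_right h1 (YY_nonneg z)) hδ0
      have e : Ef z * ((1 - δ) * YY α' β' A' B' b c z - (16 * Fintype.card ι / δ) * er z)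
          = (1 - δ) * (Ef z * YY α' β' A' B' b c z)
            - (16 * Fintype.card ι / δ) * (Ef z * er z) := by ring
      rw [e] at h5
      linarith
    · simp only [mem_union, not_or] at hz
      rw [YY_zero hz.1 hz.2, YG_zero hz.1 hz.2, her, erd_zero hz.1 hz.2]
      simp
  have I0 : Integrable (fun z => YY α' β' A' B' b c z) μ :=
    int_of μ (YY_cont cA' cB' hb hc) hb hc fun z h1 h2 => YY_zero h1 h2
  have I1 : Integrable (fun z => Ef z * er z) μ :=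
    int_of μ (hEf.mul cer) hb hc fun z h1 h2 => by
      show Ef z * er z = 0
      rw [her, erd_zero h1 h2]; ring
  have I2 : Integrable (fun z => Ef z * YG α β A B b c z) μ :=
    int_of μ (hEf.mul (YG_cont hα hβ hA' hB' hb hc)) hb hc fun z h1 h2 => by
      show Ef z * YG α β A B b c z = 0
      rw [YG_zero h1 h2]; ring
  have h1 := integral_mono ((I0.const_mul ((1 - δ) ^ 2 * τ)).sub
    (I1.const_mul (16 * Fintype.card ι / δ))) I2 hpt
  have e1 : ∫ z, ((fun z => (1 - δ) ^ 2 * τ * YY α' β' A' B' b c z)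
      - (fun z => (16 * Fintype.card ι / δ) * (Ef z * er z)) : E → ℝ) z ∂μ
      = (1 - δ) ^ 2 * τ * ∫ z, YY α' β' A' B' b c z ∂μ
        - (16 * Fintype.card ι / δ) * ∫ z, Ef z * er z ∂μ := by
    rw [integral_sub' (I0.const_mul _) (I1.const_mul _), integral_const_mul, integral_const_mul]
  rw [e1] at h1
  -- the frozen inequality
  have h2 := fz τ hτ w m hm b c hb hc
  -- comparison of the weights
  have h3 : (1 - δ) ^ 2 * ∫ z, Ef z ^ 2 * b z ^ 2 ∂μ ≤ τ ^ 2 * ∫ z, b z ^ 2 ∂μ := by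
    rw [← integral_const_mul, ← integral_const_mul]
    apply integral_mono ((w_int μ (hEf.pow 2) hb).const_mul _)
    · have := w_int μ (g := fun _ => τ ^ 2) continuous_const hb
      exact this
    · intro z
      by_cases hz : z ∈ tsupport b ∪ tsupport c
      · obtain ⟨_, h2, h3⟩ := hE z hz
        have h4 : ((1 - δ) * Ef z) ^ 2 ≤ τ ^ 2 :=
          pow_le_pow_left₀ (mul_nonneg hδ0 h3) h2 2
        have h5 := mul_le_mul_of_nonneg_right h4 (sq_nonneg (b z))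
        show (1 - δ) ^ 2 * (Ef z ^ 2 * b z ^ 2) ≤ τ ^ 2 * b z ^ 2
        linarith
      · simp only [mem_union, not_or] at hz
        show (1 - δ) ^ 2 * (Ef z ^ 2 * b z ^ 2) ≤ τ ^ 2 * b z ^ 2
        rw [image_eq_zero_of_notMem_tsupport hz.1]
        simp
  have h4 : (1 - δ) ^ 2 * τ * (g * τ * ∫ z, b z ^ 2 ∂μ)
      ≤ (1 - δ) ^ 2 * τ * ∫ z, YY α' β' A' B' b c z ∂μ :=
    mul_le_mul_of_nonneg_left h2 (by positivity)
  have h5 := mul_le_mul_of_nonneg_left h3 (mul_nonneg (sq_nonneg (1 - δ)) hg)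
  have e2 : (1 - δ) ^ 2 * g * ((1 - δ) ^ 2 * ∫ z, Ef z ^ 2 * b z ^ 2 ∂μ)
      = (1 - δ) ^ 4 * g * ∫ z, Ef z ^ 2 * b z ^ 2 ∂μ := by ring
  have e3 : (1 - δ) ^ 2 * g * (τ ^ 2 * ∫ z, b z ^ 2 ∂μ)
      = (1 - δ) ^ 2 * τ * (g * τ * ∫ z, b z ^ 2 ∂μ) := by ring
  rw [e2, e3] at h5
  linarith

/-- The total error density. -/
def ert (e₁ e₂ e₃ Gn b c : E → ℝ) (z : E) : ℝ :=
  e₁ z ^ 2 * b z ^ 2 + e₂ z ^ 2 * c z ^ 2
    + 2 * e₃ z ^ 2 * (‖fderiv ℝ b z‖ ^ 2 + ‖fderiv ℝ c z‖ ^ 2 + Gn z * (b z ^ 2 + c z ^ 2))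

theorem ert_cont {e₁ e₂ e₃ Gn : E → ℝ} (h1 : Continuous e₁) (h2 : Continuous e₂)
    (h3 : Continuous e₃) (h4 : Continuous Gn) (hb : Ts b) (hc : Ts c) :
    Continuous (ert e₁ e₂ e₃ Gn b c) := by
  have hdb : Continuous (fderiv ℝ b) := hb.1.continuous_fderiv (by simp)
  have hdc : Continuous (fderiv ℝ c) := hc.1.continuous_fderiv (by simp)
  exact (((h1.pow 2).mul (hb.1.continuous.pow 2)).add ((h2.pow 2).mul (hc.1.continuous.pow 2))).add
    ((continuous_const.mul (h3.pow 2)).mul (((hdb.norm.pow 2).add (hdc.norm.pow 2)).add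
      (h4.mul ((hb.1.continuous.pow 2).add (hc.1.continuous.pow 2)))))

theorem ert_zero {e₁ e₂ e₃ Gn : E → ℝ} {z : E} (hb : z ∉ tsupport b) (hc : z ∉ tsupport c) :
    ert e₁ e₂ e₃ Gn b c z = 0 := by
  unfold ert
  rw [image_eq_zero_of_notMem_tsupport hb, image_eq_zero_of_notMem_tsupport hc, fd_zero hb,
    fd_zero hc]
  simp

theorem fd_mul_le {χ f : E → ℝ} {z : E} (hχ : DifferentiableAt ℝ χ z)
    (hf : DifferentiableAt ℝ f z) : ‖fderiv ℝ (fun z => χ z * f z) z‖ ^ 2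
      ≤ 2 * χ z ^ 2 * ‖fderiv ℝ f z‖ ^ 2 + 2 * ‖fderiv ℝ χ z‖ ^ 2 * f z ^ 2 := by
  rw [fderiv_fun_mul hχ hf]
  have h2 := norm_add_le (χ z • fderiv ℝ f z) (f z • fderiv ℝ χ z)
  have h3 := pow_le_pow_left₀ (norm_nonneg _) h2 2
  rw [norm_smul, norm_smul, Real.norm_eq_abs, Real.norm_eq_abs] at h3
  have h4 : ∀ a b c d : ℝ, (|a| * b + |c| * d) ^ 2 ≤ 2 * a ^ 2 * b ^ 2 + 2 * d ^ 2 * c ^ 2 := by
    intro a b c d
    have := sq_nonneg (|a| * b - |c| * d)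
    have h5 := sq_abs a
    have h6 := sq_abs c
    calc (|a| * b + |c| * d) ^ 2 ≤ 2 * (|a| ^ 2 * b ^ 2) + 2 * (|c| ^ 2 * d ^ 2) := by nlinarith
      _ = _ := by rw [h5, h6]; ring
  exact h3.trans (h4 _ _ _ _)

/-- Sum over a finite family of cells. -/
theorem cellsG (hg : 0 ≤ g) {κ : Type*} (F : Finset κ) {χ : κ → E → ℝ}
    {Ef e₁ e₂ e₃ Ga Gb Gn : E → ℝ} {δ : ℝ} (hδ : 0 < δ) (hδ1 : δ ≤ 1) {τ : κ → ℝ}
    {w m : κ → ι → ℝ} {α' β' : κ → ι → E} {lq : κ → ι → E →L[ℝ] ℝ}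
    (hb : Ts b) (hc : Ts c) (hχ : ∀ k ∈ F, ContDiff ℝ ∞ (χ k))
    (h1 : ∀ z ∈ tsupport b ∪ tsupport c, ∑ k ∈ F, χ k z ^ 2 = 1)
    (h2 : ∀ z ∈ tsupport b ∪ tsupport c, ∀ v, ∑ k ∈ F, χ k z * fderiv ℝ (χ k) z v = 0)
    (hEf : Continuous Ef) (he₁ : Continuous e₁) (he₂ : Continuous e₂) (he₃ : Continuous e₃)
    (hGa : Continuous Ga) (hGb : Continuous Gb) (hGn : Continuous Gn)
    (hα : ∀ i, Continuous (α i)) (hβ : ∀ i, Continuous (β i))
    (hA' : ∀ i, Continuous (A i)) (hB' : ∀ i, Continuous (B i))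
    (hE0 : ∀ z ∈ tsupport b ∪ tsupport c, 0 ≤ Ef z)
    (hcell : ∀ k ∈ F, ((tsupport b ∪ tsupport c) ∩ tsupport (χ k)).Nonempty →
      FZ μ (α' k) (β' k) (lq k) g ∧
      0 < τ k ∧ m k ≠ 0 ∧ ∀ z ∈ (tsupport b ∪ tsupport c) ∩ tsupport (χ k),
        ((1 - δ) * τ k ≤ Ef z ∧ (1 - δ) * Ef z ≤ τ k) ∧
        (∀ i, |A i z - (w k i + τ k * lq k i z)| ≤ e₁ z) ∧ (∀ i, |B i z - m k i| ≤ e₂ z) ∧
        (∀ i, ‖α i z - α' k i‖ ≤ e₃ z) ∧ ∀ i, ‖β i z - β' k i‖ ≤ e₃ z)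
    (ha : ∀ z ∈ tsupport b ∪ tsupport c, ∑ k ∈ F, ∑ i, (fderiv ℝ (χ k) z (α i z)) ^ 2 ≤ Ga z)
    (hb' : ∀ z ∈ tsupport b ∪ tsupport c, ∑ k ∈ F, ∑ i, (fderiv ℝ (χ k) z (β i z)) ^ 2 ≤ Gb z)
    (hn : ∀ z ∈ tsupport b ∪ tsupport c, ∑ k ∈ F, ‖fderiv ℝ (χ k) z‖ ^ 2 ≤ Gn z) :
    (1 - δ) ^ 4 * g * ∫ z, Ef z ^ 2 * b z ^ 2 ∂μ
        - (16 * Fintype.card ι / δ) * ∫ z, Ef z * ert e₁ e₂ e₃ Gn b c z ∂μ
        - ∫ z, Ef z * (8 * Ga z * b z ^ 2 + 2 * Gb z * c z ^ 2) ∂μ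
      ≤ ∫ z, Ef z * YG α β A B b c z ∂μ := by
  classical
  set S := tsupport b ∪ tsupport c with hS
  have hks : ∀ k, ∀ f : E → ℝ, tsupport (fun z => χ k z * f z) ⊆ tsupport f ∩ tsupport (χ k) :=
    fun k f => subset_inter (tsupport_mul_subset_right) (tsupport_mul_subset_left)
  have hcard : 0 ≤ 16 * (Fintype.card ι : ℝ) / δ := by positivity
  -- every cell
  have hone : ∀ k ∈ F, (1 - δ) ^ 4 * g * ∫ z, Ef z ^ 2 * (χ k z * b z) ^ 2 ∂μ
        - (16 * Fintype.card ι / δ) * ∫ z, Ef z * erd e₁ e₂ e₃ (fun z => χ k z * b z)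
          (fun z => χ k z * c z) z ∂μ
      ≤ ∫ z, Ef z * YG α β A B (fun z => χ k z * b z) (fun z => χ k z * c z) z ∂μ := by
    intro k hk
    have tb := hb.mul_left (hχ k hk)
    have tc := hc.mul_left (hχ k hk)
    by_cases hne : (S ∩ tsupport (χ k)).Nonempty
    · obtain ⟨p0, p1, p2, p3⟩ := hcell k hk hne
      have hsub : ∀ z ∈ tsupport (fun z => χ k z * b z) ∪ tsupport (fun z => χ k z * c z),
          z ∈ S ∩ tsupport (χ k) := by
        rintro z (hz | hz)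
        · exact ⟨Or.inl (hks k b hz).1, (hks k b hz).2⟩
        · exact ⟨Or.inr (hks k c hz).1, (hks k c hz).2⟩
      exact oneG μ p0 hg hδ hδ1 p1 p2 tb tc hEf he₁ he₂ he₃ hα hβ hA' hB'
        (fun z hz => ⟨(p3 z (hsub z hz)).1.1, (p3 z (hsub z hz)).1.2, hE0 z (hsub z hz).1⟩)
        (fun z hz => (p3 z (hsub z hz)).2.1) (fun z hz => (p3 z (hsub z hz)).2.2.1)
        (fun z hz => (p3 z (hsub z hz)).2.2.2.1) (fun z hz => (p3 z (hsub z hz)).2.2.2.2)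
    · have hz0 : ∀ z, χ k z * b z = 0 := by
        intro z
        by_contra h
        exact hne ⟨z, Or.inl (hks k b (subset_tsupport (fun z => χ k z * b z) h)).1,
          (hks k b (subset_tsupport (fun z => χ k z * b z) h)).2⟩
      have hz1 : ∀ z, χ k z * c z = 0 := by
        intro z
        by_contra h
        exact hne ⟨z, Or.inr (hks k c (subset_tsupport (fun z => χ k z * c z) h)).1,
          (hks k c (subset_tsupport (fun z => χ k z * c z) h)).2⟩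
      have hb0 : (fun z => χ k z * b z) = fun _ => 0 := funext hz0
      have hc0 : (fun z => χ k z * c z) = fun _ => 0 := funext hz1
      rw [hb0, hc0]
      have e1 : ∀ z, YG α β A B (fun _ : E => (0 : ℝ)) (fun _ : E => (0 : ℝ)) z = 0 := by
        intro z
        unfold YG YY Yi
        simp
      have e2 : ∀ z, erd e₁ e₂ e₃ (fun _ : E => (0 : ℝ)) (fun _ : E => (0 : ℝ)) z = 0 := by
        intro z
        unfold erd
        simp
      simp [e1, e2, hz0]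
  -- sum of the pointwise identity
  have hpt : ∀ z, ∑ k ∈ F, Ef z * YG α β A B (fun z => χ k z * b z) (fun z => χ k z * c z) z
      ≤ Ef z * YG α β A B b c z + Ef z * (8 * Ga z * b z ^ 2 + 2 * Gb z * c z ^ 2) := by
    intro z
    by_cases hz : z ∈ S
    · rw [← Finset.mul_sum]
      have h0 := ims_pt (α := fun i => α i z) (β := fun i => β i z) (A := A) (B := B) F
        (fun k hk => ((hχ k hk).differentiable (by simp)) z)
        (hb.df z) (hc.df z) (h1 z hz) (h2 z hz)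
      have h0' : ∑ k ∈ F, YG α β A B (fun z => χ k z * b z) (fun z => χ k z * c z) z
          = YG α β A B b c z + ∑ k ∈ F, ∑ i, (2 * (fderiv ℝ (χ k) z (α i z) * b z)
            + fderiv ℝ (χ k) z (β i z) * c z) ^ 2 := h0
      rw [h0', mul_add]
      apply add_le_add le_rfl
      apply mul_le_mul_of_nonneg_left _ (hE0 z hz)
      have h3 : ∀ k ∈ F, ∑ i, (2 * (fderiv ℝ (χ k) z (α i z) * b z)
          + fderiv ℝ (χ k) z (β i z) * c z) ^ 2
          ≤ 8 * b z ^ 2 * ∑ i, (fderiv ℝ (χ k) z (α i z)) ^ 2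
            + 2 * c z ^ 2 * ∑ i, (fderiv ℝ (χ k) z (β i z)) ^ 2 := by
        intro k _
        rw [Finset.mul_sum, Finset.mul_sum, ← Finset.sum_add_distrib]
        apply Finset.sum_le_sum
        intro i _
        nlinarith [sq_nonneg (2 * (fderiv ℝ (χ k) z (α i z) * b z)
          - fderiv ℝ (χ k) z (β i z) * c z)]
      refine (Finset.sum_le_sum h3).trans ?_
      rw [Finset.sum_add_distrib, ← Finset.mul_sum, ← Finset.mul_sum]
      have h4 := mul_le_mul_of_nonneg_left (ha z hz) (by positivity : 0 ≤ 8 * b z ^ 2)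
      have h5 := mul_le_mul_of_nonneg_left (hb' z hz) (by positivity : 0 ≤ 2 * c z ^ 2)
      linarith
    · simp only [hS, mem_union, not_or] at hz
      have e1 : ∀ k ∈ F, Ef z * YG α β A B (fun z => χ k z * b z) (fun z => χ k z * c z) z = 0 := by
        intro k _
        rw [YG_zero, mul_zero]
        · exact fun h => hz.1 (hks k b h).1
        · exact fun h => hz.2 (hks k c h).1
      rw [Finset.sum_eq_zero e1, YG_zero hz.1 hz.2, image_eq_zero_of_notMem_tsupport hz.1,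
        image_eq_zero_of_notMem_tsupport hz.2]
      simp
  -- sum of the error densities
  have hpe : ∀ z, ∑ k ∈ F, Ef z * erd e₁ e₂ e₃ (fun z => χ k z * b z) (fun z => χ k z * c z) z
      ≤ Ef z * ert e₁ e₂ e₃ Gn b c z := by
    intro z
    by_cases hz : z ∈ S
    · rw [← Finset.mul_sum]
      apply mul_le_mul_of_nonneg_left _ (hE0 z hz)
      have h3 : ∀ k ∈ F, erd e₁ e₂ e₃ (fun z => χ k z * b z) (fun z => χ k z * c z) z
          ≤ (e₁ z ^ 2 * b z ^ 2 + e₂ z ^ 2 * c z ^ 2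
              + 2 * e₃ z ^ 2 * (‖fderiv ℝ b z‖ ^ 2 + ‖fderiv ℝ c z‖ ^ 2)) * χ k z ^ 2
            + (2 * e₃ z ^ 2 * (b z ^ 2 + c z ^ 2)) * ‖fderiv ℝ (χ k) z‖ ^ 2 := by
        intro k hk
        have d0 : DifferentiableAt ℝ (χ k) z := ((hχ k hk).differentiable (by simp)) z
        have m1 := mul_le_mul_of_nonneg_left (fd_mul_le d0 (hb.df z)) (sq_nonneg (e₃ z))
        have m2 := mul_le_mul_of_nonneg_left (fd_mul_le d0 (hc.df z)) (sq_nonneg (e₃ z))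
        unfold erd
        nlinarith
      refine (Finset.sum_le_sum h3).trans ?_
      rw [Finset.sum_add_distrib, ← Finset.mul_sum, ← Finset.mul_sum, h1 z hz, mul_one]
      have h4 := mul_le_mul_of_nonneg_left (hn z hz)
        (by positivity : 0 ≤ 2 * e₃ z ^ 2 * (b z ^ 2 + c z ^ 2))
      unfold ert
      nlinarith
    · simp only [hS, mem_union, not_or] at hz
      have e1 : ∀ k ∈ F, Ef z * erd e₁ e₂ e₃ (fun z => χ k z * b z) (fun z => χ k z * c z) z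
          = 0 := by
        intro k _
        rw [erd_zero, mul_zero]
        · exact fun h => hz.1 (hks k b h).1
        · exact fun h => hz.2 (hks k c h).1
      rw [Finset.sum_eq_zero e1, ert_zero hz.1 hz.2, mul_zero]
  have I2 : Integrable (fun z => Ef z * YG α β A B b c z) μ :=
    int_of μ (hEf.mul (YG_cont hα hβ hA' hB' hb hc)) hb hc fun z h1 h2 => by
      show Ef z * YG α β A B b c z = 0
      rw [YG_zero h1 h2]; ring
  have I3 : Integrable (fun z => Ef z * (8 * Ga z * b z ^ 2 + 2 * Gb z * c z ^ 2)) μ := by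
    apply int_of μ (hEf.mul (((continuous_const.mul hGa).mul (hb.1.continuous.pow 2)).add
      ((continuous_const.mul hGb).mul (hc.1.continuous.pow 2)))) hb hc
    intro z h1 h2
    show Ef z * (8 * Ga z * b z ^ 2 + 2 * Gb z * c z ^ 2) = 0
    rw [image_eq_zero_of_notMem_tsupport h1, image_eq_zero_of_notMem_tsupport h2]
    ring
  have I4 : Integrable (fun z => Ef z * ert e₁ e₂ e₃ Gn b c z) μ :=
    int_of μ (hEf.mul (ert_cont he₁ he₂ he₃ hGn hb hc)) hb hc fun z h1 h2 => by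
      show Ef z * ert e₁ e₂ e₃ Gn b c z = 0
      rw [ert_zero h1 h2]; ring
  have Ik : ∀ k ∈ F, Integrable
      (fun z => Ef z * YG α β A B (fun z => χ k z * b z) (fun z => χ k z * c z) z) μ := by
    intro k hk
    have tb := hb.mul_left (hχ k hk)
    have tc := hc.mul_left (hχ k hk)
    exact int_of μ (hEf.mul (YG_cont hα hβ hA' hB' tb tc)) tb tc fun z h1 h2 => by
      show Ef z * YG α β A B (fun z => χ k z * b z) (fun z => χ k z * c z) z = 0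
      rw [YG_zero h1 h2]; ring
  have Ie : ∀ k ∈ F, Integrable
      (fun z => Ef z * erd e₁ e₂ e₃ (fun z => χ k z * b z) (fun z => χ k z * c z) z) μ := by
    intro k hk
    have tb := hb.mul_left (hχ k hk)
    have tc := hc.mul_left (hχ k hk)
    exact int_of μ (hEf.mul (erd_cont he₁ he₂ he₃ tb tc)) tb tc fun z h1 h2 => by
      show Ef z * erd e₁ e₂ e₃ (fun z => χ k z * b z) (fun z => χ k z * c z) z = 0
      rw [erd_zero h1 h2]; ring
  have h3 := integral_mono (integrable_finsetSum F Ik) (I2.add I3) hpt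
  rw [integral_finsetSum F Ik] at h3
  have e3 : ∫ z, ((fun z => Ef z * YG α β A B b c z)
      + (fun z => Ef z * (8 * Ga z * b z ^ 2 + 2 * Gb z * c z ^ 2)) : E → ℝ) z ∂μ
      = ∫ z, Ef z * YG α β A B b c z ∂μ
        + ∫ z, Ef z * (8 * Ga z * b z ^ 2 + 2 * Gb z * c z ^ 2) ∂μ := integral_add' I2 I3
  rw [e3] at h3
  have h3e := integral_mono (integrable_finsetSum F Ie) I4 hpe
  rw [integral_finsetSum F Ie] at h3e
  have h4 := (Finset.sum_le_sum hone).trans h3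
  -- sum of the squares of the cutoffs
  have J1 : ∀ k ∈ F, Integrable (fun z => Ef z ^ 2 * (χ k z * b z) ^ 2) μ := fun k hk =>
    w_int μ (hEf.pow 2) (hb.mul_left (hχ k hk))
  have s1 : ∑ k ∈ F, ∫ z, Ef z ^ 2 * (χ k z * b z) ^ 2 ∂μ = ∫ z, Ef z ^ 2 * b z ^ 2 ∂μ := by
    rw [← integral_finsetSum F J1]
    congr 1
    funext z
    by_cases hz : z ∈ S
    · have : ∑ k ∈ F, Ef z ^ 2 * (χ k z * b z) ^ 2 = (Ef z ^ 2 * b z ^ 2) * ∑ k ∈ F, χ k z ^ 2 := by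
        rw [Finset.mul_sum]
        exact Finset.sum_congr rfl fun k _ => by ring
      rw [this, h1 z hz, mul_one]
    · simp only [hS, mem_union, not_or] at hz
      rw [image_eq_zero_of_notMem_tsupport hz.1]
      simp
  rw [Finset.sum_sub_distrib, ← Finset.mul_sum, ← Finset.mul_sum, s1] at h4
  have h5 := mul_le_mul_of_nonneg_left h3e hcard
  linarith

/-- **Freezing theorem with variable frames.** `O` is any set containing the supports;
`lq z₀ i` the dual coordinates at the centre `z₀`. -/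
theorem slabG {l0 : J₀ → E →L[ℝ] ℝ} {lam : ℝ} {ℓ : J → E →L[ℝ] ℝ}
    {lq : E → ι → E →L[ℝ] ℝ} {O : Set E}
    (fz : ∀ z₀ ∈ O, FZ μ (fun i => α i z₀) (fun i => β i z₀) (lq z₀) g) (hg : 0 ≤ g)
    {Ef e₁ e₂ e₃ Ga Gb Gn : E → ℝ} {r : J → E → ℝ} {δ : ℝ} (hδ : 0 < δ) (hδ1 : δ ≤ 1)
    (hlam : 0 < lam) (hb : Ts b) (hc : Ts c) (hO : tsupport b ∪ tsupport c ⊆ O)
    (hEf : Continuous Ef) (he₁ : Continuous e₁) (he₂ : Continuous e₂) (he₃ : Continuous e₃)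
    (hGa : Continuous Ga) (hGb : Continuous Gb) (hGn : Continuous Gn)
    (hα : ∀ i, Continuous (α i)) (hβ : ∀ i, Continuous (β i))
    (hA' : ∀ i, Continuous (A i)) (hB' : ∀ i, Continuous (B i))
    (hE0 : ∀ z ∈ O, 0 < Ef z) (hr0 : ∀ z ∈ O, ∀ j, 0 < r j z)
    (hB0 : ∀ z ∈ O, (fun i => B i z) ≠ 0)
    (hr : ∀ z ∈ O, ∀ z' ∈ O, (∀ j, |l0 j z - l0 j z'| ≤ 2 * lam) → ∀ j, r j z ≤ 2 * r j z')
    (hcell : ∀ z ∈ O, ∀ z' ∈ O, (∀ j, |l0 j z - l0 j z'| ≤ 2 * lam) →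
      (∀ j, r j z * (ℓ j z - ℓ j z') ^ 2 ≤ 4) →
      (1 - δ) * Ef z' ≤ Ef z ∧ (1 - δ) * Ef z ≤ Ef z' ∧
      (∀ i, |A i z - A i z' - Ef z' * lq z' i (z - z')| ≤ e₁ z) ∧
      (∀ i, |B i z - B i z'| ≤ e₂ z) ∧
      (∀ i, ‖α i z - α i z'‖ ≤ e₃ z) ∧ ∀ i, ‖β i z - β i z'‖ ≤ e₃ z)
    (ha : ∀ z ∈ O, Fintype.card J₀ * Mth * ∑ i, ∑ j, (l0 j (α i z) / lam) ^ 2
      + 4 * Fintype.card J * Mth * ∑ i, ∑ j, ℓ j (α i z) ^ 2 * r j z ≤ Ga z)
    (hb' : ∀ z ∈ O, Fintype.card J₀ * Mth * ∑ i, ∑ j, (l0 j (β i z) / lam) ^ 2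
      + 4 * Fintype.card J * Mth * ∑ i, ∑ j, ℓ j (β i z) ^ 2 * r j z ≤ Gb z)
    (hn : ∀ z ∈ O, 2 * (Fintype.card J₀ * Mth * ∑ j, (‖l0 j‖ / lam) ^ 2)
      + 8 * (Fintype.card J * Mth * ∑ j, ‖ℓ j‖ ^ 2 * r j z) ≤ Gn z) :
    (1 - δ) ^ 4 * g * ∫ z, Ef z ^ 2 * b z ^ 2 ∂μ
        - (16 * Fintype.card ι / δ) * ∫ z, Ef z * ert e₁ e₂ e₃ Gn b c z ∂μ
        - ∫ z, Ef z * (8 * Ga z * b z ^ 2 + 2 * Gb z * c z ^ 2) ∂μ
      ≤ ∫ z, Ef z * YG α β A B b c z ∂μ := by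
  classical
  set S := tsupport b ∪ tsupport c with hS
  have cS : IsCompact S := hb.2.isCompact.union hc.2.isCompact
  -- centres of the boxes
  set cs : (J₀ → ℤ) → E → ℝ := fun s => ch l0 (fun _ => lam) s with hcs
  have hctr : ∀ s : J₀ → ℤ, ∃ p : E, (S ∩ tsupport (cs s)).Nonempty → p ∈ S ∩ tsupport (cs s) := by
    intro s
    by_cases h : (S ∩ tsupport (cs s)).Nonempty
    · exact ⟨h.choose, fun _ => h.choose_spec⟩
    · exact ⟨0, fun h' => absurd h' h⟩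
  choose ctr hctr' using hctr
  set ρ : (J₀ → ℤ) → J → ℝ := fun s j =>
    if (S ∩ tsupport (cs s)).Nonempty then (Real.sqrt (2 * r j (ctr s)))⁻¹ else 1 with hρd
  have hρ0 : ∀ s j, 0 < ρ s j := by
    intro s j
    simp only [hρd]
    split_ifs with h
    · have := hr0 _ (hO (hctr' s h).1) j
      positivity
    · exact one_pos
  have hρ2 : ∀ s, (S ∩ tsupport (cs s)).Nonempty → ∀ j, (1 / ρ s j) ^ 2 = 2 * r j (ctr s) := by
    intro s h j
    simp only [hρd, if_pos h]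
    have := hr0 _ (hO (hctr' s h).1) j
    rw [one_div, inv_inv, Real.sq_sqrt (by positivity)]
  -- the box relation
  have hslab : ∀ s, ∀ z ∈ S ∩ tsupport (cs s), ∀ z' ∈ S ∩ tsupport (cs s),
      ∀ j, |l0 j z - l0 j z'| ≤ 2 * lam := by
    intro s z hz z' hz' j
    have h1 := ch_supp (ρ := fun _ : J₀ => lam) (fun _ => hlam) hz.2 j
    have h2 := ch_supp (ρ := fun _ : J₀ => lam) (fun _ => hlam) hz'.2 j
    rw [abs_le] at h1 h2 ⊢
    constructor <;> linarith [h1.1, h1.2, h2.1, h2.2]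
  -- the boxes
  obtain ⟨L, hL⟩ := cov_cpt l0 (fun _ => lam) cS
  have hL' : ∀ s : J₀ → ℤ, ∃ L' : ℕ, S ⊆ cov ℓ (ρ s) L' := fun s => cov_cpt ℓ (ρ s) cS
  choose Ls hLs using hL'
  set L' := (bx J₀ L).sup Ls with hL'd
  have hcov : ∀ z ∈ S, covg l0 lam ℓ ρ L L' z := fun z hz =>
    ⟨hL hz, fun s hs => cov_mono (Finset.le_sup (f := Ls) hs) (hLs s hz)⟩
  set F := bx J₀ L ×ˢ bx J L' with hF
  set χ : (J₀ → ℤ) × (J → ℤ) → E → ℝ := fun s => cg l0 lam ℓ ρ s with hχd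
  -- centres of the cells
  have hct2 : ∀ s : (J₀ → ℤ) × (J → ℤ), ∃ p : E, (S ∩ tsupport (χ s)).Nonempty →
      p ∈ S ∩ tsupport (χ s) := by
    intro s
    by_cases h : (S ∩ tsupport (χ s)).Nonempty
    · exact ⟨h.choose, fun _ => h.choose_spec⟩
    · exact ⟨0, fun h' => absurd h' h⟩
  choose pt hpt using hct2
  have hsub : ∀ s : (J₀ → ℤ) × (J → ℤ), tsupport (χ s) ⊆ tsupport (cs s.1) ∩
      tsupport (ch ℓ (ρ s.1) s.2) := fun s =>
    subset_inter tsupport_mul_subset_left tsupport_mul_subset_right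
  -- the bounds of the gradients
  have hrs : ∀ z ∈ S, ∀ s, ch l0 (fun _ => lam) s z ≠ 0 → ∀ j, (1 / ρ s j) ^ 2 ≤ 4 * r j z := by
    intro z hz s h0 j
    have hz' : z ∈ S ∩ tsupport (cs s) := ⟨hz, subset_tsupport (cs s) h0⟩
    have hne : (S ∩ tsupport (cs s)).Nonempty := ⟨z, hz'⟩
    rw [hρ2 s hne j]
    have h2 := hr _ (hO (hctr' s hne).1) _ (hO hz) (hslab s _ (hctr' s hne) _ hz') j
    linarith
  have hgr : ∀ z ∈ S, ∀ v, ∑ s ∈ F, (fderiv ℝ (χ s) z v) ^ 2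
      ≤ Fintype.card J₀ * Mth * ∑ j, (l0 j v / lam) ^ 2
        + Fintype.card J * Mth * ∑ j, 4 * (ℓ j v ^ 2 * r j z) := by
    intro z hz v
    refine cg_grad (hcov z hz) v ?_
    intro s hs h0
    apply Finset.sum_le_sum
    intro j _
    have h1 : (ℓ j v / ρ s j) ^ 2 = ℓ j v ^ 2 * (1 / ρ s j) ^ 2 := by ring
    rw [h1]
    have h3 := mul_le_mul_of_nonneg_left (hrs z hz s h0 j) (sq_nonneg (ℓ j v))
    linarith
  have hgn : ∀ z ∈ S, ∑ s ∈ F, ‖fderiv ℝ (χ s) z‖ ^ 2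
      ≤ 2 * (Fintype.card J₀ * Mth * ∑ j, (‖l0 j‖ / lam) ^ 2)
        + 2 * (Fintype.card J * Mth * ∑ j, 4 * (‖ℓ j‖ ^ 2 * r j z)) := by
    intro z hz
    refine cg_ngrad (hcov z hz) ?_
    intro s hs h0
    apply Finset.sum_le_sum
    intro j _
    have h1 : (‖ℓ j‖ / ρ s j) ^ 2 = ‖ℓ j‖ ^ 2 * (1 / ρ s j) ^ 2 := by ring
    rw [h1]
    have h3 := mul_le_mul_of_nonneg_left (hrs z hz s h0 j) (sq_nonneg ‖ℓ j‖)
    linarith
  have hsumv : ∀ (v : ι → E) (z : E), z ∈ S → ∑ k ∈ F, ∑ i, (fderiv ℝ (χ k) z (v i)) ^ 2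
      ≤ Fintype.card J₀ * Mth * ∑ i, ∑ j, (l0 j (v i) / lam) ^ 2
        + 4 * Fintype.card J * Mth * ∑ i, ∑ j, ℓ j (v i) ^ 2 * r j z := by
    intro v z hz
    rw [Finset.sum_comm]
    refine (Finset.sum_le_sum fun i _ => hgr z hz (v i)).trans (le_of_eq ?_)
    rw [Finset.sum_add_distrib, Finset.mul_sum, Finset.mul_sum]
    congr 1
    apply Finset.sum_congr rfl
    intro i _
    rw [← Finset.mul_sum]
    ring
  refine cellsG μ hg F (χ := χ) (Ef := Ef) (e₁ := e₁) (e₂ := e₂) (e₃ := e₃) (Ga := Ga)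
    (Gb := Gb) (Gn := Gn) hδ hδ1
    (τ := fun k => Ef (pt k)) (lq := fun k => lq (pt k)) (α' := fun k i => α i (pt k))
    (β' := fun k i => β i (pt k))
    (w := fun k i => A i (pt k) - Ef (pt k) * lq (pt k) i (pt k)) (m := fun k i => B i (pt k))
    hb hc
    (fun k _ => cg_smooth k) (fun z hz => cg_sum (hcov z hz))
    (fun z hz v => cg_dsum (hcov z hz) v) hEf he₁ he₂ he₃ hGa hGb hGn hα hβ hA' hB'
    (fun z hz => (hE0 z (hO hz)).le) ?_
    (fun z hz => (hsumv (fun i => α i z) z hz).trans (ha z (hO hz)))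
    (fun z hz => (hsumv (fun i => β i z) z hz).trans (hb' z (hO hz)))
    (fun z hz => (hgn z hz).trans (le_trans (le_of_eq (by
      rw [← Finset.mul_sum]; ring)) (hn z (hO hz))))
  intro k hk hne
  have hp := hpt k hne
  refine ⟨fz _ (hO hp.1), hE0 _ (hO hp.1), hB0 _ (hO hp.1), ?_⟩
  intro z hz
  -- the cell relation
  have hk1 := hsub k hp.2
  have hk2 := hsub k hz.2
  have hne1 : (S ∩ tsupport (cs k.1)).Nonempty := ⟨z, hz.1, hk2.1⟩
  have hrel : ∀ j, r j z * (ℓ j z - ℓ j (pt k)) ^ 2 ≤ 4 := by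
    intro j
    have h1 := ch_supp (hρ0 k.1) hk1.2 j
    have h2 := ch_supp (hρ0 k.1) hk2.2 j
    have h3 : |ℓ j z - ℓ j (pt k)| ≤ 2 * ρ k.1 j := by
      rw [abs_le] at h1 h2 ⊢
      constructor <;> linarith [h1.1, h1.2, h2.1, h2.2]
    have h4 : (ℓ j z - ℓ j (pt k)) ^ 2 ≤ (2 * ρ k.1 j) ^ 2 :=
      sq_le_sq' (by linarith [(abs_le.1 h3).1]) (abs_le.1 h3).2
    have h5 : r j z ≤ 2 * r j (ctr k.1) :=
      hr _ (hO hz.1) _ (hO (hctr' k.1 hne1).1) (hslab k.1 _ ⟨hz.1, hk2.1⟩ _ (hctr' k.1 hne1)) j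
    have h6 := hρ2 k.1 hne1 j
    have h7 : 2 * r j (ctr k.1) * (2 * ρ k.1 j) ^ 2 = 4 := by
      rw [← h6]
      have := (hρ0 k.1 j).ne'
      field_simp
      norm_num
    calc r j z * (ℓ j z - ℓ j (pt k)) ^ 2 ≤ 2 * r j (ctr k.1) * (2 * ρ k.1 j) ^ 2 :=
          mul_le_mul h5 h4 (sq_nonneg _) (by have := hr0 _ (hO (hctr' k.1 hne1).1) j; positivity)
      _ = 4 := h7
  obtain ⟨q1, q2, q3, q4, q5, q6⟩ := hcell z (hO hz.1) (pt k) (hO hp.1)
    (hslab k.1 _ ⟨hz.1, hk2.1⟩ _ ⟨hp.1, hk1.1⟩) hrel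
  refine ⟨⟨q1, q2⟩, fun i => ?_, q4, q5, q6⟩
  have := q3 i
  rw [map_sub] at this
  have e : A i z - (A i (pt k) - Ef (pt k) * lq (pt k) i (pt k) + Ef (pt k) * lq (pt k) i z)
      = A i z - A i (pt k) - Ef (pt k) * (lq (pt k) i z - lq (pt k) i (pt k)) := by ring
  rw [e]
  exact this

end Vale.Agent.P088.R2.H960.C
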