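import Vale.Agent.P088.R2.H960.C.RegF
import Vale.Agent.P088.R2.H960.C.Fz
import Vale.Agent.P088.R2.H644.W.Wt

/-!
# The frames of pairs of points, `∂_q = (∂_x - ∂_y)/2`, `∂_p = ∂_x + ∂_y`
-/

open Set MeasureTheory
open scoped ContDiff

noncomputable section

namespace Vale.Agent.P088.R2.H960.C

open Vale.Agent.P088.LR Vale.Agent.P088.HY Vale.Agent.P088.R2.H644

variable {n : ℕ}

/-- `∂_{q_i}`. -/
def va (i : Fin n) : VV n := ((1 / 2 : ℝ) • Pi.single i 1, -((1 / 2 : ℝ) • Pi.single i 1))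

/-- `∂_{p_i}`. -/
def vb (i : Fin n) : VV n := (Pi.single i 1, Pi.single i 1)

/-- `q_i`. -/
def vq (i : Fin n) : VV n →L[ℝ] ℝ :=
  (ContinuousLinearMap.proj i).comp (ContinuousLinearMap.fst ℝ (V n) (V n))
    - (ContinuousLinearMap.proj i).comp (ContinuousLinearMap.snd ℝ (V n) (V n))

/-- `p_i`. -/
def vp (i : Fin n) : VV n →L[ℝ] ℝ :=
  (1 / 2 : ℝ) • ((ContinuousLinearMap.proj i).comp (ContinuousLinearMap.fst ℝ (V n) (V n))
    + (ContinuousLinearMap.proj i).comp (ContinuousLinearMap.snd ℝ (V n) (V n)))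

theorem vq_apply (i : Fin n) (z : VV n) : vq i z = z.1 i - z.2 i := rfl

theorem vp_apply (i : Fin n) (z : VV n) : vp i z = (z.1 i + z.2 i) / 2 := by
  have : vp i z = (1 / 2 : ℝ) * (z.1 i + z.2 i) := rfl
  rw [this]; ring

theorem fr_VV : Fr (va (n := n)) vb vq vp where
  qa i j := by
    rw [vq_apply]
    simp only [va, Pi.smul_apply, Pi.neg_apply, Pi.single_apply, smul_eq_mul]
    split_ifs <;> norm_num
  qb i j := by
    rw [vq_apply]
    simp only [vb, sub_self]
  pa i j := by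
    rw [vp_apply]
    simp only [va, Pi.smul_apply, Pi.neg_apply, smul_eq_mul]
    ring
  pb i j := by
    rw [vp_apply]
    simp only [vb, Pi.single_apply]
    split_ifs <;> norm_num

theorem haar_VV : (volume : Measure (VV n)).IsAddHaarMeasure := by
  have : (volume : Measure (VV n)) = (volume : Measure (V n)).prod (volume : Measure (V n)) := rfl
  rw [this]
  exact Measure.prod.instIsAddHaarMeasure _ _

theorem fz_VV : FZ (volume : Measure (VV n)) va vb vq (8 * ((n : ℝ) - 1)) := by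
  have := haar_VV (n := n)
  have h := fz_iso (volume : Measure (VV n)) (α := va (n := n)) (β := vb) (lq := vq)
    fr_VV.qa fr_VV.qb
  rwa [Fintype.card_fin] at h

theorem va_eq (i : Fin n) : va i = (1 / 2 : ℝ) • ((Pi.single i 1, 0) : VV n)
    - (1 / 2 : ℝ) • ((0, Pi.single i 1) : VV n) := by
  ext j <;> simp [va]

theorem vb_eq (i : Fin n) : vb i = ((Pi.single i 1, 0) : VV n) + ((0, Pi.single i 1) : VV n) := by
  ext j <;> simp [vb]

theorem fd_va (f : VV n → ℝ) (i : Fin n) (z : VV n) :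
    fderiv ℝ f z (va i) = (dx i f z - dy i f z) / 2 := by
  rw [va_eq, map_sub, map_smul, map_smul]
  simp only [smul_eq_mul, dx, dy]
  ring

theorem fd_vb (f : VV n → ℝ) (i : Fin n) (z : VV n) :
    fderiv ℝ f z (vb i) = dx i f z + dy i f z := by
  rw [vb_eq, map_add]
  rfl

theorem uu_VV (e : Fin n) (z : VV n) : uu vp e z = z.1 e + z.2 e := by
  unfold uu
  rw [vp_apply]; ring

theorem Ee_VV (e : Fin n) (z : VV n) : C.Ee vp e z = H644.Ee e 1 z := by
  unfold C.Ee H644.Ee
  rw [uu_VV, one_mul]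

theorem r2_VV (z : VV n) : r2 vq z = qq z := rfl

/-- The form in the variables `x`, `y`. -/
theorem YY_VV {A B : Fin n → VV n → ℝ} {W f g : VV n → ℝ} {z : VV n}
    (hf : DifferentiableAt ℝ f z) (hg : DifferentiableAt ℝ g z)
    (hA : ∀ i, A i z = (dx i W z - dy i W z) / 2) (hB : ∀ i, B i z = dx i W z + dy i W z) :
    YY va vb A B (fun z => (f z + g z) / 2) (fun z => (f z - g z) / 2) z
      = ∑ i, ((f z * dx i W z - dx i f z) - (g z * dy i W z - dy i g z)) ^ 2 := by
  unfold YY Yi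
  apply Finset.sum_congr rfl
  intro i _
  have h1 : fderiv ℝ (fun z => (f z + g z) / 2) z = (1 / 2 : ℝ) • (fderiv ℝ f z + fderiv ℝ g z) := by
    have : (fun z => (f z + g z) / 2) = fun z => (1 / 2 : ℝ) • (f z + g z) := by
      funext w; simp only [smul_eq_mul]; ring
    rw [this, fderiv_fun_const_smul (hf.fun_add hg), fderiv_fun_add hf hg]
  have h2 : fderiv ℝ (fun z => (f z - g z) / 2) z = (1 / 2 : ℝ) • (fderiv ℝ f z - fderiv ℝ g z) := by
    have : (fun z => (f z - g z) / 2) = fun z => (1 / 2 : ℝ) • (f z - g z) := by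
      funext w; simp only [smul_eq_mul]; ring
    rw [this, fderiv_fun_const_smul (hf.fun_sub hg), fderiv_fun_sub hf hg]
  rw [h1, h2, hA, hB]
  simp only [_root_.smul_apply, _root_.add_apply, _root_.sub_apply, smul_eq_mul, fd_va, fd_vb]
  ring

end Vale.Agent.P088.R2.H960.C
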